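import Vale.Agent.P224.R2.H470.One

/-!
The rows of a minimal hypersurface at level T, one point fixed.
-/

namespace Vale.Agent.P224.R2.H460

open MeasureTheory Module Function Set Vale.Agent.P224.R2.H470
open scoped RealInnerProductSpace Topology ContDiff

set_option linter.unusedSectionVars false

/-- the kernel -/
noncomputable def kr (T : ℝ) (q : ℕ) (s : ℝ) : ℝ := ((1 - T * s) ^ q)⁻¹

lemma kr_pos {T s : ℝ} (q : ℕ) (h : 0 < 1 - T * s) : 0 < kr T q s := by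
  unfold kr
  positivity

lemma kr_mul {T s : ℝ} (q : ℕ) (h : 0 < 1 - T * s) : (1 - T * s) * kr T (q + 1) s = kr T q s := by
  unfold kr
  rw [pow_succ, mul_inv]
  have := h.ne'
  field_simp

lemma hasDerivAt_kr {T s : ℝ} (m : ℕ) (h : 0 < 1 - T * s) :
    HasDerivAt (kr T m) (m * T * kr T (m + 1) s) s := by
  have h1 : HasDerivAt (fun s : ℝ => 1 - T * s) (-T) s := by
    simpa using ((hasDerivAt_id s).const_mul T).const_sub 1
  have h2 := (h1.fun_pow m).fun_inv (pow_ne_zero m h.ne')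
  refine h2.congr_deriv ?_
  unfold kr
  rcases m with _ | m
  · simp
  · field_simp
    simp only [Nat.add_sub_cancel]
    ring

section

variable {X : Type*} {E : Type*} [NormedAddCommGroup E] [InnerProductSpace ℝ E]
variable [TopologicalSpace X] [MeasurableSpace X]
variable [CompactSpace X] [BorelSpace X] {μ : Measure X} [IsFiniteMeasure μ] {m : ℕ} {p n : X → E}

lemma one_sub_pos {T : ℝ} (h0 : 0 ≤ T) (h1 : T < 1) {x u : E} (hx : ‖x‖ = 1) (hu : ‖u‖ = 1) :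
    0 < 1 - T * ⟪x, u⟫ := by
  have h := real_inner_le_norm x u
  rw [hx, hu, one_mul] at h
  nlinarith

lemma contDiffAt_kr {T : ℝ} (q : ℕ) {x u : E} (h : 0 < 1 - T * ⟪x, u⟫) :
    ContDiffAt ℝ ∞ (fun u : E => kr T q ⟪x, u⟫) u := by
  unfold kr
  have h0 : ContDiffAt ℝ ∞ (fun u : E => ⟪x, u⟫) u := contDiffAt_const.inner ℝ contDiffAt_id
  have h1 : ContDiffAt ℝ ∞ (fun u : E => (1 - T * ⟪x, u⟫) ^ q) u :=
    (contDiffAt_const.sub (contDiffAt_const.mul h0)).pow q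
  exact h1.inv (pow_ne_zero q h.ne')

lemma hasFDerivAt_kr {T : ℝ} (q : ℕ) {x u : E} (h : 0 < 1 - T * ⟪x, u⟫) :
    HasFDerivAt (fun u : E => kr T q ⟪x, u⟫) ((q * T * kr T (q + 1) ⟪x, u⟫) • innerSL ℝ x) u := by
  have h1 : HasFDerivAt (fun u : E => ⟪x, u⟫) (innerSL ℝ x) u := by
    simpa using (innerSL ℝ x).hasFDerivAt (x := u)
  exact (hasDerivAt_kr q h).comp_hasFDerivAt u h1

lemma continuous_kr {T : ℝ} (h0 : 0 ≤ T) (h1 : T < 1) (q : ℕ) {x : E} (hx : ‖x‖ = 1) (hp : Continuous p)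
    (np : ∀ y, ‖p y‖ = 1) : Continuous fun y => kr T q ⟪x, p y⟫ := by
  unfold kr
  refine Continuous.inv₀ (by fun_prop) fun y => pow_ne_zero q (one_sub_pos h0 h1 hx (np y)).ne'

/-- the first row at level T -/
theorem row1 (h : OneP μ m p n) (hm : 1 ≤ m) {T : ℝ} (h0 : 0 ≤ T) (h1 : T < 1) {x : E} (hx : ‖x‖ = 1)
    (b : E) :
    ∫ y, kr T (m + 1) ⟪x, p y⟫ * (⟪p y - T • x, b⟫ + T * (⟪x, n y⟫ * ⟪n y, b⟫)) ∂μ = 0 := by
  have hp := h.cp
  have hn := h.cn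
  have hk : ∀ q, Continuous fun y => kr T q ⟪x, p y⟫ := fun q => continuous_kr h0 h1 q hx hp h.np
  have hm0 : (0 : ℝ) < m := by exact_mod_cast hm
  have hr := h.r1 (fun u => kr T m ⟪x, u⟫)
    (fun u hu => contDiffAt_kr m (one_sub_pos h0 h1 hx hu)) b
  have e1 : ∀ y, fderiv ℝ (fun u : E => kr T m ⟪x, u⟫) (p y) (tg p n y b)
      = m * T * kr T (m + 1) ⟪x, p y⟫ * ⟪x, tg p n y b⟫ := by
    intro y
    rw [(hasFDerivAt_kr m (one_sub_pos h0 h1 hx (h.np y))).fderiv]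
    simp
  simp only [e1] at hr
  have k1 := hk (m + 1)
  have k2 := hk m
  have i1 : Integrable (fun y => m * T * kr T (m + 1) ⟪x, p y⟫ * ⟪x, tg p n y b⟫) μ := by
    refine int_of_cont ?_
    unfold tg
    fun_prop
  have i2 : Integrable (fun y => ⟪p y, b⟫ * kr T m ⟪x, p y⟫) μ := int_of_cont (by fun_prop)
  have h2 : ∫ y, (m * T * kr T (m + 1) ⟪x, p y⟫ * ⟪x, tg p n y b⟫
      - m * (⟪p y, b⟫ * kr T m ⟪x, p y⟫)) ∂μ = 0 := by
    rw [integral_sub i1 (i2.const_mul _), integral_const_mul, hr, sub_self]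
  have h3 : ∀ y, m * T * kr T (m + 1) ⟪x, p y⟫ * ⟪x, tg p n y b⟫
      - m * (⟪p y, b⟫ * kr T m ⟪x, p y⟫)
      = (-m) * (kr T (m + 1) ⟪x, p y⟫ * (⟪p y - T • x, b⟫ + T * (⟪x, n y⟫ * ⟪n y, b⟫))) := by
    intro y
    rw [← kr_mul m (one_sub_pos h0 h1 hx (h.np y))]
    simp only [tg, inner_sub_left, inner_sub_right, real_inner_smul_left, real_inner_smul_right]
    ring
  simp only [h3] at h2
  rw [integral_const_mul] at h2
  have h4 : (-(m : ℝ)) ≠ 0 := by linarith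
  exact (mul_eq_zero.1 h2).resolve_left h4

/-- the second row at level T -/
theorem row2 (h : OneP μ m p n) {T : ℝ} (h0 : 0 ≤ T) (h1 : T < 1) {x : E} (hx : ‖x‖ = 1)
    (b : E) :
    m * ∫ y, kr T (m + 1) ⟪x, p y⟫ * ⟪p y - T • x, b⟫ ^ 2 ∂μ
      + m * T * ∫ y, kr T (m + 1) ⟪x, p y⟫ * (⟪x, n y⟫ * ⟪n y, b⟫ * ⟪p y - T • x, b⟫) ∂μ
      = ∫ y, kr T m ⟪x, p y⟫ * (‖b‖ ^ 2 - ⟪n y, b⟫ ^ 2 - ⟪p y, b⟫ ^ 2) ∂μ := by
  have hp := h.cp
  have hn := h.cn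
  have hk : ∀ q, Continuous fun y => kr T q ⟪x, p y⟫ := fun q => continuous_kr h0 h1 q hx hp h.np
  have hf1 : ∀ u : E, HasFDerivAt (fun u : E => ⟪u - T • x, b⟫) (innerSL ℝ b) u := by
    intro u
    have h2 : HasFDerivAt (fun u : E => ⟪b, u - T • x⟫) (innerSL ℝ b) u := by
      have h3 : HasFDerivAt (fun u : E => u - T • x) (ContinuousLinearMap.id ℝ E) u :=
        (hasFDerivAt_id u).sub_const _
      exact (innerSL ℝ b).hasFDerivAt.comp u h3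
    simpa only [real_inner_comm] using h2
  have hr := h.r1 (fun u => ⟪u - T • x, b⟫ * kr T m ⟪x, u⟫)
    (fun u hu => by
      have := contDiffAt_kr (T := T) m (one_sub_pos h0 h1 hx hu)
      have h5 : ContDiffAt ℝ ∞ (fun u : E => ⟪u - T • x, b⟫) u :=
        (contDiffAt_id.sub contDiffAt_const).inner ℝ contDiffAt_const
      exact h5.mul this) b
  have e1 : ∀ y, fderiv ℝ (fun u : E => ⟪u - T • x, b⟫ * kr T m ⟪x, u⟫) (p y) (tg p n y b)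
      = ⟪p y - T • x, b⟫ * (m * T * kr T (m + 1) ⟪x, p y⟫ * ⟪x, tg p n y b⟫)
        + kr T m ⟪x, p y⟫ * ⟪b, tg p n y b⟫ := by
    intro y
    have h6 : HasFDerivAt (fun u : E => ⟪u - T • x, b⟫ * kr T m ⟪x, u⟫) _ (p y) :=
      (hf1 (p y)).mul (hasFDerivAt_kr m (one_sub_pos h0 h1 hx (h.np y)))
    rw [h6.fderiv]
    simp
  simp only [e1] at hr
  have k1 := hk (m + 1)
  have k2 := hk m
  have ctg : Continuous fun y => tg p n y b := by unfold tg; fun_prop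
  have i1 : Integrable (fun y => ⟪p y - T • x, b⟫ * (m * T * kr T (m + 1) ⟪x, p y⟫ * ⟪x, tg p n y b⟫)
        + kr T m ⟪x, p y⟫ * ⟪b, tg p n y b⟫) μ := int_of_cont (by fun_prop)
  have i2 : Integrable (fun y => ⟪p y, b⟫ * (⟪p y - T • x, b⟫ * kr T m ⟪x, p y⟫)) μ :=
    int_of_cont (by fun_prop)
  have i3 : Integrable (fun y => kr T (m + 1) ⟪x, p y⟫ * ⟪p y - T • x, b⟫ ^ 2) μ :=
    int_of_cont (by fun_prop)
  have i4 : Integrable (fun y => kr T (m + 1) ⟪x, p y⟫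
      * (⟪x, n y⟫ * ⟪n y, b⟫ * ⟪p y - T • x, b⟫)) μ := int_of_cont (by fun_prop)
  have i5 : Integrable (fun y => kr T m ⟪x, p y⟫ * (‖b‖ ^ 2 - ⟪n y, b⟫ ^ 2 - ⟪p y, b⟫ ^ 2)) μ :=
    int_of_cont (by fun_prop)
  have h2 : ∫ y, (⟪p y - T • x, b⟫ * (m * T * kr T (m + 1) ⟪x, p y⟫ * ⟪x, tg p n y b⟫)
        + kr T m ⟪x, p y⟫ * ⟪b, tg p n y b⟫
      - m * (⟪p y, b⟫ * (⟪p y - T • x, b⟫ * kr T m ⟪x, p y⟫))) ∂μ = 0 := by
    rw [integral_sub i1 (i2.const_mul _), integral_const_mul, hr, sub_self]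
  have h3 : ∀ y, ⟪p y - T • x, b⟫ * (m * T * kr T (m + 1) ⟪x, p y⟫ * ⟪x, tg p n y b⟫)
        + kr T m ⟪x, p y⟫ * ⟪b, tg p n y b⟫
      - m * (⟪p y, b⟫ * (⟪p y - T • x, b⟫ * kr T m ⟪x, p y⟫))
      = kr T m ⟪x, p y⟫ * (‖b‖ ^ 2 - ⟪n y, b⟫ ^ 2 - ⟪p y, b⟫ ^ 2)
        - (m * (kr T (m + 1) ⟪x, p y⟫ * ⟪p y - T • x, b⟫ ^ 2)
          + m * T * (kr T (m + 1) ⟪x, p y⟫ * (⟪x, n y⟫ * ⟪n y, b⟫ * ⟪p y - T • x, b⟫))) := by
    intro y
    have hkm := kr_mul (T := T) m (one_sub_pos h0 h1 hx (h.np y))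
    have hbb : ⟪b, b⟫ = ‖b‖ ^ 2 := real_inner_self_eq_norm_sq b
    have hc1 : ⟪b, p y⟫ = ⟪p y, b⟫ := real_inner_comm _ _
    have hc2 : ⟪b, n y⟫ = ⟪n y, b⟫ := real_inner_comm _ _
    simp only [tg, inner_sub_left, inner_sub_right, real_inner_smul_left, real_inner_smul_right,
      hbb, hc1, hc2]
    rw [← hkm]
    ring
  simp only [h3] at h2
  have i6 : Integrable (fun y => m * (kr T (m + 1) ⟪x, p y⟫ * ⟪p y - T • x, b⟫ ^ 2)
          + m * T * (kr T (m + 1) ⟪x, p y⟫ * (⟪x, n y⟫ * ⟪n y, b⟫ * ⟪p y - T • x, b⟫))) μ :=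
    (i3.const_mul _).add (i4.const_mul _)
  rw [integral_sub i5 i6, integral_add (i3.const_mul _)
    (i4.const_mul _), integral_const_mul, integral_const_mul] at h2
  linarith

end

end Vale.Agent.P224.R2.H460
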