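import Vale.Agent.P224.R2.H460.Cl4
import Vale.Agent.P224.R2.H176.G.Glue0

/-!
The near range of the large dimensions, from the checked columns and the facts.
-/

namespace Vale.Agent.P224.R2.H460

open MeasureTheory Set Filter Function Real Module Vale.Agent.P224 Vale.Agent.P224.FV
open Vale.Agent.P224.SM2 Vale.Agent.P224.R2.H820 Vale.Agent.P224.R2.H728
open Vale.Agent.P224.R2.H627 Vale.Agent.P224.R2.H582 Vale.Agent.P224.R2.H470
open Vale.Agent.P224.R2.H925 (Fra)
open Vale.Agent.P224.R2.H484 (AbsTail)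
open Vale.Agent.P224.R2.H176 (NearData)
open Vale.Agent.P224.R2.H662 (Dt ad qd dop dop_symm bxData_of hh_norm cob jj_bounds int_z_eq)
open scoped Topology RealInnerProductSpace ContDiff Manifold

set_option linter.unusedSectionVars false

/-- the conditions on the relative tails -/
def tlsOK (p : ParS) : Bool :=
  p.tls.any (fun k => decide (3 / 100 ≤ k.1 * (1 - 3 / 100)) && decide (k.2 ≤ 1 / 50))
    && p.tls.any (fun k => decide (11 / 100 ≤ k.1 * (1 - 11 / 100)) && decide (k.2 ≤ 1 / 10))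

/-- the conditions on the lists -/
def allOK (p : ParS) (risA risB : List RaR) (elsA elsB : List ElR) (colsA colsB : List ColS) :
    Bool :=
  tlsOK p && decide (400 ≤ p.m0) && decide (p.g = 474 / 1000) && decide (p.ε0 = 1 / 500)
    && decide (3 / 10 ≤ p.h1) && colsS p risA elsA 0 colsA && colsS p risB elsB 0 colsB
    && decide (5 ≤ lastS 0 colsA * p.m0) && decide (11 / 100 ≤ lastS 0 colsB)

section

variable {V W M : Type*} [NormedAddCommGroup V] [InnerProductSpace ℝ V] [FiniteDimensional ℝ V]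
  [NormedAddCommGroup W] [InnerProductSpace ℝ W] [FiniteDimensional ℝ W]
  [TopologicalSpace M] [ChartedSpace V M]
  [MeasurableSpace V] [BorelSpace V] [MeasurableSpace M] [BorelSpace M]
  [MeasurableSpace W] [BorelSpace W] [IsManifold 𝓘(ℝ, V) ∞ M]
  [CompactSpace M] [T2Space M]

/-- a bound of the mean normal -/
def ElF (V : Type*) [NormedAddCommGroup V] [InnerProductSpace ℝ V]
    [FiniteDimensional ℝ V] [MeasurableSpace V] [BorelSpace V]
    {W M : Type*} [NormedAddCommGroup W] [InnerProductSpace ℝ W] [FiniteDimensional ℝ W]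
    [MeasurableSpace W] [BorelSpace W] [TopologicalSpace M] [ChartedSpace V M]
    [MeasurableSpace M] [BorelSpace M] (F N : M → W)
    {ι : Type*} [Fintype ι] [DecidableEq ι] (b : OrthonormalBasis ι ℝ W) (j : ι → ℝ)
    (f : ElR) : Prop :=
  f.ha ≤ hh (nrm (volM V F)) (Matrix.diagonal j) (co b F) (co b N) →
      hh (nrm (volM V F)) (Matrix.diagonal j) (co b F) (co b N) ≤ f.hb →
      f.L * √(uu (nrm (volM V F)) (co b N))
        ≤ f.K * hh (nrm (volM V F)) (Matrix.diagonal j) (co b F) (co b N) + f.R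

/-- the facts for the large weights: `ν` bounds all weights and `5 ≤ m ν`, `ν³ ≤ 24 h` -/
structure FactB (V : Type*) [NormedAddCommGroup V] [InnerProductSpace ℝ V]
    [FiniteDimensional ℝ V] [MeasurableSpace V] [BorelSpace V]
    {W M : Type*} [NormedAddCommGroup W] [InnerProductSpace ℝ W] [FiniteDimensional ℝ W]
    [MeasurableSpace W] [BorelSpace W] [TopologicalSpace M] [ChartedSpace V M]
    [MeasurableSpace M] [BorelSpace M] (F N : M → W)
    {ι : Type*} [Fintype ι] [DecidableEq ι] (b : OrthonormalBasis ι ℝ W) (j : ι → ℝ) (m : ℕ)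
    (ris : List RaR) (els : List ElR) : Prop where
  ra : ∀ r ∈ ris, ∀ ν : ℝ, 0 < ν → (∀ a, m2 (nrm (volM V F)) (co b N) (co b N) a a ≤ ν) →
    ν ≤ r.nu → ν ^ 3 ≤ (if r.bot then 24 else (r.cf : ℝ))
      * hh (nrm (volM V F)) (Matrix.diagonal j) (co b F) (co b N) →
    Tri V F N b j r.A0 r.ε r.A r.Q
  el : ∀ f ∈ els, ∀ ν : ℝ, 5 ≤ m * ν → (∀ a, m2 (nrm (volM V F)) (co b N) (co b N) a a ≤ ν) →
    ν ≤ f.nu → ν ^ 3 ≤ 24 * hh (nrm (volM V F)) (Matrix.diagonal j) (co b F) (co b N) →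
    ElF V F N b j f

/-- the facts for the small weights `ν ≤ 5 / m` -/
structure FactA (V : Type*) [NormedAddCommGroup V] [InnerProductSpace ℝ V]
    [FiniteDimensional ℝ V] [MeasurableSpace V] [BorelSpace V]
    {W M : Type*} [NormedAddCommGroup W] [InnerProductSpace ℝ W] [FiniteDimensional ℝ W]
    [MeasurableSpace W] [BorelSpace W] [TopologicalSpace M] [ChartedSpace V M]
    [MeasurableSpace M] [BorelSpace M] (F N : M → W)
    {ι : Type*} [Fintype ι] [DecidableEq ι] (b : OrthonormalBasis ι ℝ W) (j : ι → ℝ) (m : ℕ)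
    (ris : List RaR) (els : List ElR) : Prop where
  ra : ∀ r ∈ ris, ∀ ν : ℝ, 0 ≤ ν → (∀ a, m2 (nrm (volM V F)) (co b N) (co b N) a a ≤ ν) →
    m * ν ≤ 5 → Tri V F N b j r.A0 r.ε r.A r.Q
  el : ∀ f ∈ els, ∀ ν : ℝ, 0 ≤ ν → (∀ a, m2 (nrm (volM V F)) (co b N) (co b N) a a ≤ ν) →
    m * ν ≤ 5 → ν ≤ f.nu → ElF V F N b j f

/-- the statement of the near range of the large dimensions -/
def NearS (V : Type*) [NormedAddCommGroup V] [InnerProductSpace ℝ V]
    [FiniteDimensional ℝ V] [MeasurableSpace V] [BorelSpace V]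
    {W M : Type*} [NormedAddCommGroup W] [InnerProductSpace ℝ W] [FiniteDimensional ℝ W]
    [MeasurableSpace W] [BorelSpace W] [TopologicalSpace M] [ChartedSpace V M]
    [MeasurableSpace M] [BorelSpace M] (F N : M → W)
    {ι : Type*} [Fintype ι] [DecidableEq ι] (b : OrthonormalBasis ι ℝ W) (j : ι → ℝ) : Prop :=
  ∀ gp : ℝ, gp ≤ 1 / 500 * hh (nrm (volM V F)) (Matrix.diagonal j) (co b F) (co b N) →
    gp ≤ 1 / 10 ^ 8 →
    2 * lamM (finrank ℝ V) * (sphereVol (finrank ℝ V) / (volM V F).real univ) + gp ≤ 1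

/-- **The near range of the large dimensions.** -/
theorem near_S2 [Nonempty M] (hW : finrank ℝ W = finrank ℝ V + 2)
    {F : M → W} (hF : SphImm V F) (hmin : ∀ x n, IsUnitNormal V F x n → meanCurv V F x n = 0)
    {N : M → W} {b : OrthonormalBasis (Fin (finrank ℝ W)) ℝ W} {j : Fin (finrank ℝ W) → ℝ}
    {p : ParS} {risA risB : List RaR} {elsA elsB : List ElR} {colsA colsB : List ColS}
    (hok : allOK p risA risB elsA elsB colsA colsB = true) (hm0 : (p.m0 : ℝ) ≤ finrank ℝ V)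
    (hd : NearData V F N b j p.nuf)
    {lam : ℝ → ℝ} {T1 : ℝ} (hfr : Fra (finrank ℝ V) lam (beR (finrank ℝ V)) T1)
    (hlam : ∀ T ∈ Ioo (0 : ℝ) (2 / 25), (1 - T ^ 2) * lam T ≤ 193 / 10)
    (hg : finrank ℝ V * rM (finrank ℝ V) 0 ≤ 474 / 1000)
    (habs : AbsTail (volM V F) (finrank ℝ V) F N (fun T => (1 - T ^ 2) * lam T) p.ab)
    (htl : ∀ k ∈ p.tls, (∀ a, j a ^ 2 ≤ (k.1 : ℝ) * (finrank ℝ V + 1)) →
      AbsTail (volM V F) (finrank ℝ V) F N (fun T => (1 - T ^ 2) * lam T)
        (k.2 * hh (nrm (volM V F)) (Matrix.diagonal j) (co b F) (co b N)))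
    (hA : FactA V F N b j (finrank ℝ V) risA elsA) (hB : FactB V F N b j (finrank ℝ V) risB elsB)
    (hstep : ∀ gp : ℝ, gp ≤ 1 / 10 ^ 8 →
      1 < 2 * lamM (finrank ℝ V) * (sphereVol (finrank ℝ V) / (volM V F).real univ) + gp →
      ∀ a, m2 (nrm (volM V F)) (co b N) (co b N) a a ≤ 11 / 100)
    (hbig : ∀ gp : ℝ, gp ≤ 1 / 10 ^ 8 →
      1 < 2 * lamM (finrank ℝ V) * (sphereVol (finrank ℝ V) / (volM V F).real univ) + gp →
      hh (nrm (volM V F)) (Matrix.diagonal j) (co b F) (co b N) < 3 / 10) :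
    NearS V F N b j := by
  intro gp hg1 hg2
  by_contra hcon
  push Not at hcon
  simp only [allOK, tlsOK, Bool.and_eq_true, decide_eq_true_eq, List.any_eq_true] at hok
  obtain ⟨⟨⟨⟨⟨⟨⟨⟨⟨⟨k1, hk1, k1a, k1b⟩, ⟨k2, hk2, k2a, k2b⟩⟩, o1⟩, o2⟩, o3⟩, o4⟩, o5⟩, o6⟩, o7⟩,
    o8⟩ := hok
  set m := finrank ℝ V with hmdef
  set h := hh (nrm (volM V F)) (Matrix.diagonal j) (co b F) (co b N) with hhd
  have o1R : ((400 : ℚ) : ℝ) ≤ ((p.m0 : ℚ) : ℝ) := by exact_mod_cast o1
  push_cast at o1R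
  have hmR : (400 : ℝ) ≤ m := o1R.trans hm0
  have hm : 400 ≤ m := by exact_mod_cast hmR
  have hm00 : 0 < p.m0 := by linarith
  have hg' : (m : ℝ) * rM m 0 ≤ p.g := by
    rw [o2]
    push_cast
    exact hg
  have o3R : (p.ε0 : ℝ) = 1 / 500 := by
    rw [o3]
    push_cast
    rfl
  have o4R : ((3 / 10 : ℚ) : ℝ) ≤ ((p.h1 : ℚ) : ℝ) := by exact_mod_cast o4
  push_cast at o4R
  have huh : uu (nrm (volM V F)) (co b N) ≤ h :=
    uu_le_hh (by omega) hW hF hmin hd.smooth hd.unit b j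
  have hu0 : 0 ≤ uu (nrm (volM V F)) (co b N) := Finset.sum_nonneg fun i _ => sq_nonneg _
  have hh00 : 0 ≤ h := hu0.trans huh
  have hs0 := hstep gp hg2 hcon
  have hb0 := hbig gp hg2 hcon
  have hne : Nonempty (Fin (finrank ℝ W)) := ⟨⟨0, by omega⟩⟩
  obtain ⟨a0, ha0⟩ := Finite.exists_max fun a => m2 (nrm (volM V F)) (co b N) (co b N) a a
  have hν13 := hs0 a0
  have hν0 : 0 ≤ m2 (nrm (volM V F)) (co b N) (co b N) a0 a0 := by
    unfold m2
    exact integral_nonneg fun x => mul_self_nonneg _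
  have hu : uu (nrm (volM V F)) (co b N) ≤ (p.nuf : ℝ) ^ 2 := by
    have h1 := hd.mean
    have h2 := pow_le_pow_left₀ (Real.sqrt_nonneg _) h1.le 2
    rwa [Real.sq_sqrt hu0] at h2
  have hβ0 : ∀ T ∈ Ioo (0 : ℝ) (1 / 100), 0 ≤ beR m T := by
    intro T hT
    rw [beR_lt (hT.2.trans (by norm_num))]
    exact be_nonneg hm ⟨hT.1, hT.2.trans (by norm_num)⟩
  -- the bound of the matrix
  have hjj : ∀ {x : ℝ}, x < 1 → m2 (nrm (volM V F)) (co b N) (co b N) a0 a0 ≤ x → ∀ k : ℚ × ℚ,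
      x ≤ k.1 * (1 - x) → ∀ a, j a ^ 2 ≤ (k.1 : ℝ) * (m + 1) := by
    intro x hx1 hx k hk a
    obtain ⟨hj, -⟩ := jj_bounds b hd.t0 hd.lsq hx1 fun a => (ha0 a).trans hx
    refine (hj a).trans (mul_le_mul_of_nonneg_right ?_ (by positivity))
    rw [div_le_iff₀ (by linarith)]
    exact hk
  have k2aR : ((11 / 100 : ℚ) : ℝ) ≤ ((k2.1 * (1 - 11 / 100) : ℚ) : ℝ) := by exact_mod_cast k2a
  push_cast at k2aR
  have k2bR : ((k2.2 : ℚ) : ℝ) ≤ ((1 / 10 : ℚ) : ℝ) := by exact_mod_cast k2b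
  push_cast at k2bR
  have k1bR : ((k1.2 : ℚ) : ℝ) ≤ ((1 / 50 : ℚ) : ℝ) := by exact_mod_cast k1b
  push_cast at k1bR
  have tl2 := htl k2 hk2 (hjj (by norm_num) hν13 k2 k2aR)
  rcases eq_or_lt_of_le hh00 with hz | hh0
  · -- no defect
    have key := law_mac (by omega) hW hF hmin hd.smooth hd.unit hd.inj b rfl hfr hβ0
      (macF_zero (by omega) hW hF hmin hd.smooth hd.unit rfl) tl2
    have hu1 : uu (nrm (volM V F)) (co b N) = 0 := by linarith
    rw [← hmdef, hu1, ← hz] at key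
    rw [← hz] at hg1
    linarith
  · have hcols : ∀ {ris : List RaR} {els : List ElR} {cols : List ColS},
        colsS p ris els 0 cols = true →
        m2 (nrm (volM V F)) (co b N) (co b N) a0 a0 ≤ lastS 0 cols → cols ≠ [] →
        (∀ r ∈ ris, m2 (nrm (volM V F)) (co b N) (co b N) a0 a0 ≤ r.nu → (r.bot = true ∨
          m2 (nrm (volM V F)) (co b N) (co b N) a0 a0 ^ 3 ≤ r.cf * h) →
          Tri V F N b j r.A0 r.ε r.A r.Q) →
        (∀ f ∈ els, m2 (nrm (volM V F)) (co b N) (co b N) a0 a0 ≤ f.nu → f.ha ≤ h → h ≤ f.hb →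
          f.L * √(uu (nrm (volM V F)) (co b N)) ≤ f.K * h + f.R) → False := by
      intro ris els cols c1 c2 c3 c4 c5
      have key := colsS_sound (by omega) hW hF hmin hd.smooth hd.unit hd.inj b j rfl hd.lsq hfr
        hlam hm00 hm0 hg' ha0 hu c4 c5 habs htl (gp := gp) (by rw [o3R]; exact hg1) hg2 hh0
        (by linarith) cols 0 c1 (by push_cast; exact hν0) c2 c3
      linarith
    rcases le_total ((m : ℝ) * m2 (nrm (volM V F)) (co b N) (co b N) a0 a0) 5 with h5 | h5
    · -- small weights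
      refine hcols o5 ?_ ?_ (fun r hr _ _ => hA.ra r hr _ hν0 ha0 h5)
        (fun f hf hfn => hA.el f hf _ hν0 ha0 h5 hfn)
      · have o7R : (5 : ℝ) ≤ lastS 0 colsA * p.m0 := by exact_mod_cast o7
        have hm00R : (0 : ℝ) < p.m0 := by exact_mod_cast hm00
        have h6 : m2 (nrm (volM V F)) (co b N) (co b N) a0 a0 * p.m0
            ≤ lastS 0 colsA * p.m0 := by
          have := mul_le_mul_of_nonneg_right hm0 hν0
          linarith
        exact le_of_mul_le_mul_right h6 hm00R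
      · intro he
        rw [he] at o7
        simp only [lastS, zero_mul] at o7
        norm_num at o7
    · -- large weights
      have hνp : 0 < m2 (nrm (volM V F)) (co b N) (co b N) a0 a0 := by
        by_contra hc
        push Not at hc
        have := mul_nonpos_of_nonneg_of_nonpos (by linarith : (0 : ℝ) ≤ m) hc
        linarith
      have hbt : m2 (nrm (volM V F)) (co b N) (co b N) a0 a0 ^ 3 ≤ 24 * h := by
        rcases le_or_gt (m2 (nrm (volM V F)) (co b N) (co b N) a0 a0) (3 / 100) with h3 | h3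
        · have k1aR : ((3 / 100 : ℚ) : ℝ) ≤ ((k1.1 * (1 - 3 / 100) : ℚ) : ℝ) := by
            exact_mod_cast k1a
          push_cast at k1aR
          have tl1 := htl k1 hk1 (hjj (by norm_num) h3 k1 k1aR)
          exact boot (by omega) hW hF hmin hd.smooth hd.unit hd.inj b j rfl hfr hβ0 hg h5
            (hν13.trans (by norm_num)) (fun _ => k1bR) (by linarith) tl1 hg1 hcon
        · refine boot (by omega) hW hF hmin hd.smooth hd.unit hd.inj b j rfl hfr hβ0 hg h5
            (hν13.trans (by norm_num)) (t := k2.2) (fun h4 => absurd h4 (not_le.2 h3)) k2bR tl2 hg1 hcon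
      refine hcols o6 ?_ ?_ (fun r hr h6 h7 => hB.ra r hr _ hνp ha0 h6 ?_)
        (fun f hf hfn => hB.el f hf _ h5 ha0 hfn hbt)
      · have o8R : ((11 / 100 : ℚ) : ℝ) ≤ ((lastS 0 colsB : ℚ) : ℝ) := by exact_mod_cast o8
        push_cast at o8R
        exact hν13.trans o8R
      · intro he
        rw [he] at o8
        simp only [lastS] at o8
        norm_num at o8
      · by_cases hbo : r.bot = true
        · simp only [hbo, if_true]
          exact hbt
        · have hbo' : r.bot = false := by simpa using hbo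
          simp only [hbo', Bool.false_eq_true, if_false]
          rcases h7 with h7 | h7
          · exact absurd h7 hbo
          · exact h7

end

end Vale.Agent.P224.R2.H460
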