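import Vale.Agent.P224.R2.H460.Row3

/-!
The lower bound of the quadratic form of the antisymmetric part at level T.
-/

namespace Vale.Agent.P224.R2.H460

open MeasureTheory Module Function Set Vale.Agent.P224.R2.H470
open scoped RealInnerProductSpace Topology ContDiff

set_option linter.unusedSectionVars false

section

variable {X : Type*} {E : Type*} [NormedAddCommGroup E] [InnerProductSpace ℝ E]
variable [TopologicalSpace X] [MeasurableSpace X] [SecondCountableTopology X]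
variable [CompactSpace X] [BorelSpace X] {μ : Measure X} [IsFiniteMeasure μ] {m : ℕ} {p n : X → E}
  {z : X → E} {T : ℝ}

/-- the antisymmetric part -/
def Dl (p z : X → E) (u : X × X) : ℝ := ⟪p u.2, z u.1⟫ - ⟪p u.1, z u.2⟫

/-- half of the mean square of the antisymmetric part -/
noncomputable def LL (μ : Measure X) (m : ℕ) (p z : X → E) (T : ℝ) : ℝ :=
  m / 2 * PI μ p T (m + 1) (fun u => Dl p z u ^ 2)

/-- the mean square of `t σ` -/
noncomputable def Pii (μ : Measure X) (m : ℕ) (p n z : X → E) (T : ℝ) : ℝ :=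
  m * PI μ p T (m + 1) (fun u => TS p n z u ^ 2)

/-- the mean square of the centred product -/
noncomputable def MM (μ : Measure X) (m : ℕ) (p z : X → E) (T : ℝ) : ℝ :=
  m * PI μ p T (m + 1) (fun u => Y2 p z T u ^ 2)

/-- the main term -/
noncomputable def AA (μ : Measure X) (m : ℕ) (p n z : X → E) (T : ℝ) : ℝ :=
  PI μ p T m (fun u => ‖z u.1‖ ^ 2 - ⟪n u.2, z u.1⟫ ^ 2 - ⟪p u.2, z u.1⟫ ^ 2)

/-- the cross term -/
noncomputable def Cr (μ : Measure X) (m : ℕ) (p n z : X → E) (T : ℝ) : ℝ :=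
  m * PI μ p T (m + 1) (fun u => Y2 p z T u * Y2 p z T u.swap)
    + 4 * T * PI μ p T m (fun u => ⟪z u.2, tg p n u.2 (z u.1)⟫)

lemma cont_Dl (hp : Continuous p) (hz : Continuous z) : Continuous (Dl p z) := by
  unfold Dl
  fun_prop

lemma cont_Y2s (hp : Continuous p) (hz : Continuous z) :
    Continuous (fun u : X × X => Y2 p z T u.swap) := by
  unfold Y2
  simp only [Prod.fst_swap, Prod.snd_swap]
  fun_prop

/-- Cauchy-Schwarz with the factor m -/
lemma PI_cs_m (h0 : 0 ≤ T) (h1 : T < 1) (q : ℕ) (hp : Continuous p) (np : ∀ y, ‖p y‖ = 1)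
    {G H : X × X → ℝ} (hG : Continuous G) (hH : Continuous H) :
    |m * PI μ p T q (fun u => G u * H u)|
      ≤ √(m * PI μ p T q (fun u => G u ^ 2)) * √(m * PI μ p T q (fun u => H u ^ 2)) := by
  have hm0 : (0 : ℝ) ≤ m := by positivity
  have cs := PI_cs (μ := μ) h0 h1 q hp np hG hH
  rw [Real.sqrt_mul hm0, Real.sqrt_mul hm0, abs_mul, abs_of_nonneg hm0]
  have h2 := Real.mul_self_sqrt hm0
  have h3 := mul_le_mul_of_nonneg_left cs hm0
  have h4 : √(m : ℝ) * √(PI μ p T q fun u => G u ^ 2) * (√(m : ℝ) * √(PI μ p T q fun u => H u ^ 2))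
      = m * (√(PI μ p T q fun u => G u ^ 2) * √(PI μ p T q fun u => H u ^ 2)) := by
    linear_combination (√(PI μ p T q fun u => G u ^ 2) * √(PI μ p T q fun u => H u ^ 2)) * h2
  rw [h4]
  exact h3

theorem MM_eq (h : OneP μ m p n) (h0 : 0 ≤ T) (h1 : T < 1) (hz : Continuous z) :
    MM μ m p z T = AA μ m p n z T - T * (m * PI μ p T (m + 1) (fun u => TS p n z u * Y2 p z T u)) := by
  have r2 := PI_row2 (T := T) h h0 h1 hz
  unfold MM AA
  linarith

/-- the upper bound of the centred square -/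
theorem MM_le (h : OneP μ m p n) (h0 : 0 ≤ T) (h1 : T < 1) (hz : Continuous z) :
    MM μ m p z T ≤ AA μ m p n z T + T * (√(Pii μ m p n z T) * √(MM μ m p z T)) := by
  have hp := h.cp
  have hn := h.cn
  have e := MM_eq h h0 h1 hz
  have cs := PI_cs_m (μ := μ) (m := m) h0 h1 (m + 1) hp h.np (cont_TS hp hn hz)
    (cont_Y2 (T := T) hp hz)
  have h5 := (abs_le.1 cs).1
  have h6 := mul_le_mul_of_nonneg_left h5 h0
  unfold Pii
  rw [e]
  conv_rhs => rw [← e]
  unfold MM
  linarith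

/-- the lower bound of the quadratic form -/
theorem LL_ge (h : OneP μ m p n) (hm : 1 ≤ m) (h0 : 0 ≤ T) (h1 : T < 1) (hz : Continuous z)
    {J : E →L[ℝ] E} (hJ : ∀ u v, ⟪J u, v⟫ = ⟪u, J v⟫) (hzJ : ∀ x, z x = n x - J (p x)) :
    AA μ m p n z T - T * (√(Pii μ m p n z T) * √(MM μ m p z T)) - 2 * T ^ 2 * Pii μ m p n z T
      - Cr μ m p n z T ≤ LL μ m p z T := by
  have hp := h.cp
  have hn := h.cn
  have c1 := cont_TS hp hn hz
  have c2 := cont_Y2 (T := T) hp hz
  have c3 := cont_Y2s (T := T) hp hz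
  have c4 := cont_Dl hp hz
  set fx : X × X → ℝ := fun u => ⟪p u.1, z u.1⟫ with hfx
  set fy : X × X → ℝ := fun u => ⟪p u.2, z u.2⟫ with hfy
  have cfx : Continuous fx := by fun_prop
  have cfy : Continuous fy := by fun_prop
  set Y := Y2 p z T with hY
  set S := TS p n z with hS
  have r1 := PI_row1 (T := T) h hm h0 h1 hz (f := fun x => ⟪p x, z x⟫) (by fun_prop)
  have r3 := PI_row3 (T := T) h h0 h1 hz hJ hzJ
  have e2 := MM_eq h h0 h1 hz
  have cs := PI_cs_m (μ := μ) (m := m) h0 h1 (m + 1) hp h.np c1 c2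
  have hm0 : (0 : ℝ) ≤ m := by positivity
  -- swaps
  have s1 : PI μ p T (m + 1) (fun u => Y u.swap ^ 2) = PI μ p T (m + 1) (fun u => Y u ^ 2) :=
    PI_swap h0 h1 (m + 1) (fun u => Y u ^ 2)
  have s2 : PI μ p T (m + 1) (fun u => fy u * Y u.swap) = PI μ p T (m + 1) (fun u => fx u * Y u) :=
    PI_swap h0 h1 (m + 1) (fun u => fx u * Y u)
  have s3 : PI μ p T (m + 1) (fun u => fx u * Y u.swap) = PI μ p T (m + 1) (fun u => fy u * Y u) :=
    PI_swap h0 h1 (m + 1) (fun u => fy u * Y u)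
  -- the expansion
  have eD : ∀ u, Dl p z u ^ 2 = (Y u ^ 2 + Y u.swap ^ 2) - 2 * (Y u * Y u.swap)
      + (2 * T * (fx u * Y u) - 2 * T * (fy u * Y u) - 2 * T * (fx u * Y u.swap)
        + 2 * T * (fy u * Y u.swap)) + T ^ 2 * ((fx u - fy u) ^ 2) := by
    intro u
    simp only [hY, hfx, hfy, Dl, Y2, Prod.fst_swap, Prod.snd_swap, inner_sub_left,
      real_inner_smul_left]
    ring
  have eL : PI μ p T (m + 1) (fun u => Dl p z u ^ 2)
      = (PI μ p T (m + 1) (fun u => Y u ^ 2) + PI μ p T (m + 1) (fun u => Y u.swap ^ 2))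
        - 2 * PI μ p T (m + 1) (fun u => Y u * Y u.swap)
        + (2 * T * PI μ p T (m + 1) (fun u => fx u * Y u)
          - 2 * T * PI μ p T (m + 1) (fun u => fy u * Y u)
          - 2 * T * PI μ p T (m + 1) (fun u => fx u * Y u.swap)
          + 2 * T * PI μ p T (m + 1) (fun u => fy u * Y u.swap))
        + T ^ 2 * PI μ p T (m + 1) (fun u => (fx u - fy u) ^ 2) := by
    simp only [eD]
    rw [PI_add h0 h1 _ hp h.np (by fun_prop) (by fun_prop),
      PI_add h0 h1 _ hp h.np (by fun_prop) (by fun_prop),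
      PI_sub h0 h1 _ hp h.np (by fun_prop) (by fun_prop),
      PI_add h0 h1 _ hp h.np (by fun_prop) (by fun_prop),
      PI_add h0 h1 _ hp h.np (by fun_prop) (by fun_prop),
      PI_sub h0 h1 _ hp h.np (by fun_prop) (by fun_prop),
      PI_sub h0 h1 _ hp h.np (by fun_prop) (by fun_prop)]
    simp only [PI_mul]
  -- the square
  have q1 : -(4 * PI μ p T (m + 1) (fun u => S u ^ 2))
      ≤ PI μ p T (m + 1) (fun u => (fx u - fy u) ^ 2)
        - 4 * (PI μ p T (m + 1) (fun u => fx u * S u) - PI μ p T (m + 1) (fun u => fy u * S u)) := by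
    have e5 : PI μ p T (m + 1) (fun u => (fx u - fy u) ^ 2)
        - 4 * (PI μ p T (m + 1) (fun u => fx u * S u) - PI μ p T (m + 1) (fun u => fy u * S u))
        + 4 * PI μ p T (m + 1) (fun u => S u ^ 2)
        = PI μ p T (m + 1) (fun u => ((fx u - fy u) - 2 * S u) ^ 2) := by
      rw [← PI_sub h0 h1 _ hp h.np (by fun_prop) (by fun_prop), ← PI_mul, ← PI_mul,
        ← PI_sub h0 h1 _ hp h.np (by fun_prop) (by fun_prop),
        ← PI_add h0 h1 _ hp h.np (by fun_prop) (by fun_prop)]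
      congr 1
      ext u
      ring
    have e6 : 0 ≤ PI μ p T (m + 1) (fun u => ((fx u - fy u) - 2 * S u) ^ 2) :=
      PI_nonneg h0 h1 _ h.np fun u => sq_nonneg _
    linarith
  -- row three
  have r3' : m * PI μ p T (m + 1) (fun u => fy u * Y u)
      + m * T * PI μ p T (m + 1) (fun u => fy u * S u)
      = 2 * PI μ p T m (fun u => ⟪z u.2, tg p n u.2 (z u.1)⟫) := by
    have e8 := PI_mul (μ := μ) (p := p) (T := T) m 2
      (fun u : X × X => ⟪z u.2, tg p n u.2 (z u.1)⟫)
    rw [← e8, ← r3]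
    have e7 : (fun u : X × X => ⟪p u.2, z u.2⟫ * (Y2 p z T u + T * TS p n z u))
        = fun u => fy u * Y u + T * (fy u * S u) := by
      ext u
      simp only [hfy, hY, hS]
      ring
    rw [e7, PI_add h0 h1 _ hp h.np (by fun_prop) (by fun_prop), PI_mul]
    ring
  have h5 := (abs_le.1 cs).2
  have h6 := mul_le_mul_of_nonneg_left h5 h0
  have h7 := mul_le_mul_of_nonneg_left q1 (show (0 : ℝ) ≤ m / 2 * T ^ 2 by positivity)
  unfold LL Cr
  rw [eL, s1, s2, s3]
  unfold Pii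
  unfold MM at e2 ⊢
  have r1' : PI μ p T (m + 1) (fun u => fx u * Y u) = -T * PI μ p T (m + 1) (fun u => fx u * S u) := r1
  rw [r1']
  nlinarith [h6, h7, e2, r3']

end

end Vale.Agent.P224.R2.H460
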