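import Vale.Agent.P224.R2.H460.Lvl3

/-!
A checker over the rationals for the lower bound at all levels below `Ts`.
-/

namespace Vale.Agent.P224.R2.H460

open MeasureTheory Module Function Set Vale.Agent.P224.R2.H470
open scoped RealInnerProductSpace Topology ContDiff

set_option linter.unusedSectionVars false

/-- the data of a box -/
structure Bx where
  κ : ℚ
  A0 : ℚ
  c : ℚ
  ε : ℚ
  η : ℚ
  κ1 : ℚ
  c1 : ℚ
  m1 : ℚ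
  m0 : ℚ
  x0 : ℚ
  x1 : ℚ
  x2 : ℚ
  x3 : ℚ
  f1 : ℚ
  f2 : ℚ
  f3 : ℚ
  y0 : ℚ
  y1 : ℚ
  y2 : ℚ
  y3 : ℚ
  g1 : ℚ
  g2 : ℚ
  g3 : ℚ
  a : ℚ
  b : ℚ
  dT : ℚ
  Ts : ℚ

/-- the cubic majorant of the product term -/
def Bx.ch (B : Bx) (T : ℚ) : ℚ := B.x0 + T * (B.x1 + T * (B.x2 + T * B.x3))

/-- the cubic majorant of the mixed term -/
def Bx.ff (B : Bx) (T : ℚ) : ℚ := T * (B.f1 + T * (B.f2 + T * B.f3))

/-- the cubic majorant of the second factor of the mixed term -/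
def Bx.yy (B : Bx) (T : ℚ) : ℚ := B.y0 + T * (B.y1 + T * (B.y2 + T * B.y3))

/-- the cubic majorant of the cross term -/
def Bx.gg (B : Bx) (T : ℚ) : ℚ := T * (B.g1 + T * (B.g2 + T * B.g3))

/-- real versions -/
noncomputable def Bx.chR (B : Bx) (T : ℝ) : ℝ := B.x0 + T * (B.x1 + T * (B.x2 + T * B.x3))

noncomputable def Bx.ffR (B : Bx) (T : ℝ) : ℝ := T * (B.f1 + T * (B.f2 + T * B.f3))

noncomputable def Bx.yyR (B : Bx) (T : ℝ) : ℝ := B.y0 + T * (B.y1 + T * (B.y2 + T * B.y3))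

noncomputable def Bx.ggR (B : Bx) (T : ℝ) : ℝ := T * (B.g1 + T * (B.g2 + T * B.g3))

/-- the conditions on the constants -/
def Bx.head (B : Bx) : Bool :=
  decide (0 ≤ B.κ) && decide (0 ≤ B.A0) && decide (0 ≤ B.c) && decide (0 ≤ B.ε) && decide (0 ≤ B.η) &&
  decide (0 ≤ B.κ1) && decide (0 ≤ B.c1) && decide (0 ≤ B.m1) && decide (0 < B.m0) &&
  decide (0 ≤ B.x0) && decide (0 ≤ B.x1) && decide (0 ≤ B.x2) && decide (0 ≤ B.x3) &&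
  decide (0 ≤ B.f1) && decide (0 ≤ B.f2) && decide (0 ≤ B.f3) &&
  decide (0 ≤ B.g1) && decide (0 ≤ B.g2) && decide (0 ≤ B.g3) &&
  decide (0 ≤ B.y0) && decide (0 ≤ B.y1) && decide (0 ≤ B.y2) && decide (0 ≤ B.y3) &&
  decide (0 < B.dT) && decide (0 < B.Ts) && decide (B.Ts ≤ 1 / 4) && decide (0 ≤ B.b) &&
  decide (B.b * B.Ts ≤ B.a) &&
  decide (3 * (1 + B.Ts) * B.ε ^ 2 ≤ B.η ^ 4 * (1 - B.Ts) ^ 3) &&
  decide (B.κ ≤ B.κ1 ^ 2) && decide (B.c ≤ B.c1 ^ 2 * (1 - B.Ts)) &&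
  decide (1 + B.Ts ≤ B.m1 ^ 2 * B.m0)

/-- the conditions on a cell `[Ta, Tb]`, with the rational `u`, `x`, `θ` -/
def Bx.cell (B : Bx) (Ta Tb u x θ : ℚ) : Bool :=
  let l := B.a - B.b * Ta
  let v := (1 + u + B.η) / (1 - Tb)
  let w := 1 + Tb * v
  let s := (1 + Tb) * B.κ * w ^ 2 + 2 * Tb ^ 2 * (B.c1 * B.κ1 * (v + (1 + Tb) * w)) + Tb ^ 2 * B.c
    + (B.ch Tb + 2 * x)
  let r := B.m1 * w + Tb
  let q := 1 - s - r ^ 2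
  decide (0 ≤ u) && decide (0 ≤ x) && decide (0 < θ) && decide (2 * B.A0 * l ≤ u ^ 2) &&
  decide (B.ff Tb * B.yy Tb ≤ x ^ 2) && decide (Tb * v ≤ 2 * θ) && decide (l ≤ q) &&
  decide (l ≤ q * (1 - Tb * v / (2 * θ)) - Tb * v * θ / 2 - 3 * Tb ^ 2 * v ^ 2 - B.gg Tb)

/-- the list of the cells from `Ta` on; the last cell ends beyond `Ts` -/
def Bx.cells (B : Bx) : ℚ → List (ℚ × ℚ × ℚ) → Bool
  | Ta, [] => decide (B.Ts < Ta)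
  | Ta, r :: l => B.cell Ta (Ta + B.dT) r.1 r.2.1 r.2.2 && B.cells (Ta + B.dT) l

lemma chR_cast (B : Bx) (T : ℚ) : B.chR (T : ℝ) = ((B.ch T : ℚ) : ℝ) := by
  unfold Bx.chR Bx.ch
  push_cast
  ring

lemma ffR_cast (B : Bx) (T : ℚ) : B.ffR (T : ℝ) = ((B.ff T : ℚ) : ℝ) := by
  unfold Bx.ffR Bx.ff
  push_cast
  ring

lemma yyR_cast (B : Bx) (T : ℚ) : B.yyR (T : ℝ) = ((B.yy T : ℚ) : ℝ) := by
  unfold Bx.yyR Bx.yy
  push_cast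
  ring

lemma ggR_cast (B : Bx) (T : ℚ) : B.ggR (T : ℝ) = ((B.gg T : ℚ) : ℝ) := by
  unfold Bx.ggR Bx.gg
  push_cast
  ring

/-- the real content of the conditions on the constants -/
structure Bx.Hd (B : Bx) : Prop where
  κ : (0 : ℝ) ≤ B.κ
  A0 : (0 : ℝ) ≤ B.A0
  c : (0 : ℝ) ≤ B.c
  ε : (0 : ℝ) ≤ B.ε
  η : (0 : ℝ) ≤ B.η
  κ1 : (0 : ℝ) ≤ B.κ1
  c1 : (0 : ℝ) ≤ B.c1
  m1 : (0 : ℝ) ≤ B.m1
  m0 : (0 : ℝ) < B.m0
  x0 : (0 : ℝ) ≤ B.x0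
  x1 : (0 : ℝ) ≤ B.x1
  x2 : (0 : ℝ) ≤ B.x2
  x3 : (0 : ℝ) ≤ B.x3
  f1 : (0 : ℝ) ≤ B.f1
  f2 : (0 : ℝ) ≤ B.f2
  f3 : (0 : ℝ) ≤ B.f3
  g1 : (0 : ℝ) ≤ B.g1
  g2 : (0 : ℝ) ≤ B.g2
  g3 : (0 : ℝ) ≤ B.g3
  y0 : (0 : ℝ) ≤ B.y0
  y1 : (0 : ℝ) ≤ B.y1
  y2 : (0 : ℝ) ≤ B.y2
  y3 : (0 : ℝ) ≤ B.y3
  dT : (0 : ℝ) < B.dT
  Ts : (0 : ℝ) < B.Ts
  Ts4 : (B.Ts : ℝ) ≤ 1 / 4
  b : (0 : ℝ) ≤ B.b
  ab : (B.b : ℝ) * B.Ts ≤ B.a
  e : 3 * (1 + (B.Ts : ℝ)) * B.ε ^ 2 ≤ B.η ^ 4 * (1 - B.Ts) ^ 3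
  k : (B.κ : ℝ) ≤ B.κ1 ^ 2
  cc : (B.c : ℝ) ≤ B.c1 ^ 2 * (1 - B.Ts)
  mm : 1 + (B.Ts : ℝ) ≤ B.m1 ^ 2 * B.m0

lemma Bx.hd_of (B : Bx) (h : B.head = true) : B.Hd := by
  unfold Bx.head at h
  simp only [Bool.and_eq_true, decide_eq_true_eq] at h
  obtain ⟨⟨⟨⟨⟨⟨⟨⟨⟨⟨⟨⟨⟨⟨⟨⟨⟨⟨⟨⟨⟨⟨⟨⟨⟨⟨⟨⟨⟨⟨⟨h1, h2⟩, h3⟩, h4⟩, h5⟩, h6⟩, h7⟩, h8⟩, h9⟩, h10⟩, h11⟩,
    h12⟩, h13⟩, h14⟩, h15⟩, h16⟩, h17⟩, h18⟩, h19⟩, h20⟩, h21⟩, h22⟩, h23⟩, h24⟩, h25⟩, h26⟩,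
    h27⟩, h28⟩, h29⟩, h30⟩, h31⟩, h32⟩ := h
  refine ⟨by exact_mod_cast h1, by exact_mod_cast h2, by exact_mod_cast h3, by exact_mod_cast h4,
    by exact_mod_cast h5, by exact_mod_cast h6, by exact_mod_cast h7, by exact_mod_cast h8,
    by exact_mod_cast h9, by exact_mod_cast h10, by exact_mod_cast h11,
    by exact_mod_cast h12, by exact_mod_cast h13, by exact_mod_cast h14,
    by exact_mod_cast h15, by exact_mod_cast h16, by exact_mod_cast h17,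
    by exact_mod_cast h18, by exact_mod_cast h19, by exact_mod_cast h20,
    by exact_mod_cast h21, by exact_mod_cast h22, by exact_mod_cast h23,
    by exact_mod_cast h24, by exact_mod_cast h25, ?_, by exact_mod_cast h27,
    by exact_mod_cast h28, by exact_mod_cast h29, by exact_mod_cast h30,
    by exact_mod_cast h31, by exact_mod_cast h32⟩
  have : ((B.Ts : ℚ) : ℝ) ≤ ((1 / 4 : ℚ) : ℝ) := by exact_mod_cast h26
  push_cast at this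
  exact this

section

variable {X : Type*} {E : Type*} [NormedAddCommGroup E] [InnerProductSpace ℝ E]
variable [TopologicalSpace X] [MeasurableSpace X] [SecondCountableTopology X]
variable [CompactSpace X] [BorelSpace X] {μ : Measure X} [IsProbabilityMeasure μ] {m : ℕ}
  {p n : X → E} {z : X → E} {T : ℝ}

variable (μ m p n z) in
/-- the analytic facts of a box -/
structure BxData (B : Bx) (J : E →L[ℝ] E) : Prop where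
  one : OneP μ m p n
  hm : (B.m0 : ℝ) ≤ m
  hz : Continuous z
  hJ : ∀ u v, ⟪J u, v⟫ = ⟪u, J v⟫
  hzJ : ∀ x, z x = n x - J (p x)
  hH : 0 < ∫ x, ‖z x‖ ^ 2 ∂μ
  hκ : ∀ v, ‖J v‖ ^ 2 ≤ B.κ * m * ‖v‖ ^ 2
  hε : ∫ x, (max (‖z x‖ ^ 2 - B.A0) 0) ^ 2 ∂μ ≤ (B.ε * ∫ x, ‖z x‖ ^ 2 ∂μ) ^ 2
  hc : ∫ x, ⟪J (p x), z x⟫ ^ 2 ∂μ ≤ B.c * ∫ x, ‖z x‖ ^ 2 ∂μ
  hX : ∀ T ∈ Ioc (0 : ℝ) B.Ts, cw m T * SS μ m p n z T ≤ cw m T * S1 μ m p z J T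
    + (B.chR T + 2 * √(B.ffR T * B.yyR T)) * ∫ x, ‖z x‖ ^ 2 ∂μ
  hC : ∀ T ∈ Ioc (0 : ℝ) B.Ts, cw m T * Cr μ m p n z T ≤ B.ggR T * ∫ x, ‖z x‖ ^ 2 ∂μ

lemma chR_mono (B : Bx) (hB : B.Hd) {T U : ℝ} (h0 : 0 ≤ T) (hU : T ≤ U) : B.chR T ≤ B.chR U := by
  have := hB.x0
  have := hB.x1
  have := hB.x2
  have := hB.x3
  have hU0 : 0 ≤ U := h0.trans hU
  unfold Bx.chR
  gcongr

lemma yyR_mono (B : Bx) (hB : B.Hd) {T U : ℝ} (h0 : 0 ≤ T) (hU : T ≤ U) : B.yyR T ≤ B.yyR U := by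
  have := hB.y0
  have := hB.y1
  have := hB.y2
  have := hB.y3
  have hU0 : 0 ≤ U := h0.trans hU
  unfold Bx.yyR
  gcongr

lemma ffR_mono (B : Bx) (hB : B.Hd) {T U : ℝ} (h0 : 0 ≤ T) (hU : T ≤ U) : B.ffR T ≤ B.ffR U := by
  have := hB.f1
  have := hB.f2
  have := hB.f3
  have hU0 : 0 ≤ U := h0.trans hU
  unfold Bx.ffR
  gcongr

lemma ggR_mono (B : Bx) (hB : B.Hd) {T U : ℝ} (h0 : 0 ≤ T) (hU : T ≤ U) : B.ggR T ≤ B.ggR U := by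
  have := hB.g1
  have := hB.g2
  have := hB.g3
  have hU0 : 0 ≤ U := h0.trans hU
  unfold Bx.ggR
  gcongr

lemma chR_nonneg (B : Bx) (hB : B.Hd) {T : ℝ} (h0 : 0 ≤ T) : 0 ≤ B.chR T := by
  have := hB.x0
  have := hB.x1
  have := hB.x2
  have := hB.x3
  unfold Bx.chR
  positivity

lemma yyR_nonneg (B : Bx) (hB : B.Hd) {T : ℝ} (h0 : 0 ≤ T) : 0 ≤ B.yyR T := by
  have := hB.y0
  have := hB.y1
  have := hB.y2
  have := hB.y3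
  unfold Bx.yyR
  positivity

lemma ffR_nonneg (B : Bx) (hB : B.Hd) {T : ℝ} (h0 : 0 ≤ T) : 0 ≤ B.ffR T := by
  have := hB.f1
  have := hB.f2
  have := hB.f3
  unfold Bx.ffR
  positivity

/-- soundness of a cell -/
theorem Bx.cell_sound (B : Bx) (hB : B.Hd) {J : E →L[ℝ] E} (D : BxData μ m p n z B J)
    {Ta Tb u x θ : ℚ} (hc : B.cell Ta Tb u x θ = true)
    (h0 : 0 < T) (hTs : T ≤ B.Ts) (hT1 : (Ta : ℝ) ≤ T) (hT2 : T ≤ Tb) (hTb : (Tb : ℝ) ≤ 1 / 2) :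
    (B.a - B.b * T) * (∫ x, ‖z x‖ ^ 2 ∂μ) - ((∫ x, ‖z x‖ ^ 2 ∂μ) - cw m T * ph μ m p z T)
      ≤ cw m T * LL μ m p z T := by
  set H := ∫ x, ‖z x‖ ^ 2 ∂μ with hHd
  have hH := D.hH
  rw [← hHd] at hH
  unfold Bx.cell at hc
  simp only [Bool.and_eq_true, decide_eq_true_eq] at hc
  obtain ⟨⟨⟨⟨⟨⟨⟨k1, k2⟩, k3⟩, k4⟩, k5⟩, k6⟩, k7⟩, k8⟩ := hc
  -- real quantities
  set lR : ℝ := B.a - B.b * Ta with hl
  set vR : ℝ := (1 + u + B.η) / (1 - Tb) with hv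
  set wR : ℝ := 1 + Tb * vR with hw
  set sR : ℝ := (1 + Tb) * B.κ * wR ^ 2 + 2 * Tb ^ 2 * (B.c1 * B.κ1 * (vR + (1 + Tb) * wR))
    + Tb ^ 2 * B.c + (B.chR Tb + 2 * x) with hs
  set rR : ℝ := B.m1 * wR + Tb with hr
  have r1 : (0 : ℝ) ≤ u := by exact_mod_cast k1
  have r2 : (0 : ℝ) ≤ x := by exact_mod_cast k2
  have r3 : (0 : ℝ) < θ := by exact_mod_cast k3
  have r4 : 2 * B.A0 * lR ≤ (u : ℝ) ^ 2 := by
    rw [hl]
    exact_mod_cast k4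
  have r5 : B.ffR Tb * B.yyR Tb ≤ (x : ℝ) ^ 2 := by
    rw [ffR_cast, yyR_cast]
    exact_mod_cast k5
  have r6 : (Tb : ℝ) * vR ≤ 2 * θ := by
    rw [hv]
    exact_mod_cast k6
  have r7 : lR ≤ 1 - sR - rR ^ 2 := by
    rw [hl, hs, hr, hw, hv, chR_cast]
    exact_mod_cast k7
  have r8 : lR ≤ (1 - sR - rR ^ 2) * (1 - Tb * vR / (2 * θ)) - Tb * vR * θ / 2
      - 3 * Tb ^ 2 * vR ^ 2 - B.ggR Tb := by
    rw [hl, hs, hr, hw, hv, chR_cast, ggR_cast]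
    exact_mod_cast k8
  have hT : T < 1 := by linarith [hB.Ts4]
  have hTb0 : (0 : ℝ) ≤ Tb := by linarith
  have hTb1 : (0 : ℝ) < 1 - Tb := by linarith
  have v0 : 0 ≤ vR := by
    have := hB.η
    rw [hv]
    positivity
  have w0 : 1 ≤ wR := by
    rw [hw]
    have := mul_nonneg hTb0 v0
    linarith
  have nκ := hB.κ
  have nc := hB.c
  have nc1 := hB.c1
  have nκ1 := hB.κ1
  have nm1 := hB.m1
  have nch := chR_mono B hB h0.le hT2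
  have nyy := yyR_mono B hB h0.le hT2
  have nyy0 := yyR_nonneg B hB h0.le
  have nff := ffR_mono B hB h0.le hT2
  have nff0 := ffR_nonneg B hB h0.le
  have ngg := ggR_mono B hB h0.le hT2
  have hm0 : (0 : ℝ) < m := hB.m0.trans_le D.hm
  have hm1 : 1 ≤ m := by
    have : 0 < m := by exact_mod_cast hm0
    omega
  have hln : (B.a - B.b * T : ℝ) ≤ lR := by
    rw [hl]
    have := mul_le_mul_of_nonneg_left hT1 hB.b
    linarith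
  have hl0 : (0 : ℝ) ≤ lR := by
    have h1 := mul_le_mul_of_nonneg_left hTs hB.b
    linarith [hB.ab]
  -- the auxiliary value
  set w' : ℝ := 1 + T * vR with hw'
  have w'0 : 0 ≤ w' := by
    rw [hw']
    have := mul_nonneg h0.le v0
    linarith
  have hww : w' ≤ wR := by
    rw [hw', hw]
    have := mul_le_mul_of_nonneg_right hT2 v0
    linarith
  have main := level3 (κ := B.κ) (A0 := B.A0) (ε := B.ε * H) (c := B.c)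
    (Xs := B.chR Tb + 2 * x) (γ := B.ggR Tb) (η := B.η) (m1 := B.m1) (κ1 := B.κ1) (c1 := B.c1)
    (u := u) (v := vR) (s := sR) (r := rR) (θ := θ) (ℓ := lR) D.one hm1 h0.le hT D.hz D.hJ D.hzJ
    D.hH nκ D.hκ hB.A0 (mul_nonneg hB.ε hH.le) D.hε D.hc ?_ ?_ hB.η ?_ r4 r1 v0 ?_ hB.k nκ1 ?_ nc1
    ?_ nm1 ?_ ?_ r3 ?_ r7 ?_
  · refine le_trans ?_ main
    have := mul_le_mul_of_nonneg_right hln hH.le
    linarith
  · refine (D.hX T ⟨h0, hTs⟩).trans ?_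
    have e1 : √(B.ffR T * B.yyR T) ≤ x := by
      rw [Real.sqrt_le_left r2]
      exact (mul_le_mul nff nyy nyy0 (nff0.trans nff)).trans r5
    have e2 := mul_le_mul_of_nonneg_right
      (show B.chR T + 2 * √(B.ffR T * B.yyR T) ≤ B.chR Tb + 2 * x by linarith) hH.le
    linarith
  · exact (D.hC T ⟨h0, hTs⟩).trans (mul_le_mul_of_nonneg_right ngg hH.le)
  · have e1 : √(3 * (1 + T) / (1 - T) ^ 3) * B.ε ≤ B.η ^ 2 := by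
      have h1T : 0 < 1 - T := by linarith
      have h1Ts : 0 < 1 - (B.Ts : ℝ) := by linarith [hB.Ts4]
      have e2 : √(3 * (1 + T) / (1 - T) ^ 3) * B.ε = √(3 * (1 + T) / (1 - T) ^ 3 * B.ε ^ 2) := by
        rw [Real.sqrt_mul (by positivity), Real.sqrt_sq hB.ε]
      rw [e2, Real.sqrt_le_left (by positivity), div_mul_eq_mul_div, div_le_iff₀ (by positivity)]
      have e3 : 3 * (1 + T) * (B.ε : ℝ) ^ 2 ≤ 3 * (1 + B.Ts) * B.ε ^ 2 := by gcongr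
      have e4 : (B.η : ℝ) ^ 4 * (1 - B.Ts) ^ 3 ≤ B.η ^ 4 * (1 - T) ^ 3 := by
        have := pow_le_pow_left₀ h1Ts.le (show 1 - (B.Ts : ℝ) ≤ 1 - T by linarith) 3
        exact mul_le_mul_of_nonneg_left this (by positivity)
      calc 3 * (1 + T) * (B.ε : ℝ) ^ 2 ≤ B.η ^ 4 * (1 - T) ^ 3 := (e3.trans hB.e).trans e4
        _ = (B.η ^ 2) ^ 2 * (1 - T) ^ 3 := by ring
    have := mul_le_mul_of_nonneg_right e1 hH.le
    linarith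
  · have e1 : 1 + (u : ℝ) + B.η = (1 - Tb) * vR := by
      rw [hv]
      field_simp
    rw [e1]
    exact mul_le_mul_of_nonneg_right (by linarith) v0
  · refine hB.cc.trans (mul_le_mul_of_nonneg_left (by linarith) (by positivity))
  · rw [div_le_iff₀ hm0]
    have e1 := mul_le_mul_of_nonneg_left D.hm (show (0 : ℝ) ≤ B.m1 ^ 2 by positivity)
    linarith [hB.mm]
  · rw [hs]
    have p1 : (1 + T) * (B.κ : ℝ) * (1 + T * vR) ^ 2 ≤ (1 + Tb) * B.κ * wR ^ 2 := by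
      rw [← hw']
      gcongr
    have p2 : 2 * T ^ 2 * ((B.c1 : ℝ) * B.κ1 * (vR + (1 + T) * (1 + T * vR)))
        ≤ 2 * Tb ^ 2 * (B.c1 * B.κ1 * (vR + (1 + Tb) * wR)) := by
      rw [← hw']
      gcongr
    have p3 : T ^ 2 * (B.c : ℝ) ≤ Tb ^ 2 * B.c := by gcongr
    linarith
  · rw [hr, ← hw']
    have := mul_le_mul_of_nonneg_left hww nm1
    linarith
  · exact (mul_le_mul_of_nonneg_right hT2 v0).trans r6
  · refine r8.trans ?_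
    have q0 : 0 ≤ 1 - sR - rR ^ 2 := hl0.trans r7
    have p0 : T * vR ≤ Tb * vR := mul_le_mul_of_nonneg_right hT2 v0
    have p1 : (1 - sR - rR ^ 2) * (1 - Tb * vR / (2 * θ)) ≤ (1 - sR - rR ^ 2) * (1 - T * vR / (2 * θ)) := by
      refine mul_le_mul_of_nonneg_left ?_ q0
      have : T * vR / (2 * θ) ≤ Tb * vR / (2 * θ) := by gcongr
      linarith
    have p2 : T * vR * θ / 2 ≤ Tb * vR * θ / 2 := by gcongr
    have p3 : 3 * T ^ 2 * vR ^ 2 ≤ 3 * Tb ^ 2 * vR ^ 2 := by gcongr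
    linarith

/-- soundness of the list of the cells -/
theorem Bx.cells_sound (B : Bx) (hB : B.Hd) (hd2 : (B.Ts : ℝ) + B.dT ≤ 1 / 2) {J : E →L[ℝ] E}
    (D : BxData μ m p n z B J) : ∀ (l : List (ℚ × ℚ × ℚ)) (Ta : ℚ),
    B.cells Ta l = true → ∀ T : ℝ, 0 < T → (Ta : ℝ) ≤ T → T ≤ B.Ts →
    (B.a - B.b * T) * (∫ x, ‖z x‖ ^ 2 ∂μ) - ((∫ x, ‖z x‖ ^ 2 ∂μ) - cw m T * ph μ m p z T)
      ≤ cw m T * LL μ m p z T := by
  intro l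
  induction l with
  | nil =>
    intro Ta hc T h0 h1 h2
    simp only [Bx.cells, decide_eq_true_eq] at hc
    have : (B.Ts : ℝ) < Ta := by exact_mod_cast hc
    linarith
  | cons r l ih =>
    intro Ta hc T h0 h1 h2
    simp only [Bx.cells, Bool.and_eq_true] at hc
    obtain ⟨hc1, hc2⟩ := hc
    have hdT := hB.dT
    have e : (((Ta + B.dT : ℚ)) : ℝ) = Ta + B.dT := by push_cast; ring
    rcases le_total T ((Ta : ℝ) + B.dT) with h3 | h3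
    · refine B.cell_sound hB D hc1 h0 h2 h1 (by rw [e]; exact h3) ?_
      rw [e]
      linarith
    · exact ih (Ta + B.dT) hc2 T h0 (by rw [e]; exact h3) h2

end

end Vale.Agent.P224.R2.H460
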