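import Vale.Agent.P224.R2.H460.Wgt

/-!
The second coefficient is nonnegative at small levels.
-/

namespace Vale.Agent.P224.R2.H460

open MeasureTheory Set Filter Function Real Vale.Agent.P224.SM2 Vale.Agent.P224.R2.H820
open Vale.Agent.P224.R2.H627 Vale.Agent.P224.R2.H582
open scoped Topology

variable {m : ℕ} {T s t W E ρ l κ X : ℝ}

/-- upper bound of the second function -/
lemma vU_upp (hs0 : 0 < s) (hs : s ≤ 57 / 500) (ht0 : 0 ≤ t) (ht : t ≤ 1 / 200) :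
    vU s t ≤ 2 := by
  rw [vU_exp]
  have s2 : s ^ 2 ≤ 13 / 1000 := by nlinarith
  have s20 : 0 ≤ s ^ 2 := sq_nonneg s
  have s4 : 0 ≤ s ^ 4 := by positivity
  have s41 : s ^ 4 ≤ 1 := pow_le_one₀ hs0.le (by linarith)
  have s6 : 0 ≤ s ^ 6 := by positivity
  have s61 : s ^ 6 ≤ 1 := pow_le_one₀ hs0.le (by linarith)
  have s8 : s ^ 8 ≤ 1 := pow_le_one₀ hs0.le (by linarith)
  have s80 : 0 ≤ s ^ 8 := by positivity
  have s10 : 0 ≤ s ^ 10 := by positivity
  have s101 : s ^ 10 ≤ 1 := pow_le_one₀ hs0.le (by linarith)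
  have s12 : 0 ≤ s ^ 12 := by positivity
  have s121 : s ^ 12 ≤ 1 := pow_le_one₀ hs0.le (by linarith)
  have hA : 3 / 2 - 33 / 4 * s ^ 2 + 89 / 8 * s ^ 4 - 35 / 8 * s ^ 6 ≤ 13 := by linarith
  have hB : 291 / 100 - 1112 / 25 * s ^ 2 + 4614 / 25 * s ^ 4 - 31789 / 100 * s ^ 6
      + 24907 / 100 * s ^ 8 - 7417 / 100 * s ^ 10 ≤ 500 := by linarith
  have h1 := mul_le_mul_of_nonneg_left hA ht0
  have h2 := mul_le_mul_of_nonneg_left hB (sq_nonneg t)
  have h3 : t ^ 2 ≤ 1 / 40000 := by nlinarith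
  linarith

/-- the coefficient `be` is nonnegative at small levels -/
theorem be_nonneg (hm : 400 ≤ m) (hT : T ∈ Ioo (0 : ℝ) (2 / 25)) :
    0 ≤ be m (31 / 10) T (eM m T) (rM m T) := by
  have hT1 : T ∈ Ioo (0 : ℝ) 1 := ⟨hT.1, hT.2.trans (by norm_num)⟩
  have hk : 0 < 1 - T ^ 2 := by nlinarith [hT1.1, hT1.2]
  have hk1 : 0 < 1 - T := by linarith [hT1.2]
  have hmR : (400 : ℝ) ≤ m := by exact_mod_cast hm
  have hm0 : (0 : ℝ) < m := by linarith
  have h2 : 0 < √(2 : ℝ) := by positivity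
  set K : ℝ := (1 - T ^ 2) ^ ((m : ℝ) / 2 - 1) with hK
  have hK0 : 0 < K := rpow_pos_of_pos hk _
  have hb := bds2_M (m := m) (by omega) hT1
  have hr := hr_M (m := m) T
  have he := he_M (m := m) hT1
  rw [← hK] at hr he
  have ht : 2 / (m : ℝ) ≤ 1 / 200 := by
    rw [div_le_div_iff₀ hm0 (by norm_num)]
    linarith
  obtain ⟨hs, -, -⟩ := s_bds hb hT.2.le
  have hs0 := hb.s0
  set s := sv T
  set E := Ef (m / 2) (cn m) T
  set ρ := √2 * Rf (m / 2) (cn m) T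
  have hE2 : E ≤ 2 := hb.Eu.trans (vU_upp hs0 hs hb.t0 ht)
  have hE0 := hb.E0
  have hρ : 1 / 2 ≤ ρ := by
    refine le_trans ?_ hb.Rl
    have h1 := uL_low hs0 hs hb.t0 ht
    have ht0 := hb.t0
    have h3 : 2 / 3 ≤ uL s (2 / m) := by linarith
    have h4 : (3 / 4 : ℝ) ≤ (1 - s) ^ 2 := by nlinarith
    calc (1 / 2 : ℝ) = 3 / 4 * (2 / 3) := by norm_num
      _ ≤ _ := mul_le_mul h4 h3 (by norm_num) (sq_nonneg _)
  have hT4 : (0 : ℝ) ≤ T ^ 4 := by positivity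
  have e1 : √2 * be m (31 / 10) T (eM m T) (rM m T)
      = (m + 1) * T * (2 * (1 - T) * (√2 * (m * rM m T))
            - (1 - 31 / 10 * T ^ 4) * (√2 * (m * eM m T))) := by
    unfold be
    ring
  have e2 : 0 ≤ √2 * be m (31 / 10) T (eM m T) (rM m T) := by
    rw [e1, hr, he]
    have hs2 : s ^ 2 ≤ 1 := by nlinarith
    have g1 : s * (2 - s ^ 2) * E / 2 ≤ 1 / 4 := by
      have : s * (2 - s ^ 2) ≤ 57 / 500 * 2 :=
        mul_le_mul hs (by linarith [sq_nonneg s]) (by linarith) (by norm_num)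
      have g2 : s * (2 - s ^ 2) * E ≤ 57 / 500 * 2 * 2 :=
        mul_le_mul this hE2 hE0 (by norm_num)
      linarith
    have g3 : 0 ≤ s * (2 - s ^ 2) * E / 2 := by
      have : 0 ≤ s * (2 - s ^ 2) * E := mul_nonneg (mul_nonneg hs0.le (by linarith)) hE0
      linarith
    have g4 : (1 - 31 / 10 * T ^ 4) * ((1 + T) * (s * (2 - s ^ 2) * E / 2)) ≤ 1 := by
      have g5 : (1 + T) * (s * (2 - s ^ 2) * E / 2) ≤ 2 * (1 / 4) :=
        mul_le_mul (by linarith [hT.2]) g1 g3 (by norm_num)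
      have g6 : 0 ≤ (1 + T) * (s * (2 - s ^ 2) * E / 2) :=
        mul_nonneg (by linarith [hT.1]) g3
      have g7 : (1 - 31 / 10 * T ^ 4) * ((1 + T) * (s * (2 - s ^ 2) * E / 2))
          ≤ 1 * ((1 + T) * (s * (2 - s ^ 2) * E / 2)) :=
        mul_le_mul_of_nonneg_right (by linarith) g6
      linarith
    have e3 : (m + 1) * T * (2 * (1 - T) * (K * ρ)
        - (1 - 31 / 10 * T ^ 4) * (K * ((1 - T ^ 2) * (s * (2 - s ^ 2) * E / 2))))
        = (m + 1) * T * (K * (1 - T)) * (2 * ρ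
          - (1 - 31 / 10 * T ^ 4) * ((1 + T) * (s * (2 - s ^ 2) * E / 2))) := by ring
    rw [e3]
    have hT0 := hT.1.le
    exact mul_nonneg (by positivity) (by linarith)
  exact le_of_mul_le_mul_left (by rw [mul_zero]; exact e2) h2

end Vale.Agent.P224.R2.H460
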