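import Vale.Agent.P224.R2.H460.Box
import Vale.Agent.P224.R2.H460.Zi2

/-!
The constant of a box from the rational conditions.
-/

namespace Vale.Agent.P224.R2.H460

open MeasureTheory Module Function Set Filter Vale.Agent.P224.R2.H470
open scoped RealInnerProductSpace Topology ContDiff

set_option linter.unusedSectionVars false

/-- an inequality on `(0, a]` extends to `0` -/
lemma le_of_Ioc' {f g : ℝ → ℝ} {a : ℝ} (ha : 0 < a) (cf : ContinuousOn f (Icc 0 a))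
    (cg : ContinuousOn g (Icc 0 a)) (h : ∀ T ∈ Ioc 0 a, f T ≤ g T) : ∀ T ∈ Icc 0 a, f T ≤ g T := by
  intro T hT
  rcases eq_or_lt_of_le hT.1 with h0 | h0
  · subst h0
    have hm : (0 : ℝ) ∈ Icc 0 a := ⟨le_rfl, ha.le⟩
    have t1 : Tendsto f (𝓝[Ioc 0 a] 0) (𝓝 (f 0)) := (cf 0 hm).mono_left
      (nhdsWithin_mono _ Ioc_subset_Icc_self)
    have t2 : Tendsto g (𝓝[Ioc 0 a] 0) (𝓝 (g 0)) := (cg 0 hm).mono_left
      (nhdsWithin_mono _ Ioc_subset_Icc_self)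
    have : (𝓝[Ioc 0 a] (0 : ℝ)).NeBot := left_nhdsWithin_Ioc_neBot ha
    exact le_of_tendsto_of_tendsto t1 t2 (eventually_nhdsWithin_of_forall h)
  · exact h T ⟨h0, hT.2⟩

/-- a quartic polynomial -/
lemma int_poly4 (a b c d e t : ℝ) :
    ∫ T in (0 : ℝ)..t, (a + b * T + c * T ^ 2 + d * T ^ 3 + e * T ^ 4)
    = a * t + b * t ^ 2 / 2 + c * t ^ 3 / 3 + d * t ^ 4 / 4 + e * t ^ 5 / 5 := by
  rw [intervalIntegral.integral_add (Continuous.intervalIntegrable (by fun_prop) _ _)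
      (Continuous.intervalIntegrable (by fun_prop) _ _),
    intervalIntegral.integral_add (Continuous.intervalIntegrable (by fun_prop) _ _)
      (Continuous.intervalIntegrable (by fun_prop) _ _),
    intervalIntegral.integral_add (Continuous.intervalIntegrable (by fun_prop) _ _)
      (Continuous.intervalIntegrable (by fun_prop) _ _),
    intervalIntegral.integral_add (Continuous.intervalIntegrable (by fun_prop) _ _)
      (Continuous.intervalIntegrable (by fun_prop) _ _),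
    intervalIntegral.integral_const_mul, intervalIntegral.integral_const_mul,
    intervalIntegral.integral_const_mul, intervalIntegral.integral_const_mul,
    intervalIntegral.integral_const, integral_id,
    integral_pow, integral_pow, integral_pow]
  simp only [smul_eq_mul]
  norm_num
  ring

/-- the conditions of the integration over the levels -/
def Bx.fin (B : Bx) (q0 q1 q2 δ cs c0 : ℚ) : Bool :=
  let S := B.Ts
  let I := q0 * B.a * S - (q0 * B.b + q1 * B.a) * S ^ 2 / 2 + (q1 * B.b - q2 * B.a) * S ^ 3 / 3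
    + q2 * B.b * S ^ 4 / 4
  let L := q0 * S ^ 3 / 6 - q1 * S ^ 4 / 12 - q2 * S ^ 5 / 20
  decide (0 ≤ q1) && decide (0 ≤ q2) && decide (q1 * S + q2 * S ^ 2 ≤ q0) && decide (0 < δ) &&
  decide (0 ≤ c0) && decide (S + B.dT ≤ 1 / 2) &&
  decide (1 ≤ cs * ((1 - S) ^ 2 * (1 - S ^ 2))) &&
  decide (c0 * (1 + cs * ((1 + 1 / δ) * (2 * B.A0)) * (S ^ 2 / 4))
    ≤ I - cs * ((1 + δ) * (1 + B.η) ^ 2) * L)

section

variable {X : Type*} {E : Type*} [NormedAddCommGroup E] [InnerProductSpace ℝ E]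
variable [TopologicalSpace X] [MeasurableSpace X] [SecondCountableTopology X]
variable [CompactSpace X] [BorelSpace X] {μ : Measure X} [IsProbabilityMeasure μ] {m : ℕ}
  {p n : X → E} {z : X → E} {T : ℝ}

/-- the lower bound of a box -/
theorem box_c0 (B : Bx) {l : List (ℚ × ℚ × ℚ)} {q0 q1 q2 δ cs c0 : ℚ} (hB : B.head = true)
    (hc : B.cells 0 l = true) (hf : B.fin q0 q1 q2 δ cs c0 = true) {J : E →L[ℝ] E}
    (D : BxData μ m p n z B J) {Tm : ℝ} (hTm : (B.Ts : ℝ) ≤ Tm) (hTm1 : Tm < 1)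
    (hqm : (q1 : ℝ) * Tm + q2 * Tm ^ 2 ≤ q0) :
    (c0 : ℝ) * (∫ x, ‖z x‖ ^ 2 ∂μ)
      ≤ ∫ T in (0 : ℝ)..Tm, wq q0 q1 q2 T * (cw m T * LL μ m p z T) := by
  have hH := B.hd_of hB
  unfold Bx.fin at hf
  simp only [Bool.and_eq_true, decide_eq_true_eq] at hf
  obtain ⟨⟨⟨⟨⟨⟨⟨f1, f2⟩, f3⟩, f4⟩, f5⟩, f6⟩, f7⟩, f8⟩ := hf
  have r1 : (0 : ℝ) ≤ q1 := by exact_mod_cast f1
  have r2 : (0 : ℝ) ≤ q2 := by exact_mod_cast f2
  have r3 : (q1 : ℝ) * B.Ts + q2 * (B.Ts : ℝ) ^ 2 ≤ q0 := by exact_mod_cast f3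
  have r4 : (0 : ℝ) < δ := by exact_mod_cast f4
  have r5 : (0 : ℝ) ≤ c0 := by exact_mod_cast f5
  have r6 : (B.Ts : ℝ) + B.dT ≤ 1 / 2 := by
    have : (((B.Ts + B.dT : ℚ)) : ℝ) ≤ ((1 / 2 : ℚ) : ℝ) := by exact_mod_cast f6
    push_cast at this
    exact this
  have r7 : (1 : ℝ) ≤ cs * ((1 - B.Ts) ^ 2 * (1 - (B.Ts : ℝ) ^ 2)) := by exact_mod_cast f7
  have r8 : (c0 : ℝ) * (1 + cs * ((1 + 1 / δ) * (2 * B.A0)) * ((B.Ts : ℝ) ^ 2 / 4))
      ≤ (q0 * B.a * B.Ts - (q0 * B.b + q1 * B.a) * (B.Ts : ℝ) ^ 2 / 2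
        + (q1 * B.b - q2 * B.a) * (B.Ts : ℝ) ^ 3 / 3 + q2 * B.b * (B.Ts : ℝ) ^ 4 / 4)
        - cs * ((1 + δ) * (1 + B.η) ^ 2)
          * (q0 * (B.Ts : ℝ) ^ 3 / 6 - q1 * (B.Ts : ℝ) ^ 4 / 12 - q2 * (B.Ts : ℝ) ^ 5 / 20) := by
    exact_mod_cast f8
  set H := ∫ x, ‖z x‖ ^ 2 ∂μ with hHd
  have hH0 : 0 < H := D.hH
  have hm0 : (0 : ℝ) < m := hH.m0.trans_le D.hm
  have hm1 : 1 ≤ m := by
    have : 0 < m := by exact_mod_cast hm0
    omega
  have hTs0 := hH.Ts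
  have hTs1 : (B.Ts : ℝ) < 1 := by linarith [hH.Ts4]
  have hsub : Icc (0 : ℝ) B.Ts ⊆ Ico (0 : ℝ) 1 := fun x hx => ⟨hx.1, hx.2.trans_lt hTs1⟩
  have cf : Continuous fun x => ‖z x‖ ^ 2 := by
    have := D.hz
    fun_prop
  have cΦ : ContinuousOn (fun T => cw m T * ph μ m p z T) (Icc 0 B.Ts) :=
    (contOn_ph D.one.cp D.one.np cf).mono hsub
  have cL := (contOn_LL (μ := μ) D.one D.hz).mono hsub
  have hlev : ∀ T ∈ Icc (0 : ℝ) B.Ts, (B.a - B.b * T) * H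
      - (H - cw m T * ph μ m p z T) ≤ cw m T * LL μ m p z T := by
    refine le_of_Ioc' hTs0 (ContinuousOn.sub (by fun_prop) (continuousOn_const.sub cΦ)) cL
      fun T hT => ?_
    exact B.cells_sound hH r6 D l 0 hc T hT.1 (by push_cast; exact hT.1.le) hT.2
  have hVb : ∀ T ∈ Icc (0 : ℝ) B.Ts, (1 - T) * √(cw m T * VV μ m p n z T)
      ≤ √(cw m T * ph μ m p z T) + √(2 * B.A0 * (cw m T * LL μ m p z T)) + B.η * √H := by
    intro T hT
    have hT1 : T < 1 := hT.2.trans_lt hTs1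
    refine (nV D.one hm1 hT.1 hT1 D.hz D.hJ D.hzJ hH.A0 (mul_nonneg hH.ε hH0.le) D.hε).trans ?_
    have k3 : √(3 * (1 + T) / (1 - T) ^ 3) * (B.ε * H) ≤ (B.η : ℝ) ^ 2 * H := by
      have e1 : √(3 * (1 + T) / (1 - T) ^ 3) * B.ε ≤ (B.η : ℝ) ^ 2 := by
        have h1T : 0 < 1 - T := by linarith
        have h1Ts : 0 < 1 - (B.Ts : ℝ) := by linarith
        have hT0 := hT.1
        have e2 : √(3 * (1 + T) / (1 - T) ^ 3) * B.ε = √(3 * (1 + T) / (1 - T) ^ 3 * (B.ε : ℝ) ^ 2) := by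
          rw [Real.sqrt_mul (by positivity), Real.sqrt_sq hH.ε]
        rw [e2, Real.sqrt_le_left (by positivity), div_mul_eq_mul_div, div_le_iff₀ (by positivity)]
        have hTle := hT.2
        have e3 : 3 * (1 + T) * (B.ε : ℝ) ^ 2 ≤ 3 * (1 + B.Ts) * (B.ε : ℝ) ^ 2 := by gcongr
        have e4 : (B.η : ℝ) ^ 4 * (1 - B.Ts) ^ 3 ≤ (B.η : ℝ) ^ 4 * (1 - T) ^ 3 := by
          have := pow_le_pow_left₀ h1Ts.le (show 1 - (B.Ts : ℝ) ≤ 1 - T by linarith) 3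
          exact mul_le_mul_of_nonneg_left this (by positivity)
        calc 3 * (1 + T) * (B.ε : ℝ) ^ 2 ≤ (B.η : ℝ) ^ 4 * (1 - T) ^ 3 := (e3.trans hH.e).trans e4
          _ = ((B.η : ℝ) ^ 2) ^ 2 * (1 - T) ^ 3 := by ring
      have := mul_le_mul_of_nonneg_right e1 hH0.le
      linarith
    have := sqrt_le_of_le hH0.le hH.η k3
    linarith
  have key := Zint2 (ℓ := fun T => B.a - B.b * T) (A0 := B.A0) (η := B.η) (δ := δ)
    (cs := cs) (q0 := q0) (q1 := q1) (q2 := q2) D.one hm1 D.hz hTs0 hTs1 r1 r2 r3 (by fun_prop)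
    hH.A0 hH.η r4 hlev hVb r7
  have i1 : ∫ T in (0 : ℝ)..B.Ts, wq q0 q1 q2 T * (B.a - B.b * T)
      = q0 * B.a * B.Ts - (q0 * B.b + q1 * B.a) * (B.Ts : ℝ) ^ 2 / 2
        + (q1 * B.b - q2 * B.a) * (B.Ts : ℝ) ^ 3 / 3 + q2 * B.b * (B.Ts : ℝ) ^ 4 / 4 := by
    have e1 : ∀ T : ℝ, wq q0 q1 q2 T * (B.a - B.b * T)
        = q0 * B.a + (-(q0 * B.b + q1 * B.a)) * T + (q1 * B.b - q2 * B.a) * T ^ 2
          + (q2 * B.b) * T ^ 3 + 0 * T ^ 4 := fun T => by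
      unfold wq
      ring
    simp_rw [e1]
    rw [int_poly4]
    ring
  have i2 : ∫ T in (0 : ℝ)..B.Ts, wq q0 q1 q2 T * (T * (B.Ts - T))
      = q0 * (B.Ts : ℝ) ^ 3 / 6 - q1 * (B.Ts : ℝ) ^ 4 / 12 - q2 * (B.Ts : ℝ) ^ 5 / 20 := by
    have e1 : ∀ T : ℝ, wq q0 q1 q2 T * (T * (B.Ts - T))
        = 0 + (q0 * B.Ts) * T + (-(q0 + q1 * B.Ts)) * T ^ 2 + (q1 - q2 * B.Ts) * T ^ 3
          + q2 * T ^ 4 := fun T => by
      unfold wq
      ring
    simp_rw [e1]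
    rw [int_poly4]
    ring
  rw [i1, i2] at key
  set I := ∫ T in (0 : ℝ)..B.Ts, wq q0 q1 q2 T * (cw m T * LL μ m p z T) with hI
  set C : ℝ := 1 + cs * ((1 + 1 / δ) * (2 * B.A0)) * ((B.Ts : ℝ) ^ 2 / 4) with hC
  have hcs0 : (0 : ℝ) < cs := by
    by_contra hcon
    rw [not_lt] at hcon
    have h1 : 0 ≤ (1 - (B.Ts : ℝ)) ^ 2 * (1 - (B.Ts : ℝ) ^ 2) := by
      have := one_sub_sq_pos hTs0.le hTs1
      positivity
    have := mul_nonneg (neg_nonneg.2 hcon) h1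
    linarith
  have hC0 : 0 < C := by
    have := hH.A0
    rw [hC]
    positivity
  have k1 : C * (c0 * H) ≤ C * I := by
    refine le_trans ?_ key
    have := mul_le_mul_of_nonneg_left r8 hH0.le
    linarith
  have k2 : (c0 : ℝ) * H ≤ I := le_of_mul_le_mul_left k1 hC0
  refine k2.trans ?_
  have cq : ContinuousOn (wq q0 q1 q2) (Icc 0 Tm) := (continuous_wq _ _ _).continuousOn
  have hsubm : Icc (0 : ℝ) Tm ⊆ Ico (0 : ℝ) 1 := fun x hx => ⟨hx.1, hx.2.trans_lt hTm1⟩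
  have cLm : ContinuousOn (fun T => wq q0 q1 q2 T * (cw m T * LL μ m p z T)) (Icc 0 Tm) :=
    cq.mul ((contOn_LL (μ := μ) D.one D.hz).mono hsubm)
  have hTm0 : 0 ≤ Tm := hTs0.le.trans hTm
  have j1 : IntervalIntegrable (fun T => wq q0 q1 q2 T * (cw m T * LL μ m p z T)) volume 0 B.Ts :=
    (cLm.mono (by rw [uIcc_of_le hTs0.le]; exact Icc_subset_Icc_right hTm)).intervalIntegrable
  have j2 : IntervalIntegrable (fun T => wq q0 q1 q2 T * (cw m T * LL μ m p z T)) volume B.Ts Tm :=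
    (cLm.mono (by rw [uIcc_of_le hTm]; exact Icc_subset_Icc_left hTs0.le)).intervalIntegrable
  rw [← intervalIntegral.integral_add_adjacent_intervals j1 j2, ← hI]
  have j3 : 0 ≤ ∫ T in (B.Ts : ℝ)..Tm, wq q0 q1 q2 T * (cw m T * LL μ m p z T) := by
    refine intervalIntegral.integral_nonneg hTm fun T hT => ?_
    have hT0 : 0 ≤ T := hTs0.le.trans hT.1
    have hT1 : T < 1 := hT.2.trans_lt hTm1
    have h1 := mul_le_mul_of_nonneg_left hT.2 r1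
    have h2 := mul_le_mul_of_nonneg_left (pow_le_pow_left₀ hT0 hT.2 2) r2
    have h3 : 0 ≤ wq q0 q1 q2 T := by
      unfold wq
      linarith
    exact mul_nonneg h3 (mul_nonneg (cw_pos hT0 hT1).le (LL_nonneg hT0 hT1 D.one.np))
  linarith

end

end Vale.Agent.P224.R2.H460
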