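import Vale.Agent.P224.R2.H460.LawS
import Vale.Agent.P224.R2.H460.Box2
import Vale.Agent.P224.R2.H460.Be0
import Vale.Agent.P224.R2.H662.Inst
import Vale.Agent.P224.R2.H470.MacL
import Vale.Agent.P224.R2.H470.MacU
import Vale.Agent.P224.R2.H627.FraR

/-!
The law with the numbers of one cell.
-/

namespace Vale.Agent.P224.R2.H460

open MeasureTheory Set Filter Function Real Module Vale.Agent.P224 Vale.Agent.P224.FV
open Vale.Agent.P224.SM2 Vale.Agent.P224.R2.H820 Vale.Agent.P224.R2.H728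
open Vale.Agent.P224.R2.H627 Vale.Agent.P224.R2.H582 Vale.Agent.P224.R2.H470
open Vale.Agent.P224.R2.H925 (Fra)
open Vale.Agent.P224.R2.H484 (AbsTail)
open Vale.Agent.P224.R2.H662 (Dt ad qd dop dop_symm bxData_of hh_norm cob)
open scoped Topology RealInnerProductSpace ContDiff Manifold

set_option linter.unusedSectionVars false

section

variable {V W M : Type*} [NormedAddCommGroup V] [InnerProductSpace ℝ V] [FiniteDimensional ℝ V]
  [NormedAddCommGroup W] [InnerProductSpace ℝ W] [FiniteDimensional ℝ W]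
  [TopologicalSpace M] [ChartedSpace V M]
  [MeasurableSpace V] [BorelSpace V] [MeasurableSpace M] [BorelSpace M]
  [MeasurableSpace W] [BorelSpace W] [IsManifold 𝓘(ℝ, V) ∞ M]
  [CompactSpace M] [T2Space M]

/-- a lower bound `β` of the integrated square of the second kind -/
def MacF (V : Type*) [NormedAddCommGroup V] [InnerProductSpace ℝ V]
    [FiniteDimensional ℝ V] [MeasurableSpace V] [BorelSpace V]
    {W M : Type*} [NormedAddCommGroup W] [InnerProductSpace ℝ W] [FiniteDimensional ℝ W]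
    [MeasurableSpace W] [BorelSpace W] [TopologicalSpace M] [ChartedSpace V M]
    [MeasurableSpace M] [BorelSpace M] (F N : M → W) (m : ℕ) (β : ℝ) : Prop :=
  ∃ Bc : ℝ → ℝ, IntervalIntegrable Bc volume 0 1 ∧
      (∀ T ∈ Ioo (0 : ℝ) 1, Bc T * (volM V F).real univ ^ 2
        ≤ m * eM m T * E2 (volM V F) F N (fun k => SM2.ker T (m + 1) k.1 * Ck k)) ∧
      β ≤ ∫ T in (0 : ℝ)..1, Bc T

lemma MacF.mono {F N : M → W} {m : ℕ} {β β' : ℝ} (h : MacF V F N m β) (hb : β' ≤ β) :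
    MacF V F N m β' := by
  obtain ⟨Bc, h1, h2, h3⟩ := h
  exact ⟨Bc, h1, h2, hb.trans h3⟩

/-- the trivial bound -/
theorem macF_zero [Nonempty M] (hm : 17 ≤ finrank ℝ V) (hW : finrank ℝ W = finrank ℝ V + 2)
    {F : M → W} (hF : SphImm V F) (hmin : ∀ x n, IsUnitNormal V F x n → meanCurv V F x n = 0)
    {N : M → W} (hNs : ContMDiff 𝓘(ℝ, V) 𝓘(ℝ, W) ∞ N) (hN : ∀ x, IsUnitNormal V F x (N x))
    {m : ℕ} (hmm : m = finrank ℝ V) : MacF V F N m 0 := by
  subst hmm
  refine ⟨fun _ => 0, by simp, fun T hT => ?_, by simp⟩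
  rw [zero_mul]
  have hfin : IsFiniteMeasure (volM V F) := isFiniteMeasure_volM hF
  have hone : OneP (nrm (volM V F)) (finrank ℝ V) F N := oneP_nrm hW hF hmin hNs hN
  have he := (certO_M (m := finrank ℝ V) (by omega)).e0 T hT
  refine mul_nonneg (mul_nonneg (Nat.cast_nonneg _) he) ?_
  refine integral_nonneg fun q => ?_
  have hk := one_sub_pos hT.1.le hT.2 (hone.np q.1) (hone.np q.2)
  simp only [SM2.ker, Ck, SM2.pr]
  positivity

/-- the bound of a direction of the eigenbasis -/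
theorem macF_of [Nonempty M] (hm : 400 ≤ finrank ℝ V) (hW : finrank ℝ W = finrank ℝ V + 2)
    {F : M → W} (hF : SphImm V F) (hmin : ∀ x n, IsUnitNormal V F x n → meanCurv V F x n = 0)
    {N : M → W} (hNs : ContMDiff 𝓘(ℝ, V) 𝓘(ℝ, W) ∞ N) (hN : ∀ x, IsUnitNormal V F x (N x))
    {ι : Type*} [Fintype ι] [DecidableEq ι] (b : OrthonormalBasis ι ℝ W) (a : ι)
    {m : ℕ} (hmm : m = finrank ℝ V) {c cu ν2 : ℝ}
    (hc : (c = 1 / 10 ∧ cu = 1 / 3000 ∧ ν2 = 1 / 100) ∨ (c = 88 / 1000 ∧ cu = 7 / 5000 ∧ ν2 = 3 / 100)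
      ∨ (c = 78 / 1000 ∧ cu = 33 / 10000 ∧ ν2 = 6 / 100) ∨ (c = 7 / 100 ∧ cu = 62 / 10000 ∧ ν2 = 1 / 10)
      ∨ (c = 635 / 10000 ∧ cu = 1 / 100 ∧ ν2 = 3 / 20) ∨ (c = 589 / 10000 ∧ cu = 14 / 1000 ∧ ν2 = 1 / 5))
    (hν : m2 (nrm (volM V F)) (co b N) (co b N) a a ≤ ν2) :
    MacF V F N m (c * m2 (nrm (volM V F)) (co b N) (co b N) a a ^ 3
        - m2 (nrm (volM V F)) (co b N) (co b N) a a ^ 2 / (3 * m)
        - cu * uu (nrm (volM V F)) (co b N)) :=
  mac_fifth hm hW hF hmin hNs hN b a hmm hc hν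

/-- the bound of any direction with the sharp constants -/
theorem macF_X [Nonempty M] (hm : 400 ≤ finrank ℝ V) (hW : finrank ℝ W = finrank ℝ V + 2)
    {F : M → W} (hF : SphImm V F) (hmin : ∀ x n, IsUnitNormal V F x n → meanCurv V F x n = 0)
    {N : M → W} (hNs : ContMDiff 𝓘(ℝ, V) 𝓘(ℝ, W) ∞ N) (hN : ∀ x, IsUnitNormal V F x (N x))
    {ι : Type*} [Fintype ι] [DecidableEq ι] (b : OrthonormalBasis ι ℝ W) (a : ι)
    {m : ℕ} (hmm : m = finrank ℝ V) {c cu ν2 : ℝ} (hc : MacX c cu ν2)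
    (hν : m2 (nrm (volM V F)) (co b N) (co b N) a a ≤ ν2) :
    MacF V F N m (c * m2 (nrm (volM V F)) (co b N) (co b N) a a ^ 3
        - m2 (nrm (volM V F)) (co b N) (co b N) a a ^ 2 / (3 * m)
        - cu * uu (nrm (volM V F)) (co b N)) := by
  have hfin : IsFiniteMeasure (volM V F) := isFiniteMeasure_volM hF
  have hvpos : 0 < volM V F univ := volM_pos_of_isOpen hW hF isOpen_univ univ_nonempty
  have hnz : NeZero (volM V F) := ⟨fun h => by rw [h] at hvpos; simp at hvpos⟩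
  have hT0 : T0Data (nrm (volM V F)) (finrank ℝ V) (co b F) (co b N) :=
    t0Data_of_min (by omega) hW hF hmin hNs hN b
  have hprob : IsProbabilityMeasure (nrm (volM V F)) := hT0.prob
  have hone : OneP (nrm (volM V F)) (finrank ℝ V) F N := oneP_nrm hW hF hmin hNs hN
  have hNm := hone.cn.measurable
  have hcard : Fintype.card ι = finrank ℝ W := (Module.finrank_eq_card_basis b.toBasis).symm
  let e : ι ≃ Fin (finrank ℝ W) := Fintype.equivFinOfCardEq hcard
  obtain ⟨l, -, l2, l3⟩ := mac_specX hm hW hF hmin hNs hN (b.reindex e) hmm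
  obtain ⟨Bc, b1, b2, b3, -⟩ := l3 c cu ν2 hc
  refine ⟨Bc, b1, b2, le_trans ?_ b3⟩
  have e1 : m2 (nrm (volM V F)) (co (b.reindex e) N) (co (b.reindex e) N) (e a) (e a)
      = m2 (nrm (volM V F)) (co b N) (co b N) a a := by
    simp only [m2, co, OrthonormalBasis.reindex_apply, Equiv.symm_apply_apply]
  have e2 : ∑ i, m1 (nrm (volM V F)) (co (b.reindex e) N) i ^ 2
      = uu (nrm (volM V F)) (co b N) := by
    have e3 : uu (nrm (volM V F)) (co b N) = ∑ i, m1 (nrm (volM V F)) (co b N) i ^ 2 := rfl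
    rw [e3, uu_basis hNm hone.nn (b.reindex e), uu_basis hNm hone.nn b]
  have h1 := l2 (e a)
  rw [e1] at h1
  rw [e2]
  have hc0 : 0 ≤ c := by
    obtain ⟨T0, -, -, -, -, h, -⟩ := hc
    exact h
  have hmr : (0 : ℝ) < m := by
    have : 0 < m := by omega
    exact_mod_cast this
  have hν0 : 0 ≤ m2 (nrm (volM V F)) (co b N) (co b N) a a := by
    unfold m2
    exact integral_nonneg fun x => mul_self_nonneg _
  have h2 := psi_mono hc0 hmr hν0 (le_min h1 hν)
  have h3 : c * m2 (nrm (volM V F)) (co b N) (co b N) a a ^ 3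
      - m2 (nrm (volM V F)) (co b N) (co b N) a a ^ 2 / (3 * m)
      ≤ psi c m (m2 (nrm (volM V F)) (co b N) (co b N) a a) := le_max_left _ _
  linarith

/-- the conditions of a cell -/
def cellOK (B : Bx) (D : Dt) (l : List (ℚ × ℚ × ℚ)) (δ cs c0 : ℚ) : Bool :=
  B.head && B.cells 0 l && B.fin (4714 / 10000) 1 (18 / 5) δ cs c0 && D.ok B
    && decide (B.Ts ≤ 2 / 25)

/-- **The law with the numbers of one cell.** -/
theorem law_cell [Nonempty M] (hm : 400 ≤ finrank ℝ V) (hW : finrank ℝ W = finrank ℝ V + 2)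
    {F : M → W} (hF : SphImm V F) (hmin : ∀ x n, IsUnitNormal V F x n → meanCurv V F x n = 0)
    {N : M → W} (hNs : ContMDiff 𝓘(ℝ, V) 𝓘(ℝ, W) ∞ N) (hN : ∀ x, IsUnitNormal V F x (N x))
    (hinj : Injective F) {ι : Type*} [Fintype ι] [DecidableEq ι] (b : OrthonormalBasis ι ℝ W)
    (j : ι → ℝ) {m : ℕ} (hmm : m = finrank ℝ V)
    (hL : LSq (nrm (volM V F)) (Matrix.diagonal j) (co b F) (co b N))
    {lam : ℝ → ℝ} {T1 : ℝ} (hfr : Fra m lam (beR m) T1)
    (hlam : ∀ T ∈ Ioo (0 : ℝ) (2 / 25), (1 - T ^ 2) * lam T ≤ 193 / 10)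
    {B : Bx} {D : Dt} {l : List (ℚ × ℚ × ℚ)} {δ cs c0 : ℚ} (hok : cellOK B D l δ cs c0 = true)
    (hm0 : (B.m0 : ℝ) ≤ m) (hν : ∀ a, m2 (nrm (volM V F)) (co b N) (co b N) a a ≤ D.ν)
    (hh0 : 0 < hh (nrm (volM V F)) (Matrix.diagonal j) (co b F) (co b N))
    (hhb : hh (nrm (volM V F)) (Matrix.diagonal j) (co b F) (co b N) ≤ D.hb)
    (he : uu (nrm (volM V F)) (co b N)
      ≤ D.ep * hh (nrm (volM V F)) (Matrix.diagonal j) (co b F) (co b N))
    (hr : ∫ x, max (ad b j F N x - B.A0) 0 ^ 2 ∂(nrm (volM V F))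
        ≤ (B.ε * hh (nrm (volM V F)) (Matrix.diagonal j) (co b F) (co b N)) ^ 2
      ∧ ∫ x, ad b j F N x ^ 2 ∂(nrm (volM V F))
        ≤ D.A * hh (nrm (volM V F)) (Matrix.diagonal j) (co b F) (co b N)
      ∧ ∫ x, qd b j F x * ad b j F N x ∂(nrm (volM V F))
        ≤ D.Q * hh (nrm (volM V F)) (Matrix.diagonal j) (co b F) (co b N))
    {β t : ℝ} (hM : MacF V F N m β)
    (ht : AbsTail (volM V F) m F N (fun T => (1 - T ^ 2) * lam T) t) :
    2 * lamM m * (sphereVol m / (volM V F).real univ)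
        + (β + c0 * hh (nrm (volM V F)) (Matrix.diagonal j) (co b F) (co b N) - t)
      ≤ 1 + m * rM m 0 * uu (nrm (volM V F)) (co b N) := by
  subst hmm
  set m := finrank ℝ V with hmdef
  have hfin : IsFiniteMeasure (volM V F) := isFiniteMeasure_volM hF
  have hm1 : 1 ≤ m := by omega
  have hvpos : 0 < volM V F univ := volM_pos_of_isOpen hW hF isOpen_univ univ_nonempty
  have hnz : NeZero (volM V F) := ⟨fun h => by rw [h] at hvpos; simp at hvpos⟩
  have hT0 : T0Data (nrm (volM V F)) m (co b F) (co b N) :=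
    t0Data_of_min hm1 hW hF hmin hNs hN b
  have hprob : IsProbabilityMeasure (nrm (volM V F)) := hT0.prob
  have hone : OneP (nrm (volM V F)) m F N := oneP_nrm hW hF hmin hNs hN
  have hsc : SecondCountableTopology M := ChartedSpace.secondCountable_of_sigmaCompact V M
  have hnt : Nontrivial W := Module.nontrivial_of_finrank_pos (R := ℝ) (by omega)
  simp only [cellOK, Bool.and_eq_true, decide_eq_true_eq] at hok
  obtain ⟨⟨⟨⟨o1, o2⟩, o3⟩, o4⟩, o5⟩ := hok
  obtain ⟨Bc, b1, b2, b3⟩ := hM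
  obtain ⟨τ, t1, t2, t3⟩ := ht
  set z : M → W := fun x => N x - dop b j (F x) with hz
  have hzJ : ∀ x, z x = N x - dop b j (F x) := fun x => rfl
  have cz : Continuous z := hone.cn.sub ((dop b j).continuous.comp hone.cp)
  have he' : ‖∫ x, N x ∂(nrm (volM V F))‖ ^ 2
      ≤ D.ep * hh (nrm (volM V F)) (Matrix.diagonal j) (co b F) (co b N) := by
    have e1 : ‖∫ x, N x ∂(nrm (volM V F))‖ ^ 2 = uu (nrm (volM V F)) (co b N) := by
      rw [← H662.norm_sq_sum b]
      refine Finset.sum_congr rfl fun a _ => ?_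
      rw [← inner_int hone.cn]
      rfl
    rw [e1]
    exact he
  have hD : BxData (nrm (volM V F)) m F N z B (dop b j) :=
    bxData_of hone hW b hT0 hL cz hzJ o4 hm0 hν hh0 hhb he' hr
  have o5R : (B.Ts : ℝ) ≤ 2 / 25 := by
    have h' : ((B.Ts : ℚ) : ℝ) ≤ ((2 / 25 : ℚ) : ℝ) := by exact_mod_cast o5
    push_cast at h'
    exact h'
  have hH := B.hd_of o1
  have hbox := box_c0 B o1 o2 o3 hD (Tm := 2 / 25) o5R (by norm_num) (by
    push_cast
    norm_num)
  have hTs : (0 : ℝ) < 2 / 25 := by norm_num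
  have hmR : (400 : ℝ) ≤ m := by exact_mod_cast hm
  have key := law_S (by omega) hW hF hmin hNs hN hinj b rfl (J := dop b j) (dop_symm b j) hzJ
    hTs (by norm_num : (2 / 25 : ℝ) < 1) (w := wq (4714 / 10000) 1 (18 / 5)) (lam := lam)
    (β := beR m) (Bc := Bc) (τ := τ) (continuous_wq _ _ _).continuousOn hfr.hβ ?_ ?_ hfr.hrel
    (fun T hT => hfr.hpos T ⟨hT.1.le, hT.2⟩) b1 b2 t1 t2
  · have e1 : hh (nrm (volM V F)) (Matrix.diagonal j) (co b F) (co b N)
        = ∫ x, ‖z x‖ ^ 2 ∂(nrm (volM V F)) := hh_norm b j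
    have e2 : (fun T => wq ((4714 / 10000 : ℚ) : ℝ) ((1 : ℚ) : ℝ) ((18 / 5 : ℚ) : ℝ) T
        * (cw m T * LL (nrm (volM V F)) m F z T))
        = fun T => wq (4714 / 10000) 1 (18 / 5) T * (cw m T * LL (nrm (volM V F)) m F z T) := by
      push_cast
      rfl
    rw [e2, ← e1] at hbox
    have e3 : uu (nrm (volM V F)) (co b N) = ∑ i, m1 (nrm (volM V F)) (co b N) i ^ 2 := rfl
    rw [e3]
    refine le_trans ?_ key
    linarith
  · intro T hT
    have hT7 : T < 7 / 10 := hT.2.trans (by norm_num)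
    rw [beR_lt hT7]
    exact be_nonneg hm hT
  · intro T hT
    have hT7 : T < 7 / 10 := hT.2.trans (by norm_num)
    rw [beR_lt hT7]
    exact hq_of hm hT (hlam T hT)

end

end Vale.Agent.P224.R2.H460
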