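import Vale.Agent.P224.R2.H460.Zi
import Vale.Agent.P224.R2.H582.LawT
import Vale.Agent.P224.R2.H470.OneInst

/-!
The law with the quadratic form of the antisymmetric part kept at the levels below `Ts`.
-/

namespace Vale.Agent.P224.R2.H460

open MeasureTheory Set Filter Function Real Module Vale.Agent.P224 Vale.Agent.P224.FV
open Vale.Agent.P224.SM2 Vale.Agent.P224.R2.H820 Vale.Agent.P224.R2.H728
open Vale.Agent.P224.R2.H627 Vale.Agent.P224.R2.H582 Vale.Agent.P224.R2.H470
open scoped Topology RealInnerProductSpace ContDiff Manifold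

set_option linter.unusedSectionVars false

section

variable {X : Type*} {E : Type*} [NormedAddCommGroup E] [InnerProductSpace ℝ E]
  [TopologicalSpace X] [MeasurableSpace X] {μ : Measure X} {m : ℕ} {p n : X → E}

/-- the one point rows for a multiple of the measure -/
lemma oneP_smul (h : OneP μ m p n) (c : ENNReal) : OneP (c • μ) m p n where
  cp := h.cp
  cn := h.cn
  np := h.np
  nn := h.nn
  pn := h.pn
  r1 := by
    intro f hf b
    rw [integral_smul_measure, integral_smul_measure, h.r1 f hf b]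
    simp only [smul_eq_mul]
    ring
  r2 := by
    intro f hf b c
    rw [integral_smul_measure, integral_smul_measure, h.r2 f hf b c]
    simp only [smul_eq_mul]
    ring

end

section

variable {X : Type*} {E : Type*} [NormedAddCommGroup E] [InnerProductSpace ℝ E]
  [MeasurableSpace E] [BorelSpace E] [SecondCountableTopology E]
variable [TopologicalSpace X] [MeasurableSpace X] [SecondCountableTopology X]
variable [CompactSpace X] [BorelSpace X] {μ : Measure X} [IsFiniteMeasure μ] [NeZero μ] {m : ℕ}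
  {p n : X → E} {z : X → E} {T : ℝ}

/-- the level mean of the first square is the quadratic form of the residual -/
theorem E2_Xk_ker {J : E →L[ℝ] E} (hJ : ∀ u v, ⟪J u, v⟫ = ⟪u, J v⟫)
    (hzJ : ∀ x, z x = n x - J (p x)) :
    E2 μ p n (fun k => Xk k * SM2.ker T (m + 1) k.1)
      = μ.real univ ^ 2 * PI (nrm μ) p T (m + 1) (fun u => Dl p z u ^ 2) := by
  rw [E2_nrm]
  congr 1
  unfold PI
  refine integral_congr_ae (Eventually.of_forall fun q => ?_)
  have h1 : Dl p z q = ⟪n q.1, p q.2⟫ - ⟪p q.1, n q.2⟫ := by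
    unfold Dl
    rw [hzJ, hzJ, inner_sub_right, inner_sub_right, ← hJ (p q.1) (p q.2),
      real_inner_comm (p q.2) (J (p q.1)), real_inner_comm (n q.1) (p q.2)]
    ring
  simp only [h1]
  unfold Xk SM2.pr kr SM2.ker
  simp only
  ring

/-- the level mean with both kernels -/
theorem E2_level_ge (h : Two μ m p n) (hT : T ∈ Ioo (0 : ℝ) 1) {α β : ℝ} (hβ : 0 ≤ β) :
    (α - β / (1 - T)) * E2 μ p n (fun k => Xk k * SM2.ker T (m + 1) k.1)
      ≤ E2 μ p n (fun k => Xk k * (α * SM2.ker T (m + 1) k.1 - β * SM2.ker T (m + 2) k.1)) := by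
  have hT' : T ∈ Ico (0 : ℝ) 1 := ⟨hT.1.le, hT.2⟩
  have m1 := measurable_ker T (m + 1)
  have m2 := measurable_ker T (m + 2)
  have c1 := contOn_ker' hT' (m + 1)
  have c2 := contOn_ker' hT' (m + 2)
  have mX : Measurable Xk := by unfold Xk; fun_prop
  have cX : ContinuousOn Xk KK := by unfold Xk; fun_prop
  rw [← E2_mul]
  refine E2_mono h ((mX.mul (m1.comp measurable_fst)).const_mul _)
    (continuousOn_const.mul (cX.mul c1))
    (mX.mul (((m1.comp measurable_fst).const_mul _).sub ((m2.comp measurable_fst).const_mul _)))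
    (cX.mul ((continuousOn_const.mul c1).sub (continuousOn_const.mul c2))) fun q => ?_
  have hk := h.pr_mem q
  have hv := one_sub_pos' hT' hk.1.2
  set k := SM2.pr p n q with hkdef
  have hX : 0 ≤ Xk k := sq_nonneg _
  have e2 : SM2.ker T (m + 2) k.1 = SM2.ker T (m + 1) k.1 / (1 - T * k.1) := by
    have := ker_succ_div T k.1 (m + 1) 1
    rw [pow_one] at this
    rw [← this]
  have hk1 := ker_pos (m + 1) hv
  have h1T : 0 < 1 - T := by linarith [hT.2]
  have h1 : 1 - T ≤ 1 - T * k.1 := by nlinarith [hT.1, hk.1.2]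
  have h2 : SM2.ker T (m + 1) k.1 / (1 - T * k.1) ≤ SM2.ker T (m + 1) k.1 / (1 - T) :=
    div_le_div_of_nonneg_left hk1.le h1T h1
  have h3 := mul_le_mul_of_nonneg_left h2 hβ
  have h4 : (α - β / (1 - T)) * SM2.ker T (m + 1) k.1
      ≤ α * SM2.ker T (m + 1) k.1 - β * SM2.ker T (m + 2) k.1 := by
    rw [e2]
    have e3 : β * (SM2.ker T (m + 1) k.1 / (1 - T)) = β / (1 - T) * SM2.ker T (m + 1) k.1 := by
      field_simp
    rw [e3] at h3
    linarith
  have h5 := mul_le_mul_of_nonneg_left h4 hX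
  linarith

/-- the level mean is nonnegative -/
theorem E2_level_nonneg (h : Two μ m p n) (hT : T ∈ Ioo (0 : ℝ) 1) {α β : ℝ}
    (hrel : β ≤ α * (1 + T)) (hpos : β ≤ α * (1 - T)) :
    0 ≤ E2 μ p n (fun k => Xk k * (α * SM2.ker T (m + 1) k.1 - β * SM2.ker T (m + 2) k.1)) := by
  have hT' : T ∈ Ico (0 : ℝ) 1 := ⟨hT.1.le, hT.2⟩
  refine integral_nonneg fun q => ?_
  have hk := h.pr_mem q
  have hv := one_sub_pos' hT' hk.1.2
  change 0 ≤ Xk (SM2.pr p n q) * (α * SM2.ker T (m + 1) (SM2.pr p n q).1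
    - β * SM2.ker T (m + 2) (SM2.pr p n q).1)
  refine mul_nonneg (sq_nonneg _) ?_
  have e2 : SM2.ker T (m + 2) (SM2.pr p n q).1
      = SM2.ker T (m + 1) (SM2.pr p n q).1 / (1 - T * (SM2.pr p n q).1) := by
    have := ker_succ_div T (SM2.pr p n q).1 (m + 1) 1
    rw [pow_one] at this
    rw [← this]
  rw [e2]
  have hk1 := ker_pos (m + 1) hv
  have h1 : 1 - T ≤ 1 - T * (SM2.pr p n q).1 := by nlinarith [hT.1, hk.1.2]
  have h1' : 1 - T * (SM2.pr p n q).1 ≤ 1 + T := by nlinarith [hT.1, hk.1.1]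
  have h2 : β / (1 - T * (SM2.pr p n q).1) ≤ α := by
    rw [div_le_iff₀ hv]
    rcases le_total 0 α with h | h
    · exact hpos.trans (mul_le_mul_of_nonneg_left h1 h)
    · exact hrel.trans (mul_le_mul_of_nonpos_left h1' h)
  have h3 := mul_le_mul_of_nonneg_right h2 hk1.le
  have h4 : β * (SM2.ker T (m + 1) (SM2.pr p n q).1 / (1 - T * (SM2.pr p n q).1))
      = β / (1 - T * (SM2.pr p n q).1) * SM2.ker T (m + 1) (SM2.pr p n q).1 := by
    field_simp
  linarith

end

section

variable {V W M : Type*} [NormedAddCommGroup V] [InnerProductSpace ℝ V] [FiniteDimensional ℝ V]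
  [NormedAddCommGroup W] [InnerProductSpace ℝ W] [FiniteDimensional ℝ W]
  [TopologicalSpace M] [ChartedSpace V M]
  [MeasurableSpace V] [BorelSpace V] [MeasurableSpace M] [BorelSpace M]
  [MeasurableSpace W] [BorelSpace W] [IsManifold 𝓘(ℝ, V) ∞ M]
  [CompactSpace M] [T2Space M]

/-- the law with the quadratic form kept at the levels below `Ts` -/
theorem law_S [Nonempty M] [SecondCountableTopology M] (hm : 4 ≤ finrank ℝ V)
    (hW : finrank ℝ W = finrank ℝ V + 2)
    {F : M → W} (hF : SphImm V F) (hmin : ∀ x n, IsUnitNormal V F x n → meanCurv V F x n = 0)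
    {N : M → W} (hNs : ContMDiff 𝓘(ℝ, V) 𝓘(ℝ, W) ∞ N) (hN : ∀ x, IsUnitNormal V F x (N x))
    (hinj : Injective F) {ι : Type*} [Fintype ι] [DecidableEq ι] (b : OrthonormalBasis ι ℝ W)
    {m : ℕ} (hmm : m = finrank ℝ V)
    {J : W →L[ℝ] W} (hJ : ∀ u v, ⟪J u, v⟫ = ⟪u, J v⟫) {z : M → W} (hzJ : ∀ x, z x = N x - J (F x))
    {Ts : ℝ} (hTs0 : 0 < Ts) (hTs1 : Ts < 1) {w lam β Bc τ : ℝ → ℝ} (hw : ContinuousOn w (Icc 0 Ts))
    (hβ : ∀ T ∈ Ioo (0 : ℝ) 1,
      m * (m + 1) * (T * |2 * rM m T - eM m T| - 2 * T ^ 2 * rM m T) ≤ β T)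
    (hβ0 : ∀ T ∈ Ioo (0 : ℝ) Ts, 0 ≤ β T)
    (hq : ∀ T ∈ Ioo (0 : ℝ) Ts, m * (w T * cw m T)
      ≤ al m T (yM m T) (rM m T) (lam T) - β T / (1 - T))
    (hα : ∀ T ∈ Ioo (0 : ℝ) 1, β T ≤ al m T (yM m T) (rM m T) (lam T) * (1 + T))
    (hpos : ∀ T ∈ Ioo (0 : ℝ) 1, β T ≤ al m T (yM m T) (rM m T) (lam T) * (1 - T))
    (hBi : IntervalIntegrable Bc volume 0 1)
    (hBc : ∀ T ∈ Ioo (0 : ℝ) 1, Bc T * (volM V F).real univ ^ 2
      ≤ m * eM m T * E2 (volM V F) F N (fun k => SM2.ker T (m + 1) k.1 * Ck k))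
    (hτi : IntervalIntegrable τ volume 0 1)
    (hτ : ∀ T ∈ Ioo (0 : ℝ) 1, (m + 1) * (m + 2) * T ^ 2 * rM m T / (1 - T ^ 2) / 2
      * E2 (volM V F) F N (TK m T ((1 - T ^ 2) * lam T))
      ≤ τ T * (volM V F).real univ ^ 2) :
    2 * lamM m * (sphereVol m / (volM V F).real univ)
        + ((∫ T in (0 : ℝ)..1, Bc T)
          + (∫ T in (0 : ℝ)..Ts, w T * (cw m T * LL (nrm (volM V F)) m F z T))
          - ∫ T in (0 : ℝ)..1, τ T)
      ≤ 1 + m * rM m 0 * ∑ i, m1 (nrm (volM V F)) (co b N) i ^ 2 := by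
  subst hmm
  set m := finrank ℝ V with hmdef
  have hfin : IsFiniteMeasure (volM V F) := isFiniteMeasure_volM hF
  have hm1 : 1 ≤ m := by omega
  have hvpos : 0 < volM V F univ := volM_pos_of_isOpen hW hF isOpen_univ univ_nonempty
  have hnz : NeZero (volM V F) := ⟨fun h => by rw [h] at hvpos; simp at hvpos⟩
  have hA : 0 < (volM V F).real univ := ENNReal.toReal_pos hvpos.ne' (measure_ne_top _ _)
  have hT0 : T0Data (nrm (volM V F)) m (co b F) (co b N) :=
    t0Data_of_min hm1 hW hF hmin hNs hN b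
  have hprob : IsProbabilityMeasure (nrm (volM V F)) := hT0.prob
  have h2p : Two (volM V F) m F N := two_of_min hW hF hmin hNs hN
  have hc := certO_M hm
  have h1p : OneP (nrm (volM V F)) m F N := oneP_smul (oneP_of_min hW hF hmin hNs hN) _
  set A := (volM V F).real univ with hAdef
  have hA2 : 0 < A ^ 2 := pow_pos hA 2
  have hmR : (0 : ℝ) < m := by exact_mod_cast (by omega : 0 < m)
  have hcz : Continuous z := by
    have e : z = fun x => N x - J (F x) := funext hzJ
    rw [e]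
    exact h1p.cn.sub (J.continuous.comp h1p.cp)
  set Lf : ℝ → ℝ := fun T => w T * (cw m T * LL (nrm (volM V F)) m F z T) with hLf
  set D : ℝ → ℝ := (Ioo 0 Ts).indicator Lf with hD
  have cL : ContinuousOn Lf (Icc 0 Ts) := by
    refine ContinuousOn.mul hw ((contOn_LL h1p hcz).mono fun x hx => ?_)
    exact ⟨hx.1, hx.2.trans_lt hTs1⟩
  have iL : IntegrableOn Lf (Ioo 0 Ts) volume :=
    (cL.integrableOn_Icc).mono_set Ioo_subset_Icc_self
  have iD : IntervalIntegrable D volume 0 1 := by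
    rw [intervalIntegrable_iff_integrableOn_Ioc_of_le zero_le_one]
    exact (iL.integrable_indicator measurableSet_Ioo).integrableOn
  have eD : ∫ T in (0 : ℝ)..1, D T = ∫ T in (0 : ℝ)..Ts, Lf T := by
    rw [intervalIntegral.integral_of_le zero_le_one, intervalIntegral.integral_of_le hTs0.le, hD,
      setIntegral_indicator measurableSet_Ioo, integral_Ioc_eq_integral_Ioo]
    congr 2
    ext T
    simp only [mem_inter_iff, mem_Ioc, mem_Ioo]
    constructor
    · rintro ⟨_, h2⟩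
      exact h2
    · intro h
      exact ⟨⟨h.1, (h.2.trans hTs1).le⟩, h⟩
  -- the pointwise bound
  have key : ∀ T ∈ Ioo (0 : ℝ) 1, Bc T * A ^ 2 + D T * A ^ 2 - τ T * A ^ 2 ≤ DM V F N T := by
    intro T hT
    have he := hc.e0 T hT
    have q1' := DF_ge_level h2p hc (T := T) (l := (1 - T ^ 2) * lam T)
      (α := al m T (yM m T) (rM m T) (lam T)) (β := β T)
      (ε := m * eM m T) (G := (m + 1) * (m + 2) * T ^ 2 * rM m T / (1 - T ^ 2) / 2)
      hT ?_ (hβ T hT) le_rfl le_rfl
    · unfold DM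
      rw [← hmdef]
      refine le_trans ?_ q1'
      have h1 := hBc T hT
      have h2 := hτ T hT
      have h3 : D T * A ^ 2 ≤ 1 / 2 * E2 (volM V F) F N (fun k => Xk k
          * (al m T (yM m T) (rM m T) (lam T) * SM2.ker T (m + 1) k.1
            - β T * SM2.ker T (m + 2) k.1)) := by
        have hn0 := E2_level_nonneg h2p hT (hα T hT) (hpos T hT)
        by_cases hTs : T < Ts
        · have hT2 : T ∈ Ioo 0 Ts := ⟨hT.1, hTs⟩
          have hl := E2_level_ge (α := al m T (yM m T) (rM m T) (lam T)) h2p hT (hβ0 T hT2)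
          rw [E2_Xk_ker hJ hzJ] at hl
          have hP : 0 ≤ PI (nrm (volM V F)) F T (m + 1) (fun u => Dl F z u ^ 2) :=
            PI_nonneg hT.1.le hT.2 _ h1p.np fun u => sq_nonneg _
          have h5 := mul_le_mul_of_nonneg_right (hq T hT2) (mul_nonneg hA2.le hP)
          have e6 : D T * A ^ 2 = 1 / 2 * (m * (w T * cw m T)
              * (A ^ 2 * PI (nrm (volM V F)) F T (m + 1) (fun u => Dl F z u ^ 2))) := by
            rw [hD, indicator_of_mem hT2, hLf]
            simp only [LL]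
            ring
          rw [e6]
          linarith
        · have h7 : T ∉ Ioo 0 Ts := fun h => hTs h.2
          rw [hD, indicator_of_notMem h7, zero_mul]
          linarith
      linarith
    · unfold al
      rw [show (m + 1) * (m + 2) * T ^ 2 * rM m T / (1 - T ^ 2) * ((1 - T ^ 2) * lam T)
        = (m + 1) * (m + 2) * T ^ 2 * rM m T * lam T by
          have hk : 1 - T ^ 2 ≠ 0 := by nlinarith [hT.1, hT.2]
          field_simp]
  have iB : IntervalIntegrable (fun T => Bc T * A ^ 2 + D T * A ^ 2 - τ T * A ^ 2) volume 0 1 :=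
    ((hBi.mul_const _).add (iD.mul_const _)).sub (hτi.mul_const _)
  have hL := sharp_defect hm hW hF hmin hNs hN hinj iB key
  have eI : ∫ T in (0 : ℝ)..1, (Bc T * A ^ 2 + D T * A ^ 2 - τ T * A ^ 2)
      = ((∫ T in (0 : ℝ)..1, Bc T) + (∫ T in (0 : ℝ)..Ts, Lf T) - ∫ T in (0 : ℝ)..1, τ T)
        * A ^ 2 := by
    rw [intervalIntegral.integral_sub ((hBi.mul_const _).add (iD.mul_const _)) (hτi.mul_const _),
      intervalIntegral.integral_add (hBi.mul_const _) (iD.mul_const _)]
    simp only [intervalIntegral.integral_mul_const]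
    rw [eD]
    ring
  have hcN : Continuous N := hNs.continuous
  have e6 : ‖∫ x, N x ∂(volM V F)‖ ^ 2 = A ^ 2 * ∑ i, m1 (nrm (volM V F)) (co b N) i ^ 2 :=
    sum_m1_sq b (hcN.integrable_of_hasCompactSupport (HasCompactSupport.of_compactSpace N))
  rw [eI, e6] at hL
  refine le_of_mul_le_mul_left (a := A ^ 2) ?_ hA2
  refine le_trans (le_of_eq ?_) (hL.trans (le_of_eq ?_))
  · have e10 : A ^ 2 * (2 * lamM m * (sphereVol m / A)) = 2 * lamM m * (sphereVol m * A) := by
      field_simp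
    rw [mul_add, e10]
    ring
  · ring

end

end Vale.Agent.P224.R2.H460
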