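import Vale.Agent.P224.R2.H460.Cl3

/-!
The law without the level form, the first bound of the weights by the defect, the columns.
-/

namespace Vale.Agent.P224.R2.H460

open MeasureTheory Set Filter Function Real Module Vale.Agent.P224 Vale.Agent.P224.FV
open Vale.Agent.P224.SM2 Vale.Agent.P224.R2.H820 Vale.Agent.P224.R2.H728
open Vale.Agent.P224.R2.H627 Vale.Agent.P224.R2.H582 Vale.Agent.P224.R2.H470
open Vale.Agent.P224.R2.H925 (Fra)
open Vale.Agent.P224.R2.H484 (AbsTail)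
open Vale.Agent.P224.R2.H662 (Dt ad qd dop dop_symm bxData_of hh_norm cob jj_bounds int_z_eq)
open scoped Topology RealInnerProductSpace ContDiff Manifold

set_option linter.unusedSectionVars false

section

variable {V W M : Type*} [NormedAddCommGroup V] [InnerProductSpace ℝ V] [FiniteDimensional ℝ V]
  [NormedAddCommGroup W] [InnerProductSpace ℝ W] [FiniteDimensional ℝ W]
  [TopologicalSpace M] [ChartedSpace V M]
  [MeasurableSpace V] [BorelSpace V] [MeasurableSpace M] [BorelSpace M]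
  [MeasurableSpace W] [BorelSpace W] [IsManifold 𝓘(ℝ, V) ∞ M]
  [CompactSpace M] [T2Space M]

/-- the law with the square of the second kind only -/
theorem law_mac [Nonempty M] (hm : 17 ≤ finrank ℝ V) (hW : finrank ℝ W = finrank ℝ V + 2)
    {F : M → W} (hF : SphImm V F) (hmin : ∀ x n, IsUnitNormal V F x n → meanCurv V F x n = 0)
    {N : M → W} (hNs : ContMDiff 𝓘(ℝ, V) 𝓘(ℝ, W) ∞ N) (hN : ∀ x, IsUnitNormal V F x (N x))
    (hinj : Injective F) {ι : Type*} [Fintype ι] [DecidableEq ι] (b : OrthonormalBasis ι ℝ W)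
    {m : ℕ} (hmm : m = finrank ℝ V)
    {lam β' : ℝ → ℝ} {T1 : ℝ} (hfr : Fra m lam β' T1)
    (hβ0 : ∀ T ∈ Ioo (0 : ℝ) (1 / 100), 0 ≤ β' T)
    {β t : ℝ} (hM : MacF V F N m β)
    (ht : AbsTail (volM V F) m F N (fun T => (1 - T ^ 2) * lam T) t) :
    2 * lamM m * (sphereVol m / (volM V F).real univ) + (β - t)
      ≤ 1 + m * rM m 0 * uu (nrm (volM V F)) (co b N) := by
  subst hmm
  set m := finrank ℝ V with hmdef
  have hfin : IsFiniteMeasure (volM V F) := isFiniteMeasure_volM hF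
  have hone : OneP (nrm (volM V F)) m F N := oneP_nrm hW hF hmin hNs hN
  have hsc : SecondCountableTopology M := ChartedSpace.secondCountable_of_sigmaCompact V M
  obtain ⟨Bc, b1, b2, b3⟩ := hM
  obtain ⟨τ, t1, t2, t3⟩ := ht
  have key := law_S (by omega) hW hF hmin hNs hN hinj b rfl (J := dop b (fun _ => (0 : ℝ)))
    (dop_symm b _) (z := fun x => N x - dop b (fun _ => (0 : ℝ)) (F x)) (fun x => rfl)
    (by norm_num : (0 : ℝ) < 1 / 100) (by norm_num : (1 / 100 : ℝ) < 1) (w := fun _ => (0 : ℝ))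
    (lam := lam) (β := β') (Bc := Bc) (τ := τ) continuousOn_const hfr.hβ hβ0 ?_ hfr.hrel
    (fun T hT => hfr.hpos T ⟨hT.1.le, hT.2⟩) b1 b2 t1 t2
  · have e3 : uu (nrm (volM V F)) (co b N) = ∑ i, m1 (nrm (volM V F)) (co b N) i ^ 2 := rfl
    rw [e3]
    refine le_trans ?_ key
    have e4 : ∫ T in (0 : ℝ)..(1 / 100), (fun _ => (0 : ℝ)) T * (cw m T * LL (nrm (volM V F)) m F
        (fun x => N x - dop b (fun _ => (0 : ℝ)) (F x)) T) = 0 := by
      simp
    rw [e4]
    linarith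
  · intro T hT
    have hT1 : T < 1 := hT.2.trans (by norm_num)
    have h1 := hfr.hpos T ⟨hT.1.le, hT1⟩
    have h1T : 0 < 1 - T := by linarith
    rw [zero_mul, mul_zero, sub_nonneg, div_le_iff₀ h1T]
    exact h1

/-- the mean normal is at most the defect -/
theorem uu_le_hh [Nonempty M] (hm : 1 ≤ finrank ℝ V) (hW : finrank ℝ W = finrank ℝ V + 2)
    {F : M → W} (hF : SphImm V F) (hmin : ∀ x n, IsUnitNormal V F x n → meanCurv V F x n = 0)
    {N : M → W} (hNs : ContMDiff 𝓘(ℝ, V) 𝓘(ℝ, W) ∞ N) (hN : ∀ x, IsUnitNormal V F x (N x))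
    {ι : Type*} [Fintype ι] [DecidableEq ι] (b : OrthonormalBasis ι ℝ W) (j : ι → ℝ) :
    uu (nrm (volM V F)) (co b N)
      ≤ hh (nrm (volM V F)) (Matrix.diagonal j) (co b F) (co b N) := by
  have hfin : IsFiniteMeasure (volM V F) := isFiniteMeasure_volM hF
  have hvpos : 0 < volM V F univ := volM_pos_of_isOpen hW hF isOpen_univ univ_nonempty
  have hnz : NeZero (volM V F) := ⟨fun h => by rw [h] at hvpos; simp at hvpos⟩
  have hT0 : T0Data (nrm (volM V F)) (finrank ℝ V) (co b F) (co b N) :=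
    t0Data_of_min hm hW hF hmin hNs hN b
  have hprob : IsProbabilityMeasure (nrm (volM V F)) := hT0.prob
  have hone : OneP (nrm (volM V F)) (finrank ℝ V) F N := oneP_nrm hW hF hmin hNs hN
  have hsc : SecondCountableTopology M := ChartedSpace.secondCountable_of_sigmaCompact V M
  set z : M → W := fun x => N x - dop b j (F x) with hz
  have cz : Continuous z := hone.cn.sub ((dop b j).continuous.comp hone.cp)
  have e1 : ‖∫ x, N x ∂(nrm (volM V F))‖ ^ 2 = uu (nrm (volM V F)) (co b N) := by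
    rw [← H662.norm_sq_sum b]
    refine Finset.sum_congr rfl fun a _ => ?_
    rw [← inner_int hone.cn]
    rfl
  have e2 : hh (nrm (volM V F)) (Matrix.diagonal j) (co b F) (co b N)
      = ∫ x, ‖z x‖ ^ 2 ∂(nrm (volM V F)) := hh_norm b j
  rw [← e1, e2, ← int_z_eq hone hm b (z := z) fun x => rfl, ← H662.norm_sq_sum b,
    ← sum_int_sq cz b]
  refine Finset.sum_le_sum fun a _ => ?_
  rw [← inner_int cz]
  have h1 := cs_int (μ := nrm (volM V F)) (f := fun x => ⟪z x, b a⟫) (g := fun _ => (1 : ℝ))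
    (by fun_prop) (by fun_prop)
  simpa using h1

/-- the first bound of the weights by the defect -/
theorem boot [Nonempty M] (hm : 400 ≤ finrank ℝ V) (hW : finrank ℝ W = finrank ℝ V + 2)
    {F : M → W} (hF : SphImm V F) (hmin : ∀ x n, IsUnitNormal V F x n → meanCurv V F x n = 0)
    {N : M → W} (hNs : ContMDiff 𝓘(ℝ, V) 𝓘(ℝ, W) ∞ N) (hN : ∀ x, IsUnitNormal V F x (N x))
    (hinj : Injective F) {ι : Type*} [Fintype ι] [DecidableEq ι] (b : OrthonormalBasis ι ℝ W)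
    (j : ι → ℝ) {m : ℕ} (hmm : m = finrank ℝ V)
    {lam β' : ℝ → ℝ} {T1 : ℝ} (hfr : Fra m lam β' T1)
    (hβ0 : ∀ T ∈ Ioo (0 : ℝ) (1 / 100), 0 ≤ β' T) (hg : m * rM m 0 ≤ 474 / 1000)
    {a0 : ι} (h5 : 5 ≤ m * m2 (nrm (volM V F)) (co b N) (co b N) a0 a0)
    (hν : m2 (nrm (volM V F)) (co b N) (co b N) a0 a0 ≤ 13 / 100) {t : ℝ}
    (ht1 : m2 (nrm (volM V F)) (co b N) (co b N) a0 a0 ≤ 3 / 100 → t ≤ 1 / 50)
    (ht2 : t ≤ 1 / 10)
    (ht : AbsTail (volM V F) m F N (fun T => (1 - T ^ 2) * lam T)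
      (t * hh (nrm (volM V F)) (Matrix.diagonal j) (co b F) (co b N))) {gp : ℝ}
    (hgp : gp ≤ 1 / 500 * hh (nrm (volM V F)) (Matrix.diagonal j) (co b F) (co b N))
    (hgap : 1 < 2 * lamM m * (sphereVol m / (volM V F).real univ) + gp) :
    m2 (nrm (volM V F)) (co b N) (co b N) a0 a0 ^ 3
      ≤ 24 * hh (nrm (volM V F)) (Matrix.diagonal j) (co b F) (co b N) := by
  have huh := uu_le_hh (by omega) hW hF hmin hNs hN b j
  have hmR : (400 : ℝ) ≤ m := by
    rw [hmm]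
    exact_mod_cast hm
  set ν := m2 (nrm (volM V F)) (co b N) (co b N) a0 a0 with hνd
  set h := hh (nrm (volM V F)) (Matrix.diagonal j) (co b F) (co b N) with hd
  set u := uu (nrm (volM V F)) (co b N) with hud
  have hu0 : 0 ≤ u := Finset.sum_nonneg fun i _ => sq_nonneg _
  have hh0 : 0 ≤ h := hu0.trans huh
  have hν0 : 0 < ν := by
    by_contra hc
    push Not at hc
    have := mul_nonpos_of_nonneg_of_nonpos (by linarith : (0 : ℝ) ≤ m) hc
    linarith
  have hν3 : 0 < ν ^ 3 := by positivity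
  -- the general step
  have step : ∀ {c cu ν2 k : ℝ}, ((c = 1 / 10 ∧ cu = 1 / 3000 ∧ ν2 = 1 / 100)
      ∨ (c = 88 / 1000 ∧ cu = 7 / 5000 ∧ ν2 = 3 / 100)
      ∨ (c = 78 / 1000 ∧ cu = 33 / 10000 ∧ ν2 = 6 / 100)
      ∨ (c = 7 / 100 ∧ cu = 62 / 10000 ∧ ν2 = 1 / 10)
      ∨ (c = 635 / 10000 ∧ cu = 1 / 100 ∧ ν2 = 3 / 20)
      ∨ (c = 589 / 10000 ∧ cu = 14 / 1000 ∧ ν2 = 1 / 5)) → ν ≤ ν2 → 0 < k →
      k ≤ 3 * m * ν → 0 ≤ cu → (c - 1 / k) * ν ^ 3 ≤ (474 / 1000 + cu + t + 1 / 500) * h := by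
    intro c cu ν2 k hc hν2 hk hk2 hcu
    have hM := macF_of hm hW hF hmin hNs hN b a0 hmm hc hν2
    have key := law_mac (by omega) hW hF hmin hNs hN hinj b hmm hfr hβ0 hM ht
    rw [← hνd, ← hud] at key
    have k1 : ν ^ 2 / (3 * m) ≤ 1 / k * ν ^ 3 := by
      rw [div_le_iff₀ (by positivity)]
      have e1 : 1 / k * ν ^ 3 * (3 * m) = ν ^ 2 * (3 * m * ν / k) := by
        field_simp
      rw [e1]
      have : 1 ≤ 3 * m * ν / k := by
        rw [le_div_iff₀ hk]
        linarith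
      have := mul_le_mul_of_nonneg_left this (sq_nonneg ν)
      linarith
    have k2 : (m * rM m 0 + cu) * u ≤ (474 / 1000 + cu) * h :=
      mul_le_mul (by linarith) huh hu0 (by linarith)
    linarith
  rcases le_total ν (3 / 100) with c1 | c1
  · have s1 := step (c := 88 / 1000) (cu := 7 / 5000) (ν2 := 3 / 100) (k := 15)
      (Or.inr (Or.inl ⟨rfl, rfl, rfl⟩)) c1 (by norm_num) (by linarith) (by norm_num)
    have t1 := mul_le_mul_of_nonneg_right (ht1 c1) hh0
    nlinarith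
  · have t1 := mul_le_mul_of_nonneg_right ht2 hh0
    have hk : 36 ≤ 3 * (m : ℝ) * ν := by
      have := mul_le_mul hmR c1 (by norm_num) (by linarith)
      linarith
    rcases le_total ν (6 / 100) with c2 | c2
    · have s1 := step (c := 78 / 1000) (cu := 33 / 10000) (ν2 := 6 / 100) (k := 36)
        (Or.inr (Or.inr (Or.inl ⟨rfl, rfl, rfl⟩))) c2 (by norm_num) hk (by norm_num)
      nlinarith
    · rcases le_total ν (1 / 10) with c3 | c3
      · have s1 := step (c := 7 / 100) (cu := 62 / 10000) (ν2 := 1 / 10) (k := 36)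
          (Or.inr (Or.inr (Or.inr (Or.inl ⟨rfl, rfl, rfl⟩)))) c3 (by norm_num) hk (by norm_num)
        nlinarith
      · have s1 := step (c := 635 / 10000) (cu := 1 / 100) (ν2 := 3 / 20) (k := 36)
          (Or.inr (Or.inr (Or.inr (Or.inr (Or.inl ⟨rfl, rfl, rfl⟩))))) (hν.trans (by norm_num))
          (by norm_num) hk (by norm_num)
        nlinarith

/-- **Soundness of the columns.** -/
theorem colsS_sound [Nonempty M] (hm : 400 ≤ finrank ℝ V) (hW : finrank ℝ W = finrank ℝ V + 2)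
    {F : M → W} (hF : SphImm V F) (hmin : ∀ x n, IsUnitNormal V F x n → meanCurv V F x n = 0)
    {N : M → W} (hNs : ContMDiff 𝓘(ℝ, V) 𝓘(ℝ, W) ∞ N) (hN : ∀ x, IsUnitNormal V F x (N x))
    (hinj : Injective F) {ι : Type*} [Fintype ι] [DecidableEq ι] (b : OrthonormalBasis ι ℝ W)
    (j : ι → ℝ) {m : ℕ} (hmm : m = finrank ℝ V)
    (hL : LSq (nrm (volM V F)) (Matrix.diagonal j) (co b F) (co b N))
    {lam : ℝ → ℝ} {T1 : ℝ} (hfr : Fra m lam (beR m) T1)
    (hlam : ∀ T ∈ Ioo (0 : ℝ) (2 / 25), (1 - T ^ 2) * lam T ≤ 193 / 10)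
    {p : ParS} {ris : List RaR} {els : List ElR} (hm00 : 0 < p.m0)
    (hm0 : (p.m0 : ℝ) ≤ m) (hg : m * rM m 0 ≤ p.g)
    {a0 : ι} (hν : ∀ a, m2 (nrm (volM V F)) (co b N) (co b N) a a
      ≤ m2 (nrm (volM V F)) (co b N) (co b N) a0 a0)
    (hu : uu (nrm (volM V F)) (co b N) ≤ (p.nuf : ℝ) ^ 2)
    (hR : ∀ r ∈ ris, m2 (nrm (volM V F)) (co b N) (co b N) a0 a0 ≤ r.nu → (r.bot = true ∨
      m2 (nrm (volM V F)) (co b N) (co b N) a0 a0 ^ 3
        ≤ r.cf * hh (nrm (volM V F)) (Matrix.diagonal j) (co b F) (co b N)) →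
      Tri V F N b j r.A0 r.ε r.A r.Q)
    (hE : ∀ f ∈ els, m2 (nrm (volM V F)) (co b N) (co b N) a0 a0 ≤ f.nu →
      f.ha ≤ hh (nrm (volM V F)) (Matrix.diagonal j) (co b F) (co b N) →
      hh (nrm (volM V F)) (Matrix.diagonal j) (co b F) (co b N) ≤ f.hb →
      f.L * √(uu (nrm (volM V F)) (co b N))
        ≤ f.K * hh (nrm (volM V F)) (Matrix.diagonal j) (co b F) (co b N) + f.R)
    (habs : AbsTail (volM V F) m F N (fun T => (1 - T ^ 2) * lam T) p.ab)
    (htl : ∀ k ∈ p.tls, (∀ a, j a ^ 2 ≤ (k.1 : ℝ) * (m + 1)) →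
      AbsTail (volM V F) m F N (fun T => (1 - T ^ 2) * lam T)
        (k.2 * hh (nrm (volM V F)) (Matrix.diagonal j) (co b F) (co b N)))
    {gp : ℝ}
    (hgp : gp ≤ p.ε0 * hh (nrm (volM V F)) (Matrix.diagonal j) (co b F) (co b N))
    (hgp2 : gp ≤ 1 / 10 ^ 8)
    (hh0 : 0 < hh (nrm (volM V F)) (Matrix.diagonal j) (co b F) (co b N))
    (hh1 : hh (nrm (volM V F)) (Matrix.diagonal j) (co b F) (co b N) ≤ p.h1) :
    ∀ (l : List ColS) (νa : ℚ), colsS p ris els νa l = true →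
      νa ≤ m2 (nrm (volM V F)) (co b N) (co b N) a0 a0 →
      m2 (nrm (volM V F)) (co b N) (co b N) a0 a0 ≤ lastS νa l → l ≠ [] →
      2 * lamM m * (sphereVol m / (volM V F).real univ) + gp ≤ 1 := by
  intro l
  induction l with
  | nil =>
    intro νa _ _ _ h
    exact absurd rfl h
  | cons C l ih =>
    intro νa hok hha hlast _
    simp only [colsS, Bool.and_eq_true] at hok
    rcases le_total (m2 (nrm (volM V F)) (co b N) (co b N) a0 a0) (C.νb : ℝ) with h | h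
    · exact colS_sound hm hW hF hmin hNs hN hinj b j hmm hL hfr hlam hok.1 hm00 hm0 hg hν hha h
        hu hR hE habs htl hgp hgp2 hh0 hh1
    · by_cases hl : l = []
      · subst hl
        simp only [lastS] at hlast
        exact colS_sound hm hW hF hmin hNs hN hinj b j hmm hL hfr hlam hok.1 hm00 hm0 hg hν hha
          hlast hu hR hE habs htl hgp hgp2 hh0 hh1
      · exact ih C.νb hok.2 h hlast hl

end

end Vale.Agent.P224.R2.H460
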