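import Vale.Agent.P224.R2.H460.Cl1

/-!
The checker of the closing inequalities.
-/

namespace Vale.Agent.P224.R2.H460

open MeasureTheory Set Filter Function Real Module Vale.Agent.P224 Vale.Agent.P224.FV
open Vale.Agent.P224.SM2 Vale.Agent.P224.R2.H820 Vale.Agent.P224.R2.H728
open Vale.Agent.P224.R2.H627 Vale.Agent.P224.R2.H582 Vale.Agent.P224.R2.H470
open Vale.Agent.P224.R2.H925 (Fra)
open Vale.Agent.P224.R2.H484 (AbsTail)
open Vale.Agent.P224.R2.H662 (Dt ad qd dop dop_symm bxData_of hh_norm cob)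
open scoped Topology RealInnerProductSpace ContDiff Manifold

set_option linter.unusedSectionVars false

/-- an affine bound `L √u ≤ K h + R` for `ν ≤ nu`, `ha ≤ h ≤ hb` -/
structure ElR where
  nu : ℚ
  ha : ℚ
  hb : ℚ
  K : ℚ
  L : ℚ
  R : ℚ

/-- an instance of the rare bounds, for `ν ≤ nu` and (`bot` or `ν³ ≤ cf h`) -/
structure RaR where
  nu : ℚ
  A0 : ℚ
  A : ℚ
  Q : ℚ
  ε : ℚ
  cf : ℚ
  bot : Bool

/-- a cell: upper end, box, data, levels, numbers of the integration, index of the rare bound,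
index of the bound of the mean normal, kind of the tail -/
structure CellS where
  hb : ℚ
  B : Bx
  D : Dt
  l : List (ℚ × ℚ × ℚ)
  δ : ℚ
  cs : ℚ
  c0 : ℚ
  ri : ℕ
  el : Option ℕ
  ab : Bool

/-- a column: upper end, constants of the cubic term, relative tail, cells -/
structure ColS where
  νb : ℚ
  mac : Bool
  c : ℚ
  cu : ℚ
  rel : ℚ
  cells : List CellS

/-- the parameters: dimension, bound of the mean normal, coefficient of the mean normal, absolute
tail, margin, last defect, relative tails -/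
structure ParS where
  m0 : ℚ
  nuf : ℚ
  g : ℚ
  ab : ℚ
  ε0 : ℚ
  h1 : ℚ
  tls : List (ℚ × ℚ)

/-- the value of the cubic term at the lower end of the column -/
def ColS.psi (p : ParS) (νa : ℚ) (C : ColS) : ℚ :=
  if C.mac then C.c * νa ^ 3 - νa ^ 2 / (3 * p.m0) else 0

/-- the arguments of the check of the constants of the cubic term -/
def macTs : List ℕ :=
  [577, 694, 790, 872, 944, 945, 1010, 1070, 1073, 1126, 1178, 1180, 1227, 1273, 1274, 1317,
    1358, 1362, 1398, 1437, 1440, 1474, 1509, 1510, 1543, 1576, 1580, 1609, 1640, 1642, 1670,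
    1700, 1701, 1728, 1756, 1758, 1784, 1810, 1813, 1836, 1862, 1887, 1911, 1915, 1935, 1959,
    1982, 2005, 2012, 2027, 2049, 2070, 2092, 2112, 2133, 2153, 2173, 2193, 2212, 2230, 2231,
    2250, 2269, 2287, 2305, 2323, 2350, 2459, 2753]

/-- the check of the constants of the cubic term with the argument `T0` -/
def macT (T0 c cu ν2 : ℚ) : Bool :=
  decide (0 < T0) && decide (T0 ≤ 3 / 10) && decide (0 ≤ ν2)
    && decide (ν2 ≤ (1 / 802 + 8 / (2823 * T0) + 8 / 7 + 27 / 5 * T0) * T0 ^ 2) && decide (0 ≤ c)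
    && decide (c * (6 * (1 / 802 + 8 / (2823 * T0) + 8 / 7 + 27 / 5 * T0)) ≤ 1 - 7 / 8 * T0 ^ 2)
    && decide (9 * c * (1 + 8 / 7 * T0) ≤ 1) && decide (2 / 3 * T0 ^ 3 ≤ cu)

/-- the conditions on the constants of the cubic term -/
def ColS.macOK (p : ParS) (νa : ℚ) (C : ColS) : Bool :=
  if C.mac then
    macTs.any (fun k => macT ((k : ℚ) / 10000) C.c C.cu C.νb)
    && decide (2 ≤ 9 * C.c * p.m0 * νa)
  else decide (C.cu = 0)

/-- the margin at `h` in a cell with lower end `ha` -/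
def mrg (p : ParS) (ha h : ℚ) : ℚ := if 1 / 10 ^ 8 ≤ p.ε0 * ha then 1 / 10 ^ 8 else p.ε0 * h

/-- the closing inequality at `h` -/
def clo (p : ParS) (psi gc rel : ℚ) (c : CellS) (f : Option ElR) (ha h : ℚ) : Bool :=
  let t := if c.ab then p.ab else rel * h
  match f with
  | none => decide (gc * p.nuf ^ 2 + t + mrg p ha h ≤ psi + c.c0 * h)
  | some f => decide (gc * (f.K * h + f.R) ^ 2 + (t + mrg p ha h) * f.L ^ 2
      ≤ (psi + c.c0 * h) * f.L ^ 2)

/-- the conditions on the bound of the mean normal -/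
def epOK (p : ParS) (νb ha hb ep : ℚ) (f : Option ElR) : Bool :=
  match f with
  | none => decide (p.nuf ^ 2 ≤ ep * ha)
  | some f => decide (νb ≤ f.nu) && decide (f.ha ≤ ha) && decide (hb ≤ f.hb) && decide (0 < f.L)
      && decide (0 ≤ f.K) && decide (0 ≤ f.R)
      && decide ((f.K * ha + f.R) ^ 2 ≤ ep * f.L ^ 2 * ha)
      && decide ((f.K * hb + f.R) ^ 2 ≤ ep * f.L ^ 2 * hb)

/-- the bound of the mean normal of a cell -/
def CellS.elf (els : List ElR) (c : CellS) : Option (Option ElR) :=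
  match c.el with
  | none => some none
  | some k => match els[k]? with
    | none => none
    | some f => some (some f)

/-- the rare bound of a cell -/
def rareOK (ris : List RaR) (νb ha : ℚ) (c : CellS) : Bool :=
  match ris[c.ri]? with
  | none => false
  | some r => decide (νb ≤ r.nu) && (r.bot || (decide (0 ≤ r.cf) && decide (νb ^ 3 ≤ r.cf * ha))) && decide (c.B.A0 = r.A0)
    && decide (0 ≤ r.ε) && decide (r.ε ≤ c.B.ε) && decide (r.A ≤ c.D.A) && decide (r.Q ≤ c.D.Q)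

/-- the conditions of a cell -/
def CellS.ok (p : ParS) (ris : List RaR) (els : List ElR) (psi gc rel νb ha : ℚ) (c : CellS) :
    Bool :=
  cellOK c.B c.D c.l c.δ c.cs c.c0 && decide (0 ≤ ha) && decide (ha ≤ c.hb)
    && decide (c.B.m0 ≤ p.m0) && decide (νb ≤ c.D.ν) && decide (c.hb ≤ c.D.hb)
    && rareOK ris νb ha c
    && (match c.elf els with
      | none => false
      | some f => epOK p νb ha c.hb c.D.ep f && clo p psi gc rel c f ha ha
        && clo p psi gc rel c f ha c.hb)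

/-- the cells of a column -/
def cellsS (p : ParS) (ris : List RaR) (els : List ElR) (psi gc rel νb : ℚ) :
    ℚ → List CellS → Bool
  | ha, [] => decide (p.h1 < ha)
  | ha, c :: cs => c.ok p ris els psi gc rel νb ha && cellsS p ris els psi gc rel νb c.hb cs

/-- the conditions of a column -/
def ColS.ok (p : ParS) (ris : List RaR) (els : List ElR) (νa : ℚ) (C : ColS) : Bool :=
  C.macOK p νa && decide (0 ≤ νa) && decide (C.νb < 1) && decide (0 ≤ p.g + C.cu)
    && p.tls.any (fun k => decide (C.νb ≤ k.1 * (1 - C.νb)) && decide (k.2 ≤ C.rel))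
    && cellsS p ris els (C.psi p νa) (p.g + C.cu) C.rel C.νb 0 C.cells

/-- the columns from `νa` on -/
def colsS (p : ParS) (ris : List RaR) (els : List ElR) : ℚ → List ColS → Bool
  | _, [] => true
  | νa, C :: Cs => C.ok p ris els νa && colsS p ris els C.νb Cs

/-- the last end of the columns -/
def lastS : ℚ → List ColS → ℚ
  | νa, [] => νa
  | _, C :: Cs => lastS C.νb Cs

section

variable {c m m0 νa ν : ℝ}

/-- monotonicity of the cubic term -/
lemma cubic_mono (hc : 0 ≤ c) (hm0 : 0 < m0) (hm : m0 ≤ m) (ha : 0 ≤ νa) (hν : νa ≤ ν)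
    (h2 : 2 ≤ 9 * c * m0 * νa) : c * νa ^ 3 - νa ^ 2 / (3 * m0) ≤ c * ν ^ 3 - ν ^ 2 / (3 * m) := by
  have h1 : ν ^ 2 / (3 * m) ≤ ν ^ 2 / (3 * m0) :=
    div_le_div_of_nonneg_left (sq_nonneg _) (by positivity) (by linarith)
  have h3 : ν ^ 2 / (3 * m0) - νa ^ 2 / (3 * m0) ≤ c * ν ^ 3 - c * νa ^ 3 := by
    rw [← sub_div, div_le_iff₀ (by positivity)]
    have e1 : (c * ν ^ 3 - c * νa ^ 3) * (3 * m0) - (ν ^ 2 - νa ^ 2)
        = (ν - νa) * (3 * c * m0 * (ν ^ 2 + ν * νa + νa ^ 2) - (ν + νa)) := by ring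
    have h4 : 0 ≤ 3 * c * m0 * (ν ^ 2 + ν * νa + νa ^ 2) - (ν + νa) := by
      have h5 : 3 / 2 * νa * (ν + νa) ≤ ν ^ 2 + ν * νa + νa ^ 2 := by
        nlinarith [mul_nonneg (sub_nonneg.2 hν) (by linarith : 0 ≤ ν + νa / 2)]
      have h6 : 0 ≤ c * m0 := mul_nonneg hc hm0.le
      have h7 := mul_le_mul_of_nonneg_left h5 h6
      have h8 : 0 ≤ ν + νa := by linarith
      have h9 := mul_le_mul_of_nonneg_right h2 h8
      nlinarith
    have h10 := mul_nonneg (sub_nonneg.2 hν) h4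
    linarith
  linarith

/-- a convex quadratic polynomial is nonpositive between two points where it is -/
lemma quad_le {a b c h ha hb : ℝ} (h0 : 0 ≤ a) (h1 : ha ≤ h) (h2 : h ≤ hb)
    (ea : a * ha ^ 2 + b * ha + c ≤ 0) (eb : a * hb ^ 2 + b * hb + c ≤ 0) :
    a * h ^ 2 + b * h + c ≤ 0 := by
  rcases eq_or_lt_of_le (h1.trans h2) with e | e
  · have : h = ha := by linarith
    rw [this]
    exact ea
  · have e1 : (hb - ha) * (a * h ^ 2 + b * h + c) = (hb - h) * (a * ha ^ 2 + b * ha + c)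
        + (h - ha) * (a * hb ^ 2 + b * hb + c) - a * ((hb - ha) * ((h - ha) * (hb - h))) := by ring
    have k1 : (hb - h) * (a * ha ^ 2 + b * ha + c) ≤ 0 :=
      mul_nonpos_of_nonneg_of_nonpos (by linarith) ea
    have k2 : (h - ha) * (a * hb ^ 2 + b * hb + c) ≤ 0 :=
      mul_nonpos_of_nonneg_of_nonpos (by linarith) eb
    have k3 : 0 ≤ a * ((hb - ha) * ((h - ha) * (hb - h))) :=
      mul_nonneg h0 (mul_nonneg (by linarith) (mul_nonneg (by linarith) (by linarith)))
    have k4 : (hb - ha) * (a * h ^ 2 + b * h + c) ≤ (hb - ha) * 0 := by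
      rw [mul_zero, e1]
      linarith
    exact le_of_mul_le_mul_left k4 (by linarith)

/-- the margin is an affine function -/
lemma mrg_aff (p : ParS) (ha : ℚ) : ∃ e0 e1 : ℝ, (∀ h : ℚ, ((mrg p ha h : ℚ) : ℝ) = e1 * h + e0) ∧
    ∀ h gp : ℝ, gp ≤ p.ε0 * h → gp ≤ 1 / 10 ^ 8 → gp ≤ e1 * h + e0 := by
  by_cases hc : (1 : ℚ) / 10 ^ 8 ≤ p.ε0 * ha
  · refine ⟨1 / 10 ^ 8, 0, fun h => ?_, fun h gp _ h2 => by linarith⟩
    rw [mrg, if_pos hc]
    push_cast
    ring
  · refine ⟨0, p.ε0, fun h => ?_, fun h gp h1 _ => by linarith⟩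
    rw [mrg, if_neg hc]
    push_cast
    ring

/-- the scalar contradiction of a cell -/
lemma clo_sound {p : ParS} {psi gc rel : ℚ} {cc : CellS} {f : Option ElR} {ha hb : ℚ}
    {h u t gp : ℝ}
    (hgc : 0 ≤ gc) (h1 : (ha : ℝ) ≤ h) (h2 : h ≤ hb) (ka : clo p psi gc rel cc f ha ha = true)
    (kb : clo p psi gc rel cc f ha hb = true) (hu : u ≤ (p.nuf : ℝ) ^ 2)
    (hf : ∀ g, f = some g → 0 < (g.L : ℝ) ∧ u * (g.L : ℝ) ^ 2 ≤ (g.K * h + g.R) ^ 2)
    (ht : t ≤ if cc.ab then (p.ab : ℝ) else rel * h) (hg1 : gp ≤ p.ε0 * h)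
    (hg2 : gp ≤ 1 / 10 ^ 8) :
    gc * u + t + gp ≤ psi + cc.c0 * h := by
  have hgcR : (0 : ℝ) ≤ gc := by exact_mod_cast hgc
  obtain ⟨e0, e1, he, hge⟩ := mrg_aff p ha
  have hge' := hge h gp hg1 hg2
  cases f with
  | none =>
    simp only [clo, decide_eq_true_eq] at ka kb
    have g1 := mul_le_mul_of_nonneg_left hu hgcR
    by_cases hb1 : cc.ab = true
    · simp only [hb1, if_true] at ka kb ht
      have ka' : (gc : ℝ) * p.nuf ^ 2 + p.ab + ((mrg p ha ha : ℚ) : ℝ) ≤ psi + cc.c0 * ha := by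
        exact_mod_cast ka
      have kb' : (gc : ℝ) * p.nuf ^ 2 + p.ab + ((mrg p ha hb : ℚ) : ℝ) ≤ psi + cc.c0 * hb := by
        exact_mod_cast kb
      rw [he] at ka' kb'
      have q := quad_le (a := 0) (b := e1 - cc.c0) (c := gc * p.nuf ^ 2 + p.ab + e0 - psi) le_rfl
        h1 h2 (by linarith) (by linarith)
      linarith
    · have hb2 : cc.ab = false := by simpa using hb1
      simp only [hb2] at ka kb ht
      have ka' : (gc : ℝ) * p.nuf ^ 2 + rel * ha + ((mrg p ha ha : ℚ) : ℝ)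
          ≤ psi + cc.c0 * ha := by exact_mod_cast ka
      have kb' : (gc : ℝ) * p.nuf ^ 2 + rel * hb + ((mrg p ha hb : ℚ) : ℝ)
          ≤ psi + cc.c0 * hb := by exact_mod_cast kb
      rw [he] at ka' kb'
      have q := quad_le (a := 0) (b := rel + e1 - cc.c0) (c := gc * p.nuf ^ 2 + e0 - psi) le_rfl
        h1 h2 (by linarith) (by linarith)
      simp only [Bool.false_eq_true, if_false] at ht
      linarith
  | some g =>
    simp only [clo, decide_eq_true_eq] at ka kb
    obtain ⟨hL, hg⟩ := hf g rfl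
    have hL2 : 0 < (g.L : ℝ) ^ 2 := by positivity
    have g1 := mul_le_mul_of_nonneg_left hg hgcR
    have key : (gc * u + t + gp) * (g.L : ℝ) ^ 2 ≤ (psi + cc.c0 * h) * (g.L : ℝ) ^ 2 := by
      by_cases hb1 : cc.ab = true
      · simp only [hb1, if_true] at ka kb ht
        have ka' : (gc : ℝ) * (g.K * ha + g.R) ^ 2
          + (p.ab + ((mrg p ha ha : ℚ) : ℝ)) * (g.L : ℝ) ^ 2
          ≤ (psi + cc.c0 * ha) * (g.L : ℝ) ^ 2 := by exact_mod_cast ka
        have kb' : (gc : ℝ) * (g.K * hb + g.R) ^ 2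
          + (p.ab + ((mrg p ha hb : ℚ) : ℝ)) * (g.L : ℝ) ^ 2
          ≤ (psi + cc.c0 * hb) * (g.L : ℝ) ^ 2 := by exact_mod_cast kb
        rw [he] at ka' kb'
        have q := quad_le (a := gc * (g.K : ℝ) ^ 2)
          (b := gc * (2 * g.K * g.R) + (e1 - cc.c0) * (g.L : ℝ) ^ 2)
          (c := gc * (g.R : ℝ) ^ 2 + (p.ab + e0 - psi) * (g.L : ℝ) ^ 2) (by positivity) h1 h2
          (by linarith) (by linarith)
        have g2 := mul_le_mul_of_nonneg_right (add_le_add ht hge') hL2.le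
        linarith
      · have hb2 : cc.ab = false := by simpa using hb1
        simp only [hb2] at ka kb ht
        have ka' : (gc : ℝ) * (g.K * ha + g.R) ^ 2
          + (rel * ha + ((mrg p ha ha : ℚ) : ℝ)) * (g.L : ℝ) ^ 2
          ≤ (psi + cc.c0 * ha) * (g.L : ℝ) ^ 2 := by exact_mod_cast ka
        have kb' : (gc : ℝ) * (g.K * hb + g.R) ^ 2
          + (rel * hb + ((mrg p ha hb : ℚ) : ℝ)) * (g.L : ℝ) ^ 2
          ≤ (psi + cc.c0 * hb) * (g.L : ℝ) ^ 2 := by exact_mod_cast kb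
        rw [he] at ka' kb'
        have q := quad_le (a := gc * (g.K : ℝ) ^ 2)
          (b := gc * (2 * g.K * g.R) + (rel + e1 - cc.c0) * (g.L : ℝ) ^ 2)
          (c := gc * (g.R : ℝ) ^ 2 + (e0 - psi) * (g.L : ℝ) ^ 2) (by positivity) h1 h2
          (by linarith) (by linarith)
        simp only [Bool.false_eq_true, if_false] at ht
        have g2 := mul_le_mul_of_nonneg_right (add_le_add ht hge') hL2.le
        linarith
    exact le_of_mul_le_mul_right key hL2

end

end Vale.Agent.P224.R2.H460
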