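import Vale.Agent.P224.R2.H460.Cl2

/-!
Soundness of the checker of the closing inequalities.
-/

namespace Vale.Agent.P224.R2.H460

open MeasureTheory Set Filter Function Real Module Vale.Agent.P224 Vale.Agent.P224.FV
open Vale.Agent.P224.SM2 Vale.Agent.P224.R2.H820 Vale.Agent.P224.R2.H728
open Vale.Agent.P224.R2.H627 Vale.Agent.P224.R2.H582 Vale.Agent.P224.R2.H470
open Vale.Agent.P224.R2.H925 (Fra)
open Vale.Agent.P224.R2.H484 (AbsTail)
open Vale.Agent.P224.R2.H662 (Dt ad qd dop dop_symm bxData_of hh_norm cob jj_bounds)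
open scoped Topology RealInnerProductSpace ContDiff Manifold

set_option linter.unusedSectionVars false

/-- the check of the constants of the cubic term is sound -/
lemma macX_of {T0 c cu ν2 : ℚ} (h : macT T0 c cu ν2 = true) : MacX (c : ℝ) (cu : ℝ) (ν2 : ℝ) := by
  simp only [macT, Bool.and_eq_true, decide_eq_true_eq] at h
  obtain ⟨⟨⟨⟨⟨⟨⟨h1, h2⟩, h3⟩, h4⟩, h5⟩, h6⟩, h7⟩, h8⟩ := h
  refine ⟨(T0 : ℝ), ?_, ?_, ?_, ?_, ?_, ?_, ?_, ?_⟩
  · exact_mod_cast h1
  · have h' : ((T0 : ℚ) : ℝ) ≤ ((3 / 10 : ℚ) : ℝ) := by exact_mod_cast h2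
    push_cast at h'
    exact h'
  · exact_mod_cast h3
  · have h' : ((ν2 : ℚ) : ℝ)
        ≤ (((1 / 802 + 8 / (2823 * T0) + 8 / 7 + 27 / 5 * T0) * T0 ^ 2 : ℚ) : ℝ) := by
      exact_mod_cast h4
    push_cast at h'
    exact h'
  · exact_mod_cast h5
  · have h' : ((c * (6 * (1 / 802 + 8 / (2823 * T0) + 8 / 7 + 27 / 5 * T0)) : ℚ) : ℝ)
        ≤ ((1 - 7 / 8 * T0 ^ 2 : ℚ) : ℝ) := by
      exact_mod_cast h6
    push_cast at h'
    exact h'
  · have h' : ((9 * c * (1 + 8 / 7 * T0) : ℚ) : ℝ) ≤ ((1 : ℚ) : ℝ) := by exact_mod_cast h7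
    push_cast at h'
    exact h'
  · have h' : ((2 / 3 * T0 ^ 3 : ℚ) : ℝ) ≤ ((cu : ℚ) : ℝ) := by exact_mod_cast h8
    push_cast at h'
    exact h'

section

variable {V W M : Type*} [NormedAddCommGroup V] [InnerProductSpace ℝ V] [FiniteDimensional ℝ V]
  [NormedAddCommGroup W] [InnerProductSpace ℝ W] [FiniteDimensional ℝ W]
  [TopologicalSpace M] [ChartedSpace V M]
  [MeasurableSpace V] [BorelSpace V] [MeasurableSpace M] [BorelSpace M]
  [MeasurableSpace W] [BorelSpace W] [IsManifold 𝓘(ℝ, V) ∞ M]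
  [CompactSpace M] [T2Space M]

/-- the three rare bounds -/
def Tri (V : Type*) [NormedAddCommGroup V] [InnerProductSpace ℝ V]
    [FiniteDimensional ℝ V] [MeasurableSpace V] [BorelSpace V]
    {W M : Type*} [NormedAddCommGroup W] [InnerProductSpace ℝ W] [FiniteDimensional ℝ W]
    [MeasurableSpace W] [BorelSpace W] [TopologicalSpace M] [ChartedSpace V M]
    [MeasurableSpace M] [BorelSpace M] (F N : M → W)
    {ι : Type*} [Fintype ι] [DecidableEq ι] (b : OrthonormalBasis ι ℝ W) (j : ι → ℝ)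
    (A0 ε A Q : ℝ) : Prop :=
  ∫ x, max (ad b j F N x - A0) 0 ^ 2 ∂(nrm (volM V F))
      ≤ (ε * hh (nrm (volM V F)) (Matrix.diagonal j) (co b F) (co b N)) ^ 2
    ∧ ∫ x, ad b j F N x ^ 2 ∂(nrm (volM V F))
      ≤ A * hh (nrm (volM V F)) (Matrix.diagonal j) (co b F) (co b N)
    ∧ ∫ x, qd b j F x * ad b j F N x ∂(nrm (volM V F))
      ≤ Q * hh (nrm (volM V F)) (Matrix.diagonal j) (co b F) (co b N)

/-- **Soundness of a cell**. -/
theorem cellS_sound [Nonempty M] (hm : 400 ≤ finrank ℝ V) (hW : finrank ℝ W = finrank ℝ V + 2)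
    {F : M → W} (hF : SphImm V F) (hmin : ∀ x n, IsUnitNormal V F x n → meanCurv V F x n = 0)
    {N : M → W} (hNs : ContMDiff 𝓘(ℝ, V) 𝓘(ℝ, W) ∞ N) (hN : ∀ x, IsUnitNormal V F x (N x))
    (hinj : Injective F) {ι : Type*} [Fintype ι] [DecidableEq ι] (b : OrthonormalBasis ι ℝ W)
    (j : ι → ℝ) {m : ℕ} (hmm : m = finrank ℝ V)
    (hL : LSq (nrm (volM V F)) (Matrix.diagonal j) (co b F) (co b N))
    {lam : ℝ → ℝ} {T1 : ℝ} (hfr : Fra m lam (beR m) T1)
    (hlam : ∀ T ∈ Ioo (0 : ℝ) (2 / 25), (1 - T ^ 2) * lam T ≤ 193 / 10)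
    {p : ParS} {ris : List RaR} {els : List ElR} {psi g cu rel νb ha : ℚ} {c : CellS}
    (hok : c.ok p ris els psi (g + cu) rel νb ha = true) (hg0 : 0 ≤ g + cu)
    (hm0 : (p.m0 : ℝ) ≤ m) (hg : m * rM m 0 ≤ g)
    {ν : ℝ} (hν : ∀ a, m2 (nrm (volM V F)) (co b N) (co b N) a a ≤ ν) (hν0 : 0 ≤ ν)
    (h2 : ν ≤ νb)
    (hu : uu (nrm (volM V F)) (co b N) ≤ (p.nuf : ℝ) ^ 2)
    (hR : ∀ r ∈ ris, ν ≤ r.nu → (r.bot = true ∨
      ν ^ 3 ≤ r.cf * hh (nrm (volM V F)) (Matrix.diagonal j) (co b F) (co b N)) →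
      Tri V F N b j r.A0 r.ε r.A r.Q)
    (hE : ∀ f ∈ els, ν ≤ f.nu →
      f.ha ≤ hh (nrm (volM V F)) (Matrix.diagonal j) (co b F) (co b N) →
      hh (nrm (volM V F)) (Matrix.diagonal j) (co b F) (co b N) ≤ f.hb →
      f.L * √(uu (nrm (volM V F)) (co b N))
        ≤ f.K * hh (nrm (volM V F)) (Matrix.diagonal j) (co b F) (co b N) + f.R)
    (habs : AbsTail (volM V F) m F N (fun T => (1 - T ^ 2) * lam T) p.ab)
    (hrel : AbsTail (volM V F) m F N (fun T => (1 - T ^ 2) * lam T)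
      (rel * hh (nrm (volM V F)) (Matrix.diagonal j) (co b F) (co b N)))
    {β : ℝ} (hM : MacF V F N m β) (hβ : psi - cu * uu (nrm (volM V F)) (co b N) ≤ β)
    {gp : ℝ}
    (hgp : gp ≤ p.ε0 * hh (nrm (volM V F)) (Matrix.diagonal j) (co b F) (co b N))
    (hgp2 : gp ≤ 1 / 10 ^ 8)
    (hh0 : 0 < hh (nrm (volM V F)) (Matrix.diagonal j) (co b F) (co b N))
    (hha : ha ≤ hh (nrm (volM V F)) (Matrix.diagonal j) (co b F) (co b N))
    (hhb : hh (nrm (volM V F)) (Matrix.diagonal j) (co b F) (co b N) ≤ c.hb) :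
    2 * lamM m * (sphereVol m / (volM V F).real univ) + gp ≤ 1 := by
  set h := hh (nrm (volM V F)) (Matrix.diagonal j) (co b F) (co b N) with hdef
  set u := uu (nrm (volM V F)) (co b N) with hud
  have hu0 : 0 ≤ u := Finset.sum_nonneg fun i _ => sq_nonneg _
  have hsq : √u ^ 2 = u := Real.sq_sqrt hu0
  simp only [CellS.ok, Bool.and_eq_true, decide_eq_true_eq] at hok
  obtain ⟨⟨⟨⟨⟨⟨⟨o1, o2⟩, o3⟩, o4⟩, o5⟩, o6⟩, o7⟩, o8⟩ := hok
  have o2R : (0 : ℝ) ≤ ha := by exact_mod_cast o2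
  have o4R : (c.B.m0 : ℝ) ≤ p.m0 := by exact_mod_cast o4
  have o5R : (νb : ℝ) ≤ c.D.ν := by exact_mod_cast o5
  have o6R : (c.hb : ℝ) ≤ c.D.hb := by exact_mod_cast o6
  -- the rare bounds
  have htri : Tri V F N b j c.B.A0 c.B.ε c.D.A c.D.Q := by
    unfold rareOK at o7
    cases hr : ris[c.ri]? with
    | none => simp [hr] at o7
    | some r =>
      simp only [hr, Bool.and_eq_true, Bool.or_eq_true, decide_eq_true_eq] at o7
      obtain ⟨⟨⟨⟨⟨⟨r1, r2⟩, r3⟩, r4⟩, r5⟩, r6⟩, r7⟩ := o7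
      have hmem : r ∈ ris := List.mem_of_getElem? hr
      have r1R : (νb : ℝ) ≤ r.nu := by exact_mod_cast r1
      have r4R : (0 : ℝ) ≤ r.ε := by exact_mod_cast r4
      have r5R : (r.ε : ℝ) ≤ c.B.ε := by exact_mod_cast r5
      have r6R : (r.A : ℝ) ≤ c.D.A := by exact_mod_cast r6
      have r7R : (r.Q : ℝ) ≤ c.D.Q := by exact_mod_cast r7
      have hpre : r.bot = true ∨ ν ^ 3 ≤ r.cf * h := by
        rcases r2 with r2 | r2
        · exact Or.inl r2
        · right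
          have r2R : (νb : ℝ) ^ 3 ≤ r.cf * ha := by exact_mod_cast r2.2
          have r0R : (0 : ℝ) ≤ r.cf := by exact_mod_cast r2.1
          have h3 : ν ^ 3 ≤ (νb : ℝ) ^ 3 := pow_le_pow_left₀ hν0 h2 3
          exact (h3.trans r2R).trans (mul_le_mul_of_nonneg_left hha r0R)
      obtain ⟨t1, t2, t3⟩ := hR r hmem (h2.trans r1R) hpre
      rw [r3]
      refine ⟨t1.trans ?_, t2.trans ?_, t3.trans ?_⟩
      · exact pow_le_pow_left₀ (mul_nonneg r4R hh0.le) (mul_le_mul_of_nonneg_right r5R hh0.le) 2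
      · exact mul_le_mul_of_nonneg_right r6R hh0.le
      · exact mul_le_mul_of_nonneg_right r7R hh0.le
  -- the mean normal
  cases hf : c.elf els with
  | none => simp [hf] at o8
  | some f =>
    simp only [hf, Bool.and_eq_true] at o8
    obtain ⟨⟨q1, q2⟩, q3⟩ := o8
    have hmem : ∀ g, f = some g → g ∈ els := by
      intro g hg'
      subst hg'
      unfold CellS.elf at hf
      cases he : c.el with
      | none => simp [he] at hf
      | some k =>
        simp only [he] at hf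
        cases hk : els[k]? with
        | none => simp [hk] at hf
        | some g' =>
          simp only [hk, Option.some.injEq] at hf
          subst hf
          exact List.mem_of_getElem? hk
    have hboth : u ≤ c.D.ep * h ∧ ∀ g, f = some g → 0 < (g.L : ℝ) ∧
        u * (g.L : ℝ) ^ 2 ≤ (g.K * h + g.R) ^ 2 := by
      cases f with
      | none =>
        refine ⟨?_, fun g hg' => by simp at hg'⟩
        simp only [epOK, decide_eq_true_eq] at q1
        have q1R : (p.nuf : ℝ) ^ 2 ≤ c.D.ep * ha := by exact_mod_cast q1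
        have hep : (0 : ℝ) ≤ c.D.ep := by
          have := (Dt.ok_real (by
            simp only [cellOK, Bool.and_eq_true] at o1
            exact o1.1.2) : c.D.Ok c.B)
          exact this.ep
        exact (hu.trans q1R).trans (mul_le_mul_of_nonneg_left hha hep)
      | some g =>
        simp only [epOK, Bool.and_eq_true, decide_eq_true_eq] at q1
        obtain ⟨⟨⟨⟨⟨⟨⟨s1, s2⟩, s3⟩, s4⟩, s5⟩, s6⟩, s7⟩, s8⟩ := q1
        have s1R : (νb : ℝ) ≤ g.nu := by exact_mod_cast s1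
        have s2R : (g.ha : ℝ) ≤ ha := by exact_mod_cast s2
        have s3R : (c.hb : ℝ) ≤ g.hb := by exact_mod_cast s3
        have s4R : (0 : ℝ) < g.L := by exact_mod_cast s4
        have s5R : (0 : ℝ) ≤ g.K := by exact_mod_cast s5
        have s6R : (0 : ℝ) ≤ g.R := by exact_mod_cast s6
        have s7R : ((g.K : ℝ) * ha + g.R) ^ 2 ≤ c.D.ep * g.L ^ 2 * ha := by exact_mod_cast s7
        have s8R : ((g.K : ℝ) * c.hb + g.R) ^ 2 ≤ c.D.ep * g.L ^ 2 * c.hb := by exact_mod_cast s8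
        have hel := hE g (hmem g rfl) (h2.trans s1R) (s2R.trans hha) (hhb.trans s3R)
        have hsu : 0 ≤ √u := Real.sqrt_nonneg u
        have e1 : u * (g.L : ℝ) ^ 2 ≤ (g.K * h + g.R) ^ 2 := by
          have e2 : (g.L * √u) ^ 2 ≤ (g.K * h + g.R) ^ 2 :=
            pow_le_pow_left₀ (mul_nonneg s4R.le hsu) hel 2
          have e3 : ((g.L : ℝ) * √u) ^ 2 = u * (g.L : ℝ) ^ 2 := by
            rw [mul_pow, hsq]
            ring
          rw [← e3]
          exact e2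
        refine ⟨?_, fun g' hg' => ?_⟩
        · have e4 := quad_le (a := (g.K : ℝ) ^ 2) (b := 2 * g.K * g.R - c.D.ep * g.L ^ 2)
            (c := (g.R : ℝ) ^ 2) (sq_nonneg _) hha hhb (by linarith) (by linarith)
          have e5 : u * (g.L : ℝ) ^ 2 ≤ c.D.ep * h * (g.L : ℝ) ^ 2 := by
            refine e1.trans ?_
            linarith
          exact le_of_mul_le_mul_right e5 (by positivity)
        · simp only [Option.some.injEq] at hg'
          subst hg'
          exact ⟨s4R, e1⟩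
    obtain ⟨hep, hfu⟩ := hboth
    -- the tail
    have htail : ∃ t, AbsTail (volM V F) m F N (fun T => (1 - T ^ 2) * lam T) t ∧
        t ≤ if c.ab then (p.ab : ℝ) else rel * h := by
      by_cases hb1 : c.ab = true
      · exact ⟨p.ab, habs, by simp [hb1]⟩
      · exact ⟨rel * h, hrel, by simp [hb1]⟩
    obtain ⟨t, ht, ht2⟩ := htail
    have key := law_cell hm hW hF hmin hNs hN hinj b j hmm hL hfr hlam o1 (o4R.trans hm0)
      (fun a => (hν a).trans (h2.trans o5R)) hh0 (hhb.trans o6R) hep htri hM ht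
    rw [← hdef, ← hud] at key
    have hcl := clo_sound (t := t) hg0 hha hhb q2 q3 hu hfu ht2 hgp hgp2
    push_cast at hcl
    have k1 : (m : ℝ) * rM m 0 * u ≤ g * u := mul_le_mul_of_nonneg_right hg hu0
    linarith

/-- soundness of the cells of a column -/
theorem cellsS_sound [Nonempty M] (hm : 400 ≤ finrank ℝ V) (hW : finrank ℝ W = finrank ℝ V + 2)
    {F : M → W} (hF : SphImm V F) (hmin : ∀ x n, IsUnitNormal V F x n → meanCurv V F x n = 0)
    {N : M → W} (hNs : ContMDiff 𝓘(ℝ, V) 𝓘(ℝ, W) ∞ N) (hN : ∀ x, IsUnitNormal V F x (N x))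
    (hinj : Injective F) {ι : Type*} [Fintype ι] [DecidableEq ι] (b : OrthonormalBasis ι ℝ W)
    (j : ι → ℝ) {m : ℕ} (hmm : m = finrank ℝ V)
    (hL : LSq (nrm (volM V F)) (Matrix.diagonal j) (co b F) (co b N))
    {lam : ℝ → ℝ} {T1 : ℝ} (hfr : Fra m lam (beR m) T1)
    (hlam : ∀ T ∈ Ioo (0 : ℝ) (2 / 25), (1 - T ^ 2) * lam T ≤ 193 / 10)
    {p : ParS} {ris : List RaR} {els : List ElR} {psi g cu rel νb : ℚ} (hg0 : 0 ≤ g + cu)
    (hm0 : (p.m0 : ℝ) ≤ m) (hg : m * rM m 0 ≤ g)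
    {ν : ℝ} (hν : ∀ a, m2 (nrm (volM V F)) (co b N) (co b N) a a ≤ ν) (hν0 : 0 ≤ ν)
    (h2 : ν ≤ νb)
    (hu : uu (nrm (volM V F)) (co b N) ≤ (p.nuf : ℝ) ^ 2)
    (hR : ∀ r ∈ ris, ν ≤ r.nu → (r.bot = true ∨
      ν ^ 3 ≤ r.cf * hh (nrm (volM V F)) (Matrix.diagonal j) (co b F) (co b N)) →
      Tri V F N b j r.A0 r.ε r.A r.Q)
    (hE : ∀ f ∈ els, ν ≤ f.nu →
      f.ha ≤ hh (nrm (volM V F)) (Matrix.diagonal j) (co b F) (co b N) →
      hh (nrm (volM V F)) (Matrix.diagonal j) (co b F) (co b N) ≤ f.hb →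
      f.L * √(uu (nrm (volM V F)) (co b N))
        ≤ f.K * hh (nrm (volM V F)) (Matrix.diagonal j) (co b F) (co b N) + f.R)
    (habs : AbsTail (volM V F) m F N (fun T => (1 - T ^ 2) * lam T) p.ab)
    (hrel : AbsTail (volM V F) m F N (fun T => (1 - T ^ 2) * lam T)
      (rel * hh (nrm (volM V F)) (Matrix.diagonal j) (co b F) (co b N)))
    {β : ℝ} (hM : MacF V F N m β) (hβ : psi - cu * uu (nrm (volM V F)) (co b N) ≤ β)
    {gp : ℝ}
    (hgp : gp ≤ p.ε0 * hh (nrm (volM V F)) (Matrix.diagonal j) (co b F) (co b N))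
    (hgp2 : gp ≤ 1 / 10 ^ 8)
    (hh0 : 0 < hh (nrm (volM V F)) (Matrix.diagonal j) (co b F) (co b N))
    (hh1 : hh (nrm (volM V F)) (Matrix.diagonal j) (co b F) (co b N) ≤ p.h1) :
    ∀ (l : List CellS) (ha : ℚ), cellsS p ris els psi (g + cu) rel νb ha l = true →
      ha ≤ hh (nrm (volM V F)) (Matrix.diagonal j) (co b F) (co b N) →
      2 * lamM m * (sphereVol m / (volM V F).real univ) + gp ≤ 1 := by
  intro l
  induction l with
  | nil =>
    intro ha hok hha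
    simp only [cellsS, decide_eq_true_eq] at hok
    have : (p.h1 : ℝ) < ha := by exact_mod_cast hok
    linarith
  | cons c l ih =>
    intro ha hok hha
    simp only [cellsS, Bool.and_eq_true] at hok
    rcases le_total (hh (nrm (volM V F)) (Matrix.diagonal j) (co b F) (co b N)) (c.hb : ℝ)
      with h | h
    · exact cellS_sound hm hW hF hmin hNs hN hinj b j hmm hL hfr hlam hok.1 hg0 hm0 hg hν hν0 h2
        hu hR hE habs hrel hM hβ hgp hgp2 hh0 hha h
    · exact ih c.hb hok.2 h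

/-- **Soundness of a column.** -/
theorem colS_sound [Nonempty M] (hm : 400 ≤ finrank ℝ V) (hW : finrank ℝ W = finrank ℝ V + 2)
    {F : M → W} (hF : SphImm V F) (hmin : ∀ x n, IsUnitNormal V F x n → meanCurv V F x n = 0)
    {N : M → W} (hNs : ContMDiff 𝓘(ℝ, V) 𝓘(ℝ, W) ∞ N) (hN : ∀ x, IsUnitNormal V F x (N x))
    (hinj : Injective F) {ι : Type*} [Fintype ι] [DecidableEq ι] (b : OrthonormalBasis ι ℝ W)
    (j : ι → ℝ) {m : ℕ} (hmm : m = finrank ℝ V)
    (hL : LSq (nrm (volM V F)) (Matrix.diagonal j) (co b F) (co b N))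
    {lam : ℝ → ℝ} {T1 : ℝ} (hfr : Fra m lam (beR m) T1)
    (hlam : ∀ T ∈ Ioo (0 : ℝ) (2 / 25), (1 - T ^ 2) * lam T ≤ 193 / 10)
    {p : ParS} {ris : List RaR} {els : List ElR} {νa : ℚ} {C : ColS}
    (hok : C.ok p ris els νa = true) (hm00 : 0 < p.m0)
    (hm0 : (p.m0 : ℝ) ≤ m) (hg : m * rM m 0 ≤ p.g)
    {a0 : ι} (hν : ∀ a, m2 (nrm (volM V F)) (co b N) (co b N) a a
      ≤ m2 (nrm (volM V F)) (co b N) (co b N) a0 a0)
    (h1 : νa ≤ m2 (nrm (volM V F)) (co b N) (co b N) a0 a0)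
    (h2 : m2 (nrm (volM V F)) (co b N) (co b N) a0 a0 ≤ C.νb)
    (hu : uu (nrm (volM V F)) (co b N) ≤ (p.nuf : ℝ) ^ 2)
    (hR : ∀ r ∈ ris, m2 (nrm (volM V F)) (co b N) (co b N) a0 a0 ≤ r.nu → (r.bot = true ∨
      m2 (nrm (volM V F)) (co b N) (co b N) a0 a0 ^ 3
        ≤ r.cf * hh (nrm (volM V F)) (Matrix.diagonal j) (co b F) (co b N)) →
      Tri V F N b j r.A0 r.ε r.A r.Q)
    (hE : ∀ f ∈ els, m2 (nrm (volM V F)) (co b N) (co b N) a0 a0 ≤ f.nu →
      f.ha ≤ hh (nrm (volM V F)) (Matrix.diagonal j) (co b F) (co b N) →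
      hh (nrm (volM V F)) (Matrix.diagonal j) (co b F) (co b N) ≤ f.hb →
      f.L * √(uu (nrm (volM V F)) (co b N))
        ≤ f.K * hh (nrm (volM V F)) (Matrix.diagonal j) (co b F) (co b N) + f.R)
    (habs : AbsTail (volM V F) m F N (fun T => (1 - T ^ 2) * lam T) p.ab)
    (htl : ∀ k ∈ p.tls, (∀ a, j a ^ 2 ≤ (k.1 : ℝ) * (m + 1)) →
      AbsTail (volM V F) m F N (fun T => (1 - T ^ 2) * lam T)
        (k.2 * hh (nrm (volM V F)) (Matrix.diagonal j) (co b F) (co b N)))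
    {gp : ℝ}
    (hgp : gp ≤ p.ε0 * hh (nrm (volM V F)) (Matrix.diagonal j) (co b F) (co b N))
    (hgp2 : gp ≤ 1 / 10 ^ 8)
    (hh0 : 0 < hh (nrm (volM V F)) (Matrix.diagonal j) (co b F) (co b N))
    (hh1 : hh (nrm (volM V F)) (Matrix.diagonal j) (co b F) (co b N) ≤ p.h1) :
    2 * lamM m * (sphereVol m / (volM V F).real univ) + gp ≤ 1 := by
  have hm1 : 1 ≤ finrank ℝ V := by omega
  have hT0 : T0Data (nrm (volM V F)) m (co b F) (co b N) := by
    rw [hmm]
    exact t0Data_of_min hm1 hW hF hmin hNs hN b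
  set ν := m2 (nrm (volM V F)) (co b N) (co b N) a0 a0 with hνd
  have hν0 : 0 ≤ ν := by
    rw [hνd]
    unfold m2
    exact integral_nonneg fun x => mul_self_nonneg _
  simp only [ColS.ok, Bool.and_eq_true, decide_eq_true_eq, List.any_eq_true] at hok
  obtain ⟨⟨⟨⟨⟨c1, c2⟩, c3⟩, c4⟩, ⟨k, hk, c5, c6⟩⟩, c7⟩ := hok
  have c2R : (0 : ℝ) ≤ νa := by exact_mod_cast c2
  have c3R : (C.νb : ℝ) < 1 := by exact_mod_cast c3
  have c5R : (C.νb : ℝ) ≤ k.1 * (1 - C.νb) := by exact_mod_cast c5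
  have c6R : (k.2 : ℝ) ≤ C.rel := by exact_mod_cast c6
  have hm00R : (0 : ℝ) < p.m0 := by exact_mod_cast hm00
  have hmR : (0 : ℝ) < m := hm00R.trans_le hm0
  have hν1 : ν < 1 := h2.trans_lt c3R
  obtain ⟨hj, -⟩ := jj_bounds b hT0 hL hν1 hν
  have h1ν : 0 < 1 - ν := by linarith
  have hkj : ∀ a, j a ^ 2 ≤ (k.1 : ℝ) * (m + 1) := by
    intro a
    refine (hj a).trans (mul_le_mul_of_nonneg_right ?_ (by positivity))
    rw [div_le_iff₀ h1ν]
    have h3 : 0 < 1 - (C.νb : ℝ) := by linarith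
    have hk0 : 0 ≤ (k.1 : ℝ) := by
      by_contra hc
      push Not at hc
      have := mul_neg_of_neg_of_pos hc h3
      linarith
    have := mul_le_mul_of_nonneg_left (show 1 - (C.νb : ℝ) ≤ 1 - ν by linarith) hk0
    linarith
  have hrel0 := htl k hk hkj
  have hrel : AbsTail (volM V F) m F N (fun T => (1 - T ^ 2) * lam T)
      (C.rel * hh (nrm (volM V F)) (Matrix.diagonal j) (co b F) (co b N)) := by
    obtain ⟨τ, t1, t2, t3⟩ := hrel0
    exact ⟨τ, t1, t2, t3.trans (mul_le_mul_of_nonneg_right c6R hh0.le)⟩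
  have hu0 : 0 ≤ uu (nrm (volM V F)) (co b N) := Finset.sum_nonneg fun i _ => sq_nonneg _
  -- the cubic term
  have hmac : ∃ β : ℝ, MacF V F N m β ∧
      (C.psi p νa : ℝ) - C.cu * uu (nrm (volM V F)) (co b N) ≤ β := by
    by_cases hmc : C.mac = true
    · simp only [ColS.macOK, hmc, if_true, Bool.and_eq_true, decide_eq_true_eq] at c1
      obtain ⟨c1, c8⟩ := c1
      have c8R : (2 : ℝ) ≤ 9 * C.c * p.m0 * νa := by exact_mod_cast c8
      rw [List.any_eq_true] at c1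
      obtain ⟨T0, -, c1⟩ := c1
      have hX := macX_of c1
      have hc0 : (0 : ℝ) ≤ C.c := by
        obtain ⟨T0, -, -, -, -, h, -⟩ := hX
        exact h
      refine ⟨_, macF_X hm hW hF hmin hNs hN b a0 hmm hX h2, ?_⟩
      have k1 := cubic_mono hc0 hm00R hm0 c2R h1 c8R
      have e1 : (C.psi p νa : ℝ) = C.c * (νa : ℝ) ^ 3 - (νa : ℝ) ^ 2 / (3 * p.m0) := by
        simp only [ColS.psi, hmc, if_true]
        push_cast
        rfl
      rw [e1, ← hνd]
      linarith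
    · have hmc' : C.mac = false := by simpa using hmc
      simp only [ColS.macOK, hmc', Bool.false_eq_true, if_false, decide_eq_true_eq] at c1
      refine ⟨0, macF_zero (by omega) hW hF hmin hNs hN hmm, ?_⟩
      have e1 : (C.psi p νa : ℝ) = 0 := by
        simp only [ColS.psi, hmc', Bool.false_eq_true, if_false]
        push_cast
        rfl
      rw [e1, c1]
      push_cast
      linarith
  obtain ⟨β, hM, hβ⟩ := hmac
  exact cellsS_sound hm hW hF hmin hNs hN hinj b j hmm hL hfr hlam c4 hm0 hg hν hν0 h2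
    hu hR hE habs hrel hM hβ hgp hgp2 hh0 hh1 C.cells 0 c7 (by push_cast; exact hh0.le)

end

end Vale.Agent.P224.R2.H460
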