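import Vale.Agent.P224.R2.H460.Sb
import Vale.Agent.P224.R2.H869.Cv

/-!
The density of the pair measure at level T.
-/

namespace Vale.Agent.P224.R2.H460

open MeasureTheory Module Function Set Vale.Agent.P224.R2.H470 Vale.Agent.P224.SM2
open scoped RealInnerProductSpace Topology ContDiff

set_option linter.unusedSectionVars false

/-- the power `(1 - T²)^(m/2)` -/
noncomputable def cw (m : ℕ) (T : ℝ) : ℝ := (1 - T ^ 2) ^ ((m : ℝ) / 2)

lemma one_sub_sq_pos {T : ℝ} (h0 : 0 ≤ T) (h1 : T < 1) : 0 < 1 - T ^ 2 := by nlinarith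

lemma cw_pos {m : ℕ} {T : ℝ} (h0 : 0 ≤ T) (h1 : T < 1) : 0 < cw m T :=
  Real.rpow_pos_of_pos (one_sub_sq_pos h0 h1) _

lemma cw_zero (m : ℕ) : cw m 0 = 1 := by
  unfold cw
  norm_num

lemma hasDerivAt_cw {m : ℕ} {T : ℝ} (h0 : 0 ≤ T) (h1 : T < 1) :
    HasDerivAt (cw m) (-(m * T / (1 - T ^ 2)) * cw m T) T := by
  have hk := one_sub_sq_pos h0 h1
  have h2 : HasDerivAt (fun T : ℝ => 1 - T ^ 2) (-(2 * T)) T := by
    simpa using ((hasDerivAt_id T).pow 2).const_sub 1
  have h3 := h2.rpow_const (p := (m : ℝ) / 2) (Or.inl hk.ne')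
  refine h3.congr_deriv ?_
  unfold cw
  rw [Real.rpow_sub_one hk.ne']
  field_simp

lemma contOn_cw (m : ℕ) : ContinuousOn (cw m) (Ico 0 1) := fun _ hT =>
  (hasDerivAt_cw hT.1 hT.2).continuousAt.continuousWithinAt

section

variable {X : Type*} {E : Type*} [NormedAddCommGroup E] [InnerProductSpace ℝ E]
variable [TopologicalSpace X] [MeasurableSpace X] [SecondCountableTopology X]
variable [CompactSpace X] [BorelSpace X] {μ : Measure X} [IsFiniteMeasure μ] {m : ℕ} {p n : X → E}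
  {z : X → E} {T : ℝ}

lemma pair_mem (np : ∀ y, ‖p y‖ = 1) (u : X × X) : ⟪p u.1, p u.2⟫ ∈ Icc (-1 : ℝ) 1 := by
  have h := abs_real_inner_le_norm (p u.1) (p u.2)
  rw [np, np, one_mul] at h
  exact abs_le.1 h

lemma bound_pair {G : X × X → ℝ} (hG : Continuous G) : ∃ C : ℝ, ∀ u, G u ∈ Icc (-C) C := by
  obtain ⟨C, hC⟩ := (isCompact_univ : IsCompact (univ : Set (X × X))).exists_bound_of_continuousOn
    hG.continuousOn
  exact ⟨C, fun u => abs_le.1 (hC u (mem_univ _))⟩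

lemma contOn_PI (q : ℕ) (hp : Continuous p) (np : ∀ y, ‖p y‖ = 1) {G : X × X → ℝ}
    (hG : Continuous G) : ContinuousOn (fun T => PI μ p T q G) (Ico 0 1) := by
  obtain ⟨C, hC⟩ := bound_pair hG
  have h2 : Measurable fun u : X × X => ((⟪p u.1, p u.2⟫ : ℝ), G u) :=
    (Continuous.measurable (by fun_prop)).prodMk hG.measurable
  refine contOn_param (A := ℝ × ℝ) (μ.prod μ) h2 (isCompact_Icc.prod isCompact_Icc)
    (K := Icc (-1 : ℝ) 1 ×ˢ Icc (-C) C) (fun u => ⟨pair_mem np u, hC u⟩)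
    (g := fun T k => kr T q k.1 * k.2) (fun T => ?_) ?_
  · unfold kr
    fun_prop
  · unfold kr Function.uncurry
    refine ContinuousOn.mul (ContinuousOn.inv₀ (by fun_prop) ?_) (by fun_prop)
    rintro ⟨T, s, f⟩ ⟨h3, h4, -⟩
    exact pow_ne_zero q (H869.one_sub_pos_ab h3 h4).ne'

lemma hasDerivAt_PI (q : ℕ) (hp : Continuous p) (np : ∀ y, ‖p y‖ = 1) {G : X × X → ℝ}
    (hG : Continuous G) (hT : T ∈ Ioo (0 : ℝ) 1) :
    HasDerivAt (fun T => PI μ p T q G)
      (q * PI μ p T (q + 1) (fun u => ⟪p u.1, p u.2⟫ * G u)) T := by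
  obtain ⟨C, hC⟩ := bound_pair hG
  have h2 : Measurable fun u : X × X => ((⟪p u.1, p u.2⟫ : ℝ), G u) :=
    (Continuous.measurable (by fun_prop)).prodMk hG.measurable
  have h3 := deriv_param (A := ℝ × ℝ) (μ.prod μ) h2 (isCompact_Icc.prod isCompact_Icc)
    (K := Icc (-1 : ℝ) 1 ×ˢ Icc (-C) C) (fun u => ⟨pair_mem np u, hC u⟩)
    (g := fun T k => kr T q k.1 * k.2)
    (g' := fun T k => q * (k.1 * kr T (q + 1) k.1) * k.2) (fun T => by unfold kr; fun_prop)
    (fun T => by unfold kr; fun_prop) ?_ ?_ ?_ hT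
  · refine h3.congr_deriv ?_
    unfold PI
    rw [← integral_const_mul]
    refine integral_congr_ae (Filter.Eventually.of_forall fun u => ?_)
    simp only
    ring
  · unfold kr Function.uncurry
    refine ContinuousOn.mul (ContinuousOn.inv₀ (by fun_prop) ?_) (by fun_prop)
    rintro ⟨T, s, f⟩ ⟨h3, h4, -⟩
    exact pow_ne_zero q (H869.one_sub_pos_ab h3 h4).ne'
  · unfold kr Function.uncurry
    refine ContinuousOn.mul (ContinuousOn.mul continuousOn_const
      (ContinuousOn.mul (by fun_prop) (ContinuousOn.inv₀ (by fun_prop) ?_))) (by fun_prop)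
    rintro ⟨T, s, f⟩ ⟨h3, h4, -⟩
    exact pow_ne_zero (q + 1) (H869.one_sub_pos_ab ⟨h3.1.le, h3.2⟩ h4).ne'
  · rintro T hT ⟨s, f⟩ ⟨hs, -⟩
    have h4 := H869.hasDerivAt_ker_T' (q := q) (H869.one_sub_pos_ab ⟨hT.1.le, hT.2⟩ hs).ne'
    exact h4.mul_const f

/-- the derivative of the mean of a function of the first point -/
theorem hasDerivAt_ph (h : OneP μ m p n) (hm : 1 ≤ m) {f : X → ℝ} (hf : Continuous f)
    (hT : T ∈ Ioo (0 : ℝ) 1) :
    HasDerivAt (fun T => cw m T * PI μ p T m (fun u => f u.1))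
      (-(T / (1 - T ^ 2)) * (cw m T
        * (m * PI μ p T (m + 1) (fun u => f u.1 * ⟪p u.1, n u.2⟫ ^ 2)))) T := by
  have hp := h.cp
  have hn := h.cn
  have h0 := hT.1.le
  have h1 := hT.2
  have hk := one_sub_sq_pos h0 h1
  have k1 := (hasDerivAt_cw (m := m) h0 h1).mul
    (hasDerivAt_PI (μ := μ) (m) hp h.np (G := fun u => f u.1) (by fun_prop) hT)
  refine k1.congr_deriv ?_
  have r := PI_row1 (T := T) h hm h0 h1 hp hf
  have e1 : PI μ p T m (fun u => f u.1)
      = PI μ p T (m + 1) (fun u => f u.1 - T * (⟪p u.1, p u.2⟫ * f u.1)) := by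
    unfold PI
    refine integral_congr_ae (Filter.Eventually.of_forall fun u => ?_)
    simp only
    rw [← kr_mul m (one_sub_pos h0 h1 (h.np u.1) (h.np u.2))]
    ring
  have e2 : (fun u : X × X => f u.1 * Y2 p p T u)
      = fun u => ⟪p u.1, p u.2⟫ * f u.1 - T * f u.1 := by
    ext u
    simp only [Y2, inner_sub_left, real_inner_smul_left, real_inner_self_eq_norm_sq, h.np]
    rw [real_inner_comm]
    ring
  have e3 : (fun u : X × X => f u.1 * TS p n p u) = fun u => f u.1 * ⟪p u.1, n u.2⟫ ^ 2 := by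
    ext u
    simp only [TS]
    rw [real_inner_comm (p u.1) (n u.2)]
    ring
  rw [e2, e3] at r
  rw [PI_sub h0 h1 _ hp h.np (by fun_prop) (by fun_prop), PI_mul] at r
  rw [PI_sub h0 h1 _ hp h.np (by fun_prop) (by fun_prop), PI_mul] at e1
  rw [e1]
  set F1 := PI μ p T (m + 1) (fun u => ⟪p u.1, p u.2⟫ * f u.1)
  set F0 := PI μ p T (m + 1) (fun u => f u.1)
  set F2 := PI μ p T (m + 1) (fun u => f u.1 * ⟪p u.1, n u.2⟫ ^ 2)
  have e4 : F1 = T * F0 - T * F2 := by linarith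
  rw [e4]
  field_simp
  ring

lemma contOn_ph (hp : Continuous p) (np : ∀ y, ‖p y‖ = 1) {f : X → ℝ} (hf : Continuous f) :
    ContinuousOn (fun T => cw m T * PI μ p T m (fun u => f u.1)) (Ico 0 1) :=
  (contOn_cw m).mul (contOn_PI m hp np (by fun_prop))

lemma ph_zero [IsProbabilityMeasure μ] (m : ℕ) (f : X → ℝ) :
    cw m 0 * PI μ p 0 m (fun u => f u.1) = ∫ x, f x ∂μ := by
  rw [cw_zero, one_mul]
  unfold PI kr
  simp only [zero_mul, sub_zero, one_pow, inv_one, one_mul]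
  have h2 := integral_prod_mul (μ := μ) (ν := μ) f (fun _ => (1 : ℝ))
  simpa using h2

/-- the density is at most one -/
theorem dens_of_oneP (h : OneP μ m p n) (hm : 1 ≤ m) [IsProbabilityMeasure μ] (h0 : 0 ≤ T)
    (h1 : T < 1) : Dens μ p m T (cw m T)⁻¹ := by
  intro f hf hf0
  have hp := h.cp
  have hn := h.cn
  have hc := cw_pos (m := m) h0 h1
  have hanti : AntitoneOn (fun T => cw m T * PI μ p T m (fun u => f u.1)) (Icc 0 T) := by
    refine antitoneOn_of_deriv_nonpos (convex_Icc 0 T)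
      ((contOn_ph hp h.np hf).mono fun x hx => ⟨hx.1, hx.2.trans_lt h1⟩) ?_ ?_
    · rw [interior_Icc]
      intro x hx
      exact (hasDerivAt_ph h hm hf ⟨hx.1, hx.2.trans h1⟩).differentiableAt.differentiableWithinAt
    · rw [interior_Icc]
      intro x hx
      have hx1 : x < 1 := hx.2.trans h1
      rw [(hasDerivAt_ph h hm hf ⟨hx.1, hx1⟩).deriv]
      have h2 : 0 ≤ PI μ p x (m + 1) (fun u => f u.1 * ⟪p u.1, n u.2⟫ ^ 2) :=
        PI_nonneg hx.1.le hx1 _ h.np fun u => mul_nonneg (hf0 _) (sq_nonneg _)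
      have h3 := (cw_pos (m := m) hx.1.le hx1).le
      have h4 := (one_sub_sq_pos hx.1.le hx1).le
      have h5 := hx.1.le
      rw [neg_mul]
      exact neg_nonpos.2 (by positivity)
  have h2 := hanti (left_mem_Icc.2 h0) (right_mem_Icc.2 h0) h0
  simp only at h2
  rw [ph_zero] at h2
  rw [inv_mul_eq_div, le_div_iff₀ hc]
  linarith

end

end Vale.Agent.P224.R2.H460
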