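import Vale.Agent.P224.R2.H460.Cl2

/-!
Integer encodings of the data of the cells.
-/

namespace Vale.Agent.P224.R2.H460

open Vale.Agent.P224.R2.H662 (Dt)

/-- the levels, with denominators `10^4`, `10^5`, `10^3` -/
def dl (l : List (ℕ × ℕ × ℕ)) : List (ℚ × ℚ × ℚ) :=
  l.map fun r => ((r.1 : ℚ) / 10000, (r.2.1 : ℚ) / 100000, (r.2.2 : ℚ) / 1000)

/-- the free numbers of a cell over `10^8`: `hb ep A0 A Q ε s a b Ts c0` and the small integers -/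
structure CN where
  hb : ℕ
  ep : ℕ
  A0 : ℕ
  A : ℕ
  Q : ℕ
  ε : ℕ
  s : ℕ
  a : ℕ
  b : ℕ
  Ts : ℕ
  dT : ℕ
  c0 : ℕ
  δ : ℕ
  cs : ℕ
  κ1 : ℕ
  c1 : ℕ
  m1 : ℕ
  η : ℕ
  yy : ℕ
  rn : ℕ
  re : ℕ
  q6 : ℕ
  ri : ℕ
  el : Option ℕ
  ab : Bool
  l : List (ℕ × ℕ × ℕ)

/-- a number over `10^8` -/
def e8 (n : ℕ) : ℚ := (n : ℚ) / 100000000

/-- the data -/
def CN.D (ν : ℚ) (c : CN) : Dt :=
  { ν := ν, hb := e8 c.hb, ep := e8 c.ep, s := e8 c.s, Q := e8 c.Q, A := e8 c.A, yy := e8 c.yy,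
    rn := e8 c.rn, re := e8 c.re, q6 := e8 c.q6 }

/-- the box -/
def CN.B (ν m0 : ℚ) (c : CN) : Bx :=
  let k := ν / (1 - ν)
  let D := c.D ν
  { κ := k * (m0 + 1) / m0, A0 := e8 c.A0, c := D.Q, ε := e8 c.ε, η := e8 c.η, κ1 := e8 c.κ1,
    c1 := e8 c.c1, m1 := e8 c.m1, m0 := m0, x0 := D.hb, x1 := D.yy,
    x2 := 8 / 7 * D.A + 51 / 100 * D.hb, x3 := 269 / 50 * D.A,
    f1 := (1 + D.s) * (16 / 7 * k) + (1 + 1 / D.s) * (1 / (1 - ν) * D.ep),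
    f2 := 8 / 7 * D.Q + 5 / 6 * k ^ 2 * D.hb, f3 := 269 / 50 * D.Q,
    y0 := 0, y1 := D.yy, y2 := 8 / 7 * D.A + 51 / 100 * D.hb, y3 := 269 / 50 * D.A,
    g1 := 16 / 7 + (7 / 2 + 4 / (m0 + 2)) * D.ep + (D.q6 + 4 * D.rn) * D.re, g2 := 103 / 5,
    g3 := 0, a := e8 c.a, b := e8 c.b, dT := e8 c.dT, Ts := e8 c.Ts }

/-- the cell -/
def CN.cell (ν m0 : ℚ) (c : CN) : CellS :=
  { hb := e8 c.hb, B := c.B ν m0, D := c.D ν, l := dl c.l, δ := e8 c.δ, cs := e8 c.cs,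
    c0 := e8 c.c0, ri := c.ri, el := c.el, ab := c.ab }

end Vale.Agent.P224.R2.H460
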