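import Vale.Agent.P224.R2.H460.Row
import Vale.Agent.P224.R2.H470.Quad

/-!
The quadratic form of the antisymmetric part at level T.
-/

namespace Vale.Agent.P224.R2.H460

open MeasureTheory Module Function Set Vale.Agent.P224.R2.H470
open scoped RealInnerProductSpace Topology ContDiff

set_option linter.unusedSectionVars false

section

variable {X : Type*} {E : Type*} [NormedAddCommGroup E] [InnerProductSpace ℝ E]
variable [TopologicalSpace X] [MeasurableSpace X] [SecondCountableTopology X]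
variable [CompactSpace X] [BorelSpace X] {μ : Measure X} [IsFiniteMeasure μ] {m : ℕ} {p n : X → E}
  {z : X → E} {T : ℝ}

/-- the pair integral with the kernel -/
noncomputable def PI (μ : Measure X) (p : X → E) (T : ℝ) (q : ℕ) (G : X × X → ℝ) : ℝ :=
  ∫ u : X × X, kr T q ⟪p u.1, p u.2⟫ * G u ∂(μ.prod μ)

lemma continuous_krp (h0 : 0 ≤ T) (h1 : T < 1) (q : ℕ) (hp : Continuous p)
    (np : ∀ y, ‖p y‖ = 1) : Continuous fun u : X × X => kr T q ⟪p u.1, p u.2⟫ := by
  unfold kr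
  refine Continuous.inv₀ (by fun_prop) fun y => pow_ne_zero q (one_sub_pos h0 h1 (np _) (np _)).ne'

lemma int_PI (h0 : 0 ≤ T) (h1 : T < 1) (q : ℕ) (hp : Continuous p) (np : ∀ y, ‖p y‖ = 1)
    {G : X × X → ℝ} (hG : Continuous G) :
    Integrable (fun u : X × X => kr T q ⟪p u.1, p u.2⟫ * G u) (μ.prod μ) :=
  int_of_cont ((continuous_krp h0 h1 q hp np).mul hG)

lemma PI_add (h0 : 0 ≤ T) (h1 : T < 1) (q : ℕ) (hp : Continuous p) (np : ∀ y, ‖p y‖ = 1)
    {G H : X × X → ℝ} (hG : Continuous G) (hH : Continuous H) :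
    PI μ p T q (fun u => G u + H u) = PI μ p T q G + PI μ p T q H := by
  unfold PI
  rw [← integral_add (int_PI h0 h1 q hp np hG) (int_PI h0 h1 q hp np hH)]
  refine integral_congr_ae (Filter.Eventually.of_forall fun u => ?_)
  simp only
  ring

lemma PI_sub (h0 : 0 ≤ T) (h1 : T < 1) (q : ℕ) (hp : Continuous p) (np : ∀ y, ‖p y‖ = 1)
    {G H : X × X → ℝ} (hG : Continuous G) (hH : Continuous H) :
    PI μ p T q (fun u => G u - H u) = PI μ p T q G - PI μ p T q H := by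
  unfold PI
  rw [← integral_sub (int_PI h0 h1 q hp np hG) (int_PI h0 h1 q hp np hH)]
  refine integral_congr_ae (Filter.Eventually.of_forall fun u => ?_)
  simp only
  ring

lemma PI_mul (q : ℕ) (c : ℝ) (G : X × X → ℝ) :
    PI μ p T q (fun u => c * G u) = c * PI μ p T q G := by
  unfold PI
  rw [← integral_const_mul]
  refine integral_congr_ae (Filter.Eventually.of_forall fun u => ?_)
  simp only
  ring

lemma PI_mono (h0 : 0 ≤ T) (h1 : T < 1) (q : ℕ) (hp : Continuous p) (np : ∀ y, ‖p y‖ = 1)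
    {G H : X × X → ℝ} (hG : Continuous G) (hH : Continuous H) (hGH : ∀ u, G u ≤ H u) :
    PI μ p T q G ≤ PI μ p T q H := by
  refine integral_mono (int_PI h0 h1 q hp np hG) (int_PI h0 h1 q hp np hH) fun u => ?_
  exact mul_le_mul_of_nonneg_left (hGH u) (kr_pos q (one_sub_pos h0 h1 (np _) (np _))).le

lemma PI_nonneg (h0 : 0 ≤ T) (h1 : T < 1) (q : ℕ) (np : ∀ y, ‖p y‖ = 1)
    {G : X × X → ℝ} (hG : ∀ u, 0 ≤ G u) : 0 ≤ PI μ p T q G :=
  integral_nonneg fun u => mul_nonneg (kr_pos q (one_sub_pos h0 h1 (np _) (np _))).le (hG u)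

/-- Cauchy-Schwarz -/
lemma PI_cs (h0 : 0 ≤ T) (h1 : T < 1) (q : ℕ) (hp : Continuous p) (np : ∀ y, ‖p y‖ = 1)
    {G H : X × X → ℝ} (hG : Continuous G) (hH : Continuous H) :
    |PI μ p T q (fun u => G u * H u)|
      ≤ √(PI μ p T q (fun u => G u ^ 2)) * √(PI μ p T q (fun u => H u ^ 2)) := by
  have hk := continuous_krp h0 h1 q hp np
  have hs : Continuous fun u : X × X => √(kr T q ⟪p u.1, p u.2⟫) := hk.sqrt
  have hk0 : ∀ u : X × X, 0 ≤ kr T q ⟪p u.1, p u.2⟫ := fun u =>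
    (kr_pos q (one_sub_pos h0 h1 (np _) (np _))).le
  have h2 := cs_int (μ := μ.prod μ) (f := fun u => √(kr T q ⟪p u.1, p u.2⟫) * G u)
    (g := fun u => √(kr T q ⟪p u.1, p u.2⟫) * H u) (hs.mul hG) (hs.mul hH)
  have e1 : ∫ u : X × X, (√(kr T q ⟪p u.1, p u.2⟫) * G u) * (√(kr T q ⟪p u.1, p u.2⟫) * H u) ∂(μ.prod μ)
      = PI μ p T q (fun u => G u * H u) := by
    unfold PI
    refine integral_congr_ae (Filter.Eventually.of_forall fun u => ?_)
    simp only
    have := Real.mul_self_sqrt (hk0 u)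
    linear_combination (G u * H u) * this
  have e2 : ∀ G : X × X → ℝ, ∫ u : X × X, (√(kr T q ⟪p u.1, p u.2⟫) * G u) ^ 2 ∂(μ.prod μ)
      = PI μ p T q (fun u => G u ^ 2) := by
    intro G
    unfold PI
    refine integral_congr_ae (Filter.Eventually.of_forall fun u => ?_)
    simp only
    rw [mul_pow, Real.sq_sqrt (hk0 u)]
  rw [e1, e2, e2] at h2
  have p1 : 0 ≤ PI μ p T q (fun u => G u ^ 2) := PI_nonneg h0 h1 q np fun u => sq_nonneg _
  rw [← Real.sqrt_mul p1]
  exact Real.abs_le_sqrt h2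

/-- swap -/
lemma PI_swap (h0 : 0 ≤ T) (h1 : T < 1) (q : ℕ) (G : X × X → ℝ) :
    PI μ p T q (fun u => G u.swap) = PI μ p T q G := by
  unfold PI
  rw [← integral_prod_swap (μ := μ) (ν := μ)]
  refine integral_congr_ae (Filter.Eventually.of_forall fun u => ?_)
  simp only [Prod.fst_swap, Prod.snd_swap, real_inner_comm, Prod.swap_swap]

/-- the tangential product t sigma -/
def TS (p n z : X → E) (u : X × X) : ℝ := ⟪p u.1, n u.2⟫ * ⟪n u.2, z u.1⟫

/-- the centred product -/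
def Y2 (p z : X → E) (T : ℝ) (u : X × X) : ℝ := ⟪p u.2 - T • p u.1, z u.1⟫

lemma cont_TS (hp : Continuous p) (hn : Continuous n) (hz : Continuous z) : Continuous (TS p n z) := by
  unfold TS
  fun_prop

lemma cont_Y2 (hp : Continuous p) (hz : Continuous z) : Continuous (Y2 p z T) := by
  unfold Y2
  fun_prop

/-- first row, integrated against a function of the first point -/
theorem PI_row1 (h : OneP μ m p n) (hm : 1 ≤ m) (h0 : 0 ≤ T) (h1 : T < 1) (hz : Continuous z)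
    {f : X → ℝ} (hf : Continuous f) :
    PI μ p T (m + 1) (fun u => f u.1 * Y2 p z T u) = -T * PI μ p T (m + 1) (fun u => f u.1 * TS p n z u) := by
  have hp := h.cp
  have hn := h.cn
  have c1 := cont_TS hp hn hz
  have c2 := cont_Y2 (T := T) hp hz
  have h2 : PI μ p T (m + 1) (fun u => f u.1 * Y2 p z T u + T * (f u.1 * TS p n z u)) = 0 := by
    unfold PI
    rw [integral_prod _ (int_PI h0 h1 (m + 1) hp h.np (by fun_prop))]
    have h3 : ∀ x, ∫ y, kr T (m + 1) ⟪p x, p y⟫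
        * (f x * Y2 p z T (x, y) + T * (f x * TS p n z (x, y))) ∂μ = 0 := by
      intro x
      have h4 := row1 h hm h0 h1 (h.np x) (z x)
      have h5 : ∫ y, kr T (m + 1) ⟪p x, p y⟫
        * (f x * Y2 p z T (x, y) + T * (f x * TS p n z (x, y))) ∂μ
          = f x * ∫ y, kr T (m + 1) ⟪p x, p y⟫
            * (⟪p y - T • p x, z x⟫ + T * (⟪p x, n y⟫ * ⟪n y, z x⟫)) ∂μ := by
        rw [← integral_const_mul]
        refine integral_congr_ae (Filter.Eventually.of_forall fun y => ?_)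
        simp only [Y2, TS]
        ring
      rw [h5, h4, mul_zero]
    simp only [h3, integral_zero]
  rw [PI_add h0 h1 _ hp h.np (by fun_prop) (by fun_prop), PI_mul] at h2
  linarith

/-- second row, integrated -/
theorem PI_row2 (h : OneP μ m p n) (h0 : 0 ≤ T) (h1 : T < 1) (hz : Continuous z) :
    m * PI μ p T (m + 1) (fun u => Y2 p z T u ^ 2)
      + m * T * PI μ p T (m + 1) (fun u => TS p n z u * Y2 p z T u)
      = PI μ p T m (fun u => ‖z u.1‖ ^ 2 - ⟪n u.2, z u.1⟫ ^ 2 - ⟪p u.2, z u.1⟫ ^ 2) := by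
  have hp := h.cp
  have hn := h.cn
  have c1 := cont_TS hp hn hz
  have c2 := cont_Y2 (T := T) hp hz
  have i1 := int_PI (μ := μ) h0 h1 (m + 1) hp h.np (G := fun u => Y2 p z T u ^ 2) (by fun_prop)
  have i2 := int_PI (μ := μ) h0 h1 (m + 1) hp h.np (G := fun u => TS p n z u * Y2 p z T u)
    (by fun_prop)
  have i3 := int_PI (μ := μ) h0 h1 m hp h.np
    (G := fun u => ‖z u.1‖ ^ 2 - ⟪n u.2, z u.1⟫ ^ 2 - ⟪p u.2, z u.1⟫ ^ 2) (by fun_prop)
  unfold PI
  rw [integral_prod _ i1, integral_prod _ i2, integral_prod _ i3, ← integral_const_mul,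
    ← integral_const_mul, ← integral_add (i1.integral_prod_left.const_mul _)
      (i2.integral_prod_left.const_mul _)]
  refine integral_congr_ae (Filter.Eventually.of_forall fun x => ?_)
  have h4 := row2 h h0 h1 (h.np x) (z x)
  simp only [Y2, TS]
  linarith

/-- lower bound of the square of the product -/
theorem X2_ge (h : OneP μ m p n) (hm : 1 ≤ m) (h0 : 0 ≤ T) (h1 : T < 1) (hz : Continuous z) :
    PI μ p T m (fun u => ‖z u.1‖ ^ 2 - ⟪n u.2, z u.1⟫ ^ 2 - ⟪p u.2, z u.1⟫ ^ 2)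
      - T * (√(m * PI μ p T (m + 1) (fun u => TS p n z u ^ 2))
        * √(m * PI μ p T (m + 1) (fun u => Y2 p z T u ^ 2)))
      - T ^ 2 * (m * PI μ p T (m + 1) (fun u => TS p n z u ^ 2))
      ≤ m * PI μ p T (m + 1) (fun u => ⟪p u.2, z u.1⟫ ^ 2) := by
  have hp := h.cp
  have hn := h.cn
  have c1 := cont_TS hp hn hz
  have c2 := cont_Y2 (T := T) hp hz
  have hm0 : (0 : ℝ) ≤ m := by positivity
  have hf : Continuous fun x => ⟪p x, z x⟫ := by fun_prop
  have r1 := PI_row1 (T := T) h hm h0 h1 hz hf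
  have r2 := PI_row2 (T := T) h h0 h1 hz
  have cs := PI_cs (μ := μ) h0 h1 (m + 1) hp h.np c1 c2
  have e1 : PI μ p T (m + 1) (fun u => ⟪p u.2, z u.1⟫ ^ 2)
      = PI μ p T (m + 1) (fun u => Y2 p z T u ^ 2)
        + (2 * T * PI μ p T (m + 1) (fun u => ⟪p u.1, z u.1⟫ * Y2 p z T u)
        + T ^ 2 * PI μ p T (m + 1) (fun u => ⟪p u.1, z u.1⟫ ^ 2)) := by
    rw [← PI_mul, ← PI_mul, ← PI_add h0 h1 _ hp h.np (by fun_prop) (by fun_prop),
      ← PI_add h0 h1 _ hp h.np (by fun_prop) (by fun_prop)]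
    congr 1
    ext u
    simp only [Y2, inner_sub_left, real_inner_smul_left]
    ring
  have e2 : 0 ≤ PI μ p T (m + 1) (fun u => ⟪p u.1, z u.1⟫ ^ 2)
      - 2 * PI μ p T (m + 1) (fun u => ⟪p u.1, z u.1⟫ * TS p n z u)
      + PI μ p T (m + 1) (fun u => TS p n z u ^ 2) := by
    rw [← PI_mul, ← PI_sub h0 h1 _ hp h.np (by fun_prop) (by fun_prop),
      ← PI_add h0 h1 _ hp h.np (by fun_prop) (by fun_prop)]
    refine PI_nonneg h0 h1 _ h.np fun u => ?_
    nlinarith [sq_nonneg (⟪p u.1, z u.1⟫ - TS p n z u)]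
  have e3 : √(m * PI μ p T (m + 1) (fun u => TS p n z u ^ 2))
        * √(m * PI μ p T (m + 1) (fun u => Y2 p z T u ^ 2))
      = m * (√(PI μ p T (m + 1) (fun u => TS p n z u ^ 2))
        * √(PI μ p T (m + 1) (fun u => Y2 p z T u ^ 2))) := by
    rw [Real.sqrt_mul hm0, Real.sqrt_mul hm0]
    have := Real.mul_self_sqrt hm0
    linear_combination (√(PI μ p T (m + 1) (fun u => TS p n z u ^ 2))
        * √(PI μ p T (m + 1) (fun u => Y2 p z T u ^ 2))) * this
  rw [e3, e1, r1]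
  have h5 := (abs_le.1 cs).2
  have h6 : m * T * PI μ p T (m + 1) (fun u => TS p n z u * Y2 p z T u)
      ≤ m * T * (√(PI μ p T (m + 1) (fun u => TS p n z u ^ 2))
        * √(PI μ p T (m + 1) (fun u => Y2 p z T u ^ 2))) :=
    mul_le_mul_of_nonneg_left h5 (by positivity)
  have h7 : 0 ≤ m * T ^ 2 * (PI μ p T (m + 1) (fun u => ⟪p u.1, z u.1⟫ ^ 2)
      - 2 * PI μ p T (m + 1) (fun u => ⟪p u.1, z u.1⟫ * TS p n z u)
      + PI μ p T (m + 1) (fun u => TS p n z u ^ 2)) := mul_nonneg (by positivity) e2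
  nlinarith

/-- upper bound of the centred square -/
theorem Y2_le (h : OneP μ m p n) (h0 : 0 ≤ T) (h1 : T < 1) (hz : Continuous z) :
    m * PI μ p T (m + 1) (fun u => Y2 p z T u ^ 2)
      ≤ PI μ p T m (fun u => ‖z u.1‖ ^ 2)
        + T * (√(m * PI μ p T (m + 1) (fun u => TS p n z u ^ 2))
          * √(m * PI μ p T (m + 1) (fun u => Y2 p z T u ^ 2))) := by
  have hp := h.cp
  have hn := h.cn
  have c1 := cont_TS hp hn hz
  have c2 := cont_Y2 (T := T) hp hz
  have hm0 : (0 : ℝ) ≤ m := by positivity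
  have r2 := PI_row2 (T := T) h h0 h1 hz
  have cs := PI_cs (μ := μ) h0 h1 (m + 1) hp h.np c1 c2
  have e3 : √(m * PI μ p T (m + 1) (fun u => TS p n z u ^ 2))
        * √(m * PI μ p T (m + 1) (fun u => Y2 p z T u ^ 2))
      = m * (√(PI μ p T (m + 1) (fun u => TS p n z u ^ 2))
        * √(PI μ p T (m + 1) (fun u => Y2 p z T u ^ 2))) := by
    rw [Real.sqrt_mul hm0, Real.sqrt_mul hm0]
    have := Real.mul_self_sqrt hm0
    linear_combination (√(PI μ p T (m + 1) (fun u => TS p n z u ^ 2))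
        * √(PI μ p T (m + 1) (fun u => Y2 p z T u ^ 2))) * this
  rw [e3]
  have h5 := (abs_le.1 cs).1
  have h6 : PI μ p T m (fun u => ‖z u.1‖ ^ 2 - ⟪n u.2, z u.1⟫ ^ 2 - ⟪p u.2, z u.1⟫ ^ 2)
      ≤ PI μ p T m (fun u => ‖z u.1‖ ^ 2) := by
    refine PI_mono h0 h1 _ hp h.np (by fun_prop) (by fun_prop) fun u => ?_
    nlinarith [sq_nonneg ⟪n u.2, z u.1⟫, sq_nonneg ⟪p u.2, z u.1⟫]
  have h7 : m * T * (-(√(PI μ p T (m + 1) (fun u => TS p n z u ^ 2))
        * √(PI μ p T (m + 1) (fun u => Y2 p z T u ^ 2))))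
      ≤ m * T * PI μ p T (m + 1) (fun u => TS p n z u * Y2 p z T u) :=
    mul_le_mul_of_nonneg_left h5 (by positivity)
  nlinarith

end

end Vale.Agent.P224.R2.H460
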