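import Vale.Agent.P224.R2.H460.Vb

/-!
The scalar layer of the lower bound at level T.
-/

namespace Vale.Agent.P224.R2.H460

set_option linter.unusedSectionVars false

lemma sq_le_of_sqrt_le {S σ h : ℝ} (hS : 0 ≤ S) (hh : 0 ≤ h) (hs : √S ≤ σ * √h) :
    S ≤ σ ^ 2 * h := by
  have h1 := Real.sq_sqrt hS
  have h2 := pow_le_pow_left₀ (Real.sqrt_nonneg _) hs 2
  rw [h1, mul_pow, Real.sq_sqrt hh] at h2
  exact h2

lemma sqrt_le_of_le {S σ h : ℝ} (hh : 0 ≤ h) (hσ : 0 ≤ σ) (hs : S ≤ σ ^ 2 * h) :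
    √S ≤ σ * √h := by
  rw [Real.sqrt_le_left (mul_nonneg hσ (Real.sqrt_nonneg _)), mul_pow, Real.sq_sqrt hh]
  exact hs

lemma core_V {T h Φ V L A0 u η v ℓ : ℝ} (hT1 : T < 1) (hh : 0 < h)
    (hΦh : Φ ≤ h) (hV : (1 - T) * √V ≤ √Φ + √(2 * A0 * L) + η * √h) (hA0 : 0 ≤ A0)
    (hLl : L ≤ ℓ * h) (hu : 2 * A0 * ℓ ≤ u ^ 2) (hu0 : 0 ≤ u) (hv : 1 + u + η ≤ (1 - T) * v) :
    √V ≤ v * √h := by
  have hx0 : 0 < √h := Real.sqrt_pos.2 hh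
  have e1 : √(2 * A0 * L) ≤ u * √h := by
    refine sqrt_le_of_le hh.le hu0 ?_
    have h1 : 2 * A0 * L ≤ 2 * A0 * (ℓ * h) := mul_le_mul_of_nonneg_left hLl (by positivity)
    have h2 : 2 * A0 * ℓ * h ≤ u ^ 2 * h := mul_le_mul_of_nonneg_right hu hh.le
    linarith
  have e2 : √Φ ≤ √h := Real.sqrt_le_sqrt hΦh
  have h2 : (1 + u + η) * √h ≤ (1 - T) * v * √h := mul_le_mul_of_nonneg_right hv hx0.le
  have h1 : (1 - T) * √V ≤ (1 - T) * (v * √h) := by linarith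
  exact le_of_mul_le_mul_left h1 (by linarith)

lemma core_S {T h Φ S V κ CJ χ k1 c1 χ1 v σ : ℝ} (hT0 : 0 ≤ T) (hh : 0 < h)
    (hΦh : Φ ≤ h) (hS0 : 0 ≤ S) (hV : √V ≤ v * √h)
    (hS : √S ≤ √((1 + T) * κ) * (√Φ + T * √V) + T * √(CJ * h) + √χ)
    (hk : (1 + T) * κ ≤ k1 ^ 2) (hk0 : 0 ≤ k1) (hc : CJ ≤ c1 ^ 2) (hc0 : 0 ≤ c1)
    (hχ : χ ≤ χ1 ^ 2 * h) (hχ0 : 0 ≤ χ1) (hσ : k1 * (1 + T * v) + T * c1 + χ1 ≤ σ) :
    S ≤ σ ^ 2 * h := by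
  have hx0 : 0 < √h := Real.sqrt_pos.2 hh
  have h1 : √((1 + T) * κ) ≤ k1 := by
    rw [Real.sqrt_le_left hk0]
    exact hk
  have e2 : √Φ ≤ √h := Real.sqrt_le_sqrt hΦh
  have h2 : √Φ + T * √V ≤ (1 + T * v) * √h := by
    have := mul_le_mul_of_nonneg_left hV hT0
    linarith
  have h3 : √((1 + T) * κ) * (√Φ + T * √V) ≤ k1 * ((1 + T * v) * √h) :=
    mul_le_mul h1 h2 (add_nonneg (Real.sqrt_nonneg _) (mul_nonneg hT0 (Real.sqrt_nonneg _))) hk0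
  have h4 : √(CJ * h) ≤ c1 * √h :=
    sqrt_le_of_le hh.le hc0 (mul_le_mul_of_nonneg_right hc hh.le)
  have h5 : √χ ≤ χ1 * √h := sqrt_le_of_le hh.le hχ0 hχ
  have h6 := mul_le_mul_of_nonneg_left h4 hT0
  have h7 : (k1 * (1 + T * v) + T * c1 + χ1) * √h ≤ σ * √h := mul_le_mul_of_nonneg_right hσ hx0.le
  exact sq_le_of_sqrt_le hS0 hh.le (by linarith)

lemma core_M {T h A M P v : ℝ} (hT0 : 0 ≤ T) (hh : 0 < h) (hAh : A ≤ h) (hM0 : 0 ≤ M)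
    (hM : M ≤ A + T * (√P * √M)) (hP : √P ≤ v * √h) : √M ≤ (1 + T * v) * √h := by
  have h1 : M ≤ h + (T * √P) * √M := by
    have : T * (√P * √M) = (T * √P) * √M := by ring
    linarith
  have h2 := sqrt_le_of_root hM0 hh.le (mul_nonneg hT0 (Real.sqrt_nonneg _)) h1
  have h3 := mul_le_mul_of_nonneg_left hP hT0
  linarith

lemma core_R {T h R M m1 mm v r : ℝ} (hT0 : 0 ≤ T) (hh : 0 < h) (hR0 : 0 ≤ R) (hM0 : 0 ≤ M)
    (hv0 : 0 ≤ v) (hM : √M ≤ (1 + T * v) * √h) (hR : √R ≤ √((1 + T) / mm * M) + T * √h)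
    (hm1 : (1 + T) / mm ≤ m1 ^ 2) (hm0 : 0 ≤ m1) (hr : m1 * (1 + T * v) + T ≤ r) :
    R ≤ r ^ 2 * h := by
  have hx0 : 0 < √h := Real.sqrt_pos.2 hh
  have h3 := sq_le_of_sqrt_le hM0 hh.le hM
  have hTv : 0 ≤ T * v := mul_nonneg hT0 hv0
  have h1 : √((1 + T) / mm * M) ≤ m1 * (1 + T * v) * √h := by
    refine sqrt_le_of_le hh.le (mul_nonneg hm0 (by linarith)) ?_
    calc (1 + T) / mm * M ≤ m1 ^ 2 * M := mul_le_mul_of_nonneg_right hm1 hM0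
      _ ≤ m1 ^ 2 * ((1 + T * v) ^ 2 * h) := mul_le_mul_of_nonneg_left h3 (sq_nonneg _)
      _ = _ := by ring
  have h7 : (m1 * (1 + T * v) + T) * √h ≤ r * √h := mul_le_mul_of_nonneg_right hr hx0.le
  exact sq_le_of_sqrt_le hR0 hh.le (by linarith)

lemma core_young {x A θ h : ℝ} (hx : x ^ 2 = h) (hA : 0 ≤ A) (hθ : 0 < θ) :
    x * √A ≤ A / (2 * θ) + θ * h / 2 := by
  have hAA := Real.sq_sqrt hA
  have h5 : 0 ≤ (√A - θ * x) ^ 2 / (2 * θ) := by positivity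
  have h6 : (√A - θ * x) ^ 2 = A - 2 * θ * (x * √A) + θ ^ 2 * h := by
    linear_combination hAA + θ ^ 2 * hx
  have h7 : (A - 2 * θ * (x * √A) + θ ^ 2 * h) / (2 * θ) = A / (2 * θ) + θ * h / 2 - x * √A := by
    field_simp
    ring
  rw [h6, h7] at h5
  linarith

lemma core_fin {T h Φ M P L C A v q θ γ ℓ : ℝ} (hT0 : 0 ≤ T) (hh : 0 < h)
    (hΦh : Φ ≤ h) (hM0 : 0 ≤ M) (hP0 : 0 ≤ P) (hL0 : 0 ≤ L)
    (hM : M ≤ A + T * (√P * √M)) (hL : A - T * (√P * √M) - 2 * T ^ 2 * P - C ≤ L)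
    (hP : √P ≤ v * √h) (hv0 : 0 ≤ v) (hC : C ≤ γ * h) (hA : q * h - (h - Φ) ≤ A)
    (hθ : 0 < θ) (hθ2 : T * v ≤ 2 * θ) (hα : ℓ ≤ q)
    (hfin : ℓ ≤ q * (1 - T * v / (2 * θ)) - T * v * θ / 2 - 3 * T ^ 2 * v ^ 2 - γ) :
    ℓ * h - (h - Φ) ≤ L := by
  rcases lt_or_ge A 0 with hA' | hA'
  · have h1 : ℓ * h ≤ q * h := mul_le_mul_of_nonneg_right hα hh.le
    linarith
  · have h1 : M ≤ A + (T * √P) * √M := by
      have : T * (√P * √M) = (T * √P) * √M := by ring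
      linarith
    have h2 := sqrt_le_of_root hM0 hA' (mul_nonneg hT0 (Real.sqrt_nonneg _)) h1
    have hTP : T * √P ≤ T * v * √h := by
      have := mul_le_mul_of_nonneg_left hP hT0
      linarith
    have hPP := Real.mul_self_sqrt hP0
    have h3 : T * (√P * √M) ≤ (T * v * √h) * √A + T ^ 2 * P := by
      have h4 : (T * √P) * √M ≤ (T * √P) * (√A + T * √P) :=
        mul_le_mul_of_nonneg_left h2 (mul_nonneg hT0 (Real.sqrt_nonneg _))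
      have h5 : (T * √P) * √A ≤ (T * v * √h) * √A :=
        mul_le_mul_of_nonneg_right hTP (Real.sqrt_nonneg _)
      have h6 : (T * √P) * (T * √P) = T ^ 2 * P := by
        linear_combination T ^ 2 * hPP
      linarith
    have h4 := core_young (x := √h) (Real.sq_sqrt hh.le) hA' hθ
    have hTv : 0 ≤ T * v := mul_nonneg hT0 hv0
    have h5 : (T * v * √h) * √A ≤ T * v * (A / (2 * θ) + θ * h / 2) := by
      have : (T * v * √h) * √A = (T * v) * (√h * √A) := by ring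
      rw [this]
      exact mul_le_mul_of_nonneg_left h4 hTv
    have h6 : T ^ 2 * P ≤ T ^ 2 * (v ^ 2 * h) :=
      mul_le_mul_of_nonneg_left (sq_le_of_sqrt_le hP0 hh.le hP) (sq_nonneg T)
    have hg0 : 0 ≤ T * v / (2 * θ) := by positivity
    have hg1 : T * v / (2 * θ) ≤ 1 := by
      rw [div_le_one (by positivity)]
      exact hθ2
    set g := T * v / (2 * θ) with hg
    have h7 : T * v * (A / (2 * θ) + θ * h / 2) = g * A + T * v * θ / 2 * h := by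
      rw [hg]
      field_simp
    have h8 : A * (1 - g) - T * v * θ / 2 * h - 3 * T ^ 2 * v ^ 2 * h - γ * h ≤ L := by
      linarith
    have h9 : (q * h - (h - Φ)) * (1 - g) ≤ A * (1 - g) :=
      mul_le_mul_of_nonneg_right hA (by linarith)
    have h10 : 0 ≤ (h - Φ) * g := mul_nonneg (by linarith) hg0
    have h11 := mul_le_mul_of_nonneg_right hfin hh.le
    linarith

/-- the scalar core: from the inequalities between the means at level T to the lower bound -/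
theorem scal_core {T h Φ S R M P V L C A0 κ CJ χ mm : ℝ}
    {m1 k1 c1 χ1 u η v σ r θ γ ℓ : ℝ} (hT0 : 0 ≤ T) (hT1 : T < 1) (hh : 0 < h)
    (hΦh : Φ ≤ h) (hS0 : 0 ≤ S) (hR0 : 0 ≤ R) (hM0 : 0 ≤ M) (hP0 : 0 ≤ P)
    (hL0 : 0 ≤ L) (hM : M ≤ (Φ - S - R) + T * (√P * √M))
    (hL : (Φ - S - R) - T * (√P * √M) - 2 * T ^ 2 * P - C ≤ L) (hPV : P ≤ V)
    (hV : (1 - T) * √V ≤ √Φ + √(2 * A0 * L) + η * √h)
    (hS : √S ≤ √((1 + T) * κ) * (√Φ + T * √V) + T * √(CJ * h) + √χ)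
    (hR : √R ≤ √((1 + T) / mm * M) + T * √h)
    (hC : C ≤ γ * h) (hA0 : 0 ≤ A0)
    (hu : 2 * A0 * ℓ ≤ u ^ 2) (hu0 : 0 ≤ u) (hv0 : 0 ≤ v) (hv : 1 + u + η ≤ (1 - T) * v)
    (hk : (1 + T) * κ ≤ k1 ^ 2) (hk0 : 0 ≤ k1) (hc : CJ ≤ c1 ^ 2) (hc0 : 0 ≤ c1)
    (hχ : χ ≤ χ1 ^ 2 * h) (hχ0 : 0 ≤ χ1) (hm1 : (1 + T) / mm ≤ m1 ^ 2) (hm0 : 0 ≤ m1)
    (hσ : k1 * (1 + T * v) + T * c1 + χ1 ≤ σ) (hr : m1 * (1 + T * v) + T ≤ r)
    (hθ : 0 < θ) (hθ2 : T * v ≤ 2 * θ) (hα : ℓ ≤ 1 - σ ^ 2 - r ^ 2)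
    (hfin : ℓ ≤ (1 - σ ^ 2 - r ^ 2) * (1 - T * v / (2 * θ)) - T * v * θ / 2 - 3 * T ^ 2 * v ^ 2 - γ) :
    ℓ * h - (h - Φ) ≤ L := by
  rcases le_or_gt (ℓ * h - (h - Φ)) L with hcon | hcon
  · exact hcon
  have e3 := core_V hT1 hh hΦh hV hA0 (by linarith) hu hu0 hv
  have e4 : √P ≤ v * √h := (Real.sqrt_le_sqrt hPV).trans e3
  have hSs := core_S hT0 hh hΦh hS0 e3 hS hk hk0 hc hc0 hχ hχ0 hσ
  have hAh : Φ - S - R ≤ h := by linarith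
  have e6 := core_M hT0 hh hAh hM0 hM e4
  have hRr := core_R hT0 hh hR0 hM0 hv0 e6 hR hm1 hm0 hr
  exact core_fin hT0 hh hΦh hM0 hP0 hL0 hM hL e4 hv0 hC (by linarith) hθ hθ2 hα hfin

/-- the scalar core with a direct bound of the normal part -/
theorem scal_core2 {T h Φ S R M P V L C A0 mm : ℝ}
    {m1 u η v s r θ γ ℓ : ℝ} (hT0 : 0 ≤ T) (hT1 : T < 1) (hh : 0 < h)
    (hΦh : Φ ≤ h) (hS0 : 0 ≤ S) (hR0 : 0 ≤ R) (hM0 : 0 ≤ M) (hP0 : 0 ≤ P)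
    (hL0 : 0 ≤ L) (hM : M ≤ (Φ - S - R) + T * (√P * √M))
    (hL : (Φ - S - R) - T * (√P * √M) - 2 * T ^ 2 * P - C ≤ L) (hPV : P ≤ V)
    (hV : (1 - T) * √V ≤ √Φ + √(2 * A0 * L) + η * √h)
    (hS : S ≤ s * h)
    (hR : √R ≤ √((1 + T) / mm * M) + T * √h)
    (hC : C ≤ γ * h) (hA0 : 0 ≤ A0)
    (hu : 2 * A0 * ℓ ≤ u ^ 2) (hu0 : 0 ≤ u) (hv0 : 0 ≤ v) (hv : 1 + u + η ≤ (1 - T) * v)
    (hm1 : (1 + T) / mm ≤ m1 ^ 2) (hm0 : 0 ≤ m1) (hr : m1 * (1 + T * v) + T ≤ r)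
    (hθ : 0 < θ) (hθ2 : T * v ≤ 2 * θ) (hα : ℓ ≤ 1 - s - r ^ 2)
    (hfin : ℓ ≤ (1 - s - r ^ 2) * (1 - T * v / (2 * θ)) - T * v * θ / 2 - 3 * T ^ 2 * v ^ 2 - γ) :
    ℓ * h - (h - Φ) ≤ L := by
  rcases le_or_gt (ℓ * h - (h - Φ)) L with hcon | hcon
  · exact hcon
  have e3 := core_V hT1 hh hΦh hV hA0 (by linarith) hu hu0 hv
  have e4 : √P ≤ v * √h := (Real.sqrt_le_sqrt hPV).trans e3
  have hAh : Φ - S - R ≤ h := by linarith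
  have e6 := core_M hT0 hh hAh hM0 hM e4
  have hRr := core_R hT0 hh hR0 hM0 hv0 e6 hR hm1 hm0 hr
  exact core_fin hT0 hh hΦh hM0 hP0 hL0 hM hL e4 hv0 hC (by linarith) hθ hθ2 hα hfin

end Vale.Agent.P224.R2.H460
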