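import Vale.Agent.P224.R2.H460.Dn
import Vale.Agent.P224.R2.H460.Scal

/-!
The lower bound at level T in normalised form.
-/

namespace Vale.Agent.P224.R2.H460

open MeasureTheory Module Function Set Vale.Agent.P224.R2.H470
open scoped RealInnerProductSpace Topology ContDiff

set_option linter.unusedSectionVars false

lemma sqrt_mul_mul {c a b : ℝ} (hc : 0 ≤ c) : √(c * a) * √(c * b) = c * (√a * √b) := by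
  rw [Real.sqrt_mul hc, Real.sqrt_mul hc]
  have := Real.mul_self_sqrt hc
  linear_combination (√a * √b) * this

section

variable {X : Type*} {E : Type*} [NormedAddCommGroup E] [InnerProductSpace ℝ E]
variable [TopologicalSpace X] [MeasurableSpace X] [SecondCountableTopology X]
variable [CompactSpace X] [BorelSpace X] {μ : Measure X} [IsProbabilityMeasure μ] {m : ℕ}
  {p n : X → E} {z : X → E} {T : ℝ}

/-- the inequalities at level T, normalised -/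
theorem nM (h : OneP μ m p n) (h0 : 0 ≤ T) (h1 : T < 1) (hz : Continuous z) {c : ℝ} (hc : 0 ≤ c) :
    c * MM μ m p z T ≤ (c * ph μ m p z T - c * SS μ m p n z T - c * RR μ m p z T)
      + T * (√(c * Pii μ m p n z T) * √(c * MM μ m p z T)) := by
  have k := mul_le_mul_of_nonneg_left (MM_le h h0 h1 hz) hc
  rw [AA_eq h0 h1 h.cp h.cn hz h.np] at k
  rw [sqrt_mul_mul hc]
  linarith

theorem nL (h : OneP μ m p n) (hm : 1 ≤ m) (h0 : 0 ≤ T) (h1 : T < 1) (hz : Continuous z)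
    {J : E →L[ℝ] E} (hJ : ∀ u v, ⟪J u, v⟫ = ⟪u, J v⟫) (hzJ : ∀ x, z x = n x - J (p x))
    {c : ℝ} (hc : 0 ≤ c) :
    (c * ph μ m p z T - c * SS μ m p n z T - c * RR μ m p z T)
      - T * (√(c * Pii μ m p n z T) * √(c * MM μ m p z T)) - 2 * T ^ 2 * (c * Pii μ m p n z T)
      - c * Cr μ m p n z T ≤ c * LL μ m p z T := by
  have k := mul_le_mul_of_nonneg_left (LL_ge h hm h0 h1 hz hJ hzJ) hc
  rw [AA_eq h0 h1 h.cp h.cn hz h.np] at k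
  rw [sqrt_mul_mul hc]
  linarith

theorem nV (h : OneP μ m p n) (hm : 1 ≤ m) (h0 : 0 ≤ T) (h1 : T < 1) (hz : Continuous z)
    {J : E →L[ℝ] E} (hJ : ∀ u v, ⟪J u, v⟫ = ⟪u, J v⟫) (hzJ : ∀ x, z x = n x - J (p x))
    {A0 : ℝ} (hA : 0 ≤ A0) {ε : ℝ} (hε : 0 ≤ ε)
    (hgε : ∫ x, (max (‖z x‖ ^ 2 - A0) 0) ^ 2 ∂μ ≤ ε ^ 2) :
    (1 - T) * √(cw m T * VV μ m p n z T) ≤ √(cw m T * ph μ m p z T)
      + √(2 * A0 * (cw m T * LL μ m p z T)) + √(√(3 * (1 + T) / (1 - T) ^ 3) * ε) := by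
  have hc := cw_pos (m := m) h0 h1
  have k := VV_le h h0 h1 hz hJ hzJ (inv_pos.2 hc).le (dens_of_oneP h hm h0 h1) hA hε hgε
  have k2 := mul_le_mul_of_nonneg_left k (Real.sqrt_nonneg (cw m T))
  have e1 : √(cw m T) * √((cw m T)⁻¹ * (√(3 * (1 + T) / (1 - T) ^ 3) * ε))
      = √(√(3 * (1 + T) / (1 - T) ^ 3) * ε) := by
    rw [← Real.sqrt_mul hc.le, ← mul_assoc, mul_inv_cancel₀ hc.ne', one_mul]
  have e2 : √(2 * A0 * (cw m T * LL μ m p z T)) = √(cw m T) * √(2 * A0 * LL μ m p z T) := by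
    rw [← Real.sqrt_mul hc.le]
    congr 1
    ring
  rw [e2, Real.sqrt_mul hc.le, Real.sqrt_mul hc.le]
  rw [mul_add, mul_add, e1] at k2
  linarith

theorem nS (h : OneP μ m p n) (hm : 1 ≤ m) (h0 : 0 ≤ T) (h1 : T < 1) (hz : Continuous z)
    {J : E →L[ℝ] E} (hJ : ∀ u v, ⟪J u, v⟫ = ⟪u, J v⟫) (hzJ : ∀ x, z x = n x - J (p x))
    {κ : ℝ} (hκ : 0 ≤ κ) (hJκ : ∀ v, ‖J v‖ ^ 2 ≤ κ * m * ‖v‖ ^ 2) {c χ : ℝ}
    (hc' : ∫ x, ⟪J (p x), z x⟫ ^ 2 ∂μ ≤ c)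
    (hχ : cw m T * PI μ p T m (fun u => ‖z u.1‖ ^ 2 * ‖z u.2‖ ^ 2) ≤ χ) :
    √(cw m T * SS μ m p n z T) ≤ √((1 + T) * κ)
      * (√(cw m T * ph μ m p z T) + T * √(cw m T * VV μ m p n z T)) + T * √c + √χ := by
  have hc := cw_pos (m := m) h0 h1
  have k := SS_le h hm h0 h1 hz hJ hzJ hκ hJκ (dens_of_oneP h hm h0 h1)
    (c := (cw m T)⁻¹ * c) (χ := (cw m T)⁻¹ * χ)
    (mul_le_mul_of_nonneg_left hc' (inv_pos.2 hc).le)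
    (by rw [inv_mul_eq_div, le_div_iff₀ hc]; linarith)
  have k2 := mul_le_mul_of_nonneg_left k (Real.sqrt_nonneg (cw m T))
  have e1 : ∀ a, √(cw m T) * √((cw m T)⁻¹ * a) = √a := by
    intro a
    rw [← Real.sqrt_mul hc.le, ← mul_assoc, mul_inv_cancel₀ hc.ne', one_mul]
  rw [Real.sqrt_mul hc.le, Real.sqrt_mul hc.le, Real.sqrt_mul hc.le]
  have e2 : √(cw m T) * (√((1 + T) * κ) * (√(ph μ m p z T) + T * √(VV μ m p n z T))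
      + T * √((cw m T)⁻¹ * c) + √((cw m T)⁻¹ * χ))
      = √((1 + T) * κ) * (√(cw m T) * √(ph μ m p z T) + T * (√(cw m T) * √(VV μ m p n z T)))
        + T * (√(cw m T) * √((cw m T)⁻¹ * c)) + √(cw m T) * √((cw m T)⁻¹ * χ) := by ring
  rw [e2, e1, e1] at k2
  exact k2

theorem nR (h : OneP μ m p n) (hm : 1 ≤ m) (h0 : 0 ≤ T) (h1 : T < 1) (hz : Continuous z) :
    √(cw m T * RR μ m p z T) ≤ √((1 + T) / m * (cw m T * MM μ m p z T))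
      + T * √(∫ x, ‖z x‖ ^ 2 ∂μ) := by
  have hc := cw_pos (m := m) h0 h1
  have k := RR_le h hm h0 h1 hz (inv_pos.2 hc).le (dens_of_oneP h hm h0 h1)
  have k2 := mul_le_mul_of_nonneg_left k (Real.sqrt_nonneg (cw m T))
  have e1 : ∀ a, √(cw m T) * √((cw m T)⁻¹ * a) = √a := by
    intro a
    rw [← Real.sqrt_mul hc.le, ← mul_assoc, mul_inv_cancel₀ hc.ne', one_mul]
  have e2 : √((1 + T) / m * (cw m T * MM μ m p z T))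
      = √(cw m T) * √((1 + T) / m * MM μ m p z T) := by
    rw [← Real.sqrt_mul hc.le]
    congr 1
    ring
  rw [Real.sqrt_mul hc.le, e2]
  have e3 : √(cw m T) * (√((1 + T) / m * MM μ m p z T) + T * √((cw m T)⁻¹ * ∫ x, ‖z x‖ ^ 2 ∂μ))
      = √(cw m T) * √((1 + T) / m * MM μ m p z T)
        + T * (√(cw m T) * √((cw m T)⁻¹ * ∫ x, ‖z x‖ ^ 2 ∂μ)) := by ring
  rw [e3, e1] at k2
  exact k2

/-- the lower bound at level T -/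
theorem level (h : OneP μ m p n) (hm : 1 ≤ m) (h0 : 0 ≤ T) (h1 : T < 1) (hz : Continuous z)
    {J : E →L[ℝ] E} (hJ : ∀ u v, ⟪J u, v⟫ = ⟪u, J v⟫) (hzJ : ∀ x, z x = n x - J (p x))
    {κ A0 ε CJ χ γ η : ℝ} {m1 k1 c1 χ1 u v σ r θ ℓ : ℝ}
    (hh : 0 < ∫ x, ‖z x‖ ^ 2 ∂μ)
    (hκ : 0 ≤ κ) (hJκ : ∀ v, ‖J v‖ ^ 2 ≤ κ * m * ‖v‖ ^ 2) (hA0 : 0 ≤ A0) (hε : 0 ≤ ε)
    (hgε : ∫ x, (max (‖z x‖ ^ 2 - A0) 0) ^ 2 ∂μ ≤ ε ^ 2)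
    (hCJ : ∫ x, ⟪J (p x), z x⟫ ^ 2 ∂μ ≤ CJ * ∫ x, ‖z x‖ ^ 2 ∂μ)
    (hχ' : cw m T * PI μ p T m (fun u => ‖z u.1‖ ^ 2 * ‖z u.2‖ ^ 2) ≤ χ)
    (hC : cw m T * Cr μ m p n z T ≤ γ * ∫ x, ‖z x‖ ^ 2 ∂μ)
    (hη0 : 0 ≤ η) (hη : √(3 * (1 + T) / (1 - T) ^ 3) * ε ≤ η ^ 2 * ∫ x, ‖z x‖ ^ 2 ∂μ)
    (hu : 2 * A0 * ℓ ≤ u ^ 2) (hu0 : 0 ≤ u) (hv0 : 0 ≤ v) (hv : 1 + u + η ≤ (1 - T) * v)
    (hk : (1 + T) * κ ≤ k1 ^ 2) (hk0 : 0 ≤ k1) (hc : CJ ≤ c1 ^ 2) (hc0 : 0 ≤ c1)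
    (hχ : χ ≤ χ1 ^ 2 * ∫ x, ‖z x‖ ^ 2 ∂μ) (hχ0 : 0 ≤ χ1) (hm1 : (1 + T) / m ≤ m1 ^ 2)
    (hm0 : 0 ≤ m1)
    (hσ : k1 * (1 + T * v) + T * c1 + χ1 ≤ σ) (hr : m1 * (1 + T * v) + T ≤ r)
    (hθ : 0 < θ) (hθ2 : T * v ≤ 2 * θ) (hα : ℓ ≤ 1 - σ ^ 2 - r ^ 2)
    (hfin : ℓ ≤ (1 - σ ^ 2 - r ^ 2) * (1 - T * v / (2 * θ)) - T * v * θ / 2 - 3 * T ^ 2 * v ^ 2 - γ) :
    ℓ * (∫ x, ‖z x‖ ^ 2 ∂μ) - ((∫ x, ‖z x‖ ^ 2 ∂μ) - cw m T * ph μ m p z T)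
      ≤ cw m T * LL μ m p z T := by
  have hcp := cw_pos (m := m) h0 h1
  have hc' := hcp.le
  have hΦh : cw m T * ph μ m p z T ≤ ∫ x, ‖z x‖ ^ 2 ∂μ := by
    have := dens_of_oneP h hm h0 h1 (fun x => ‖z x‖ ^ 2) (by fun_prop) (fun x => by positivity)
    have k2 := mul_le_mul_of_nonneg_left this hc'
    rw [← mul_assoc, mul_inv_cancel₀ hcp.ne', one_mul] at k2
    exact k2
  have hS0 : 0 ≤ cw m T * SS μ m p n z T :=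
    mul_nonneg hc' (PI_nonneg h0 h1 _ h.np fun u => sq_nonneg _)
  have hR0 : 0 ≤ cw m T * RR μ m p z T :=
    mul_nonneg hc' (PI_nonneg h0 h1 _ h.np fun u => sq_nonneg _)
  have hVη : (1 - T) * √(cw m T * VV μ m p n z T) ≤ √(cw m T * ph μ m p z T)
      + √(2 * A0 * (cw m T * LL μ m p z T)) + η * √(∫ x, ‖z x‖ ^ 2 ∂μ) := by
    refine (nV h hm h0 h1 hz hJ hzJ hA0 hε hgε).trans ?_
    have := sqrt_le_of_le hh.le hη0 hη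
    linarith
  refine scal_core (κ := κ) (CJ := CJ) (χ := χ) (mm := m) h0 h1 hh hΦh hS0 hR0
    (mul_nonneg hc' (MM_nonneg h0 h1 h.np)) (mul_nonneg hc' (Pii_nonneg h0 h1 h.np))
    (mul_nonneg hc' (LL_nonneg h0 h1 h.np)) (nM h h0 h1 hz hc') (nL h hm h0 h1 hz hJ hzJ hc')
    (mul_le_mul_of_nonneg_left (Pii_le_VV h h0 h1 hz) hc') hVη
    (nS h hm h0 h1 hz hJ hzJ hκ hJκ hCJ hχ') (nR h hm h0 h1 hz) hC hA0 hu hu0 hv0 hv hk hk0 hc hc0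
    hχ hχ0 hm1 hm0 hσ hr hθ hθ2 hα hfin

/-- the lower bound at level T with a direct bound of the normal part -/
theorem level2 (h : OneP μ m p n) (hm : 1 ≤ m) (h0 : 0 ≤ T) (h1 : T < 1) (hz : Continuous z)
    {J : E →L[ℝ] E} (hJ : ∀ u v, ⟪J u, v⟫ = ⟪u, J v⟫) (hzJ : ∀ x, z x = n x - J (p x))
    {A0 ε γ η : ℝ} {m1 u v s r θ ℓ : ℝ}
    (hh : 0 < ∫ x, ‖z x‖ ^ 2 ∂μ) (hA0 : 0 ≤ A0) (hε : 0 ≤ ε)
    (hgε : ∫ x, (max (‖z x‖ ^ 2 - A0) 0) ^ 2 ∂μ ≤ ε ^ 2)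
    (hs : cw m T * SS μ m p n z T ≤ s * ∫ x, ‖z x‖ ^ 2 ∂μ)
    (hC : cw m T * Cr μ m p n z T ≤ γ * ∫ x, ‖z x‖ ^ 2 ∂μ)
    (hη0 : 0 ≤ η) (hη : √(3 * (1 + T) / (1 - T) ^ 3) * ε ≤ η ^ 2 * ∫ x, ‖z x‖ ^ 2 ∂μ)
    (hu : 2 * A0 * ℓ ≤ u ^ 2) (hu0 : 0 ≤ u) (hv0 : 0 ≤ v) (hv : 1 + u + η ≤ (1 - T) * v)
    (hm1 : (1 + T) / m ≤ m1 ^ 2) (hm0 : 0 ≤ m1) (hr : m1 * (1 + T * v) + T ≤ r)
    (hθ : 0 < θ) (hθ2 : T * v ≤ 2 * θ) (hα : ℓ ≤ 1 - s - r ^ 2)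
    (hfin : ℓ ≤ (1 - s - r ^ 2) * (1 - T * v / (2 * θ)) - T * v * θ / 2 - 3 * T ^ 2 * v ^ 2 - γ) :
    ℓ * (∫ x, ‖z x‖ ^ 2 ∂μ) - ((∫ x, ‖z x‖ ^ 2 ∂μ) - cw m T * ph μ m p z T)
      ≤ cw m T * LL μ m p z T := by
  have hcp := cw_pos (m := m) h0 h1
  have hc' := hcp.le
  have hΦh : cw m T * ph μ m p z T ≤ ∫ x, ‖z x‖ ^ 2 ∂μ := by
    have := dens_of_oneP h hm h0 h1 (fun x => ‖z x‖ ^ 2) (by fun_prop) (fun x => by positivity)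
    have k2 := mul_le_mul_of_nonneg_left this hc'
    rw [← mul_assoc, mul_inv_cancel₀ hcp.ne', one_mul] at k2
    exact k2
  have hS0 : 0 ≤ cw m T * SS μ m p n z T :=
    mul_nonneg hc' (PI_nonneg h0 h1 _ h.np fun u => sq_nonneg _)
  have hR0 : 0 ≤ cw m T * RR μ m p z T :=
    mul_nonneg hc' (PI_nonneg h0 h1 _ h.np fun u => sq_nonneg _)
  have hVη : (1 - T) * √(cw m T * VV μ m p n z T) ≤ √(cw m T * ph μ m p z T)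
      + √(2 * A0 * (cw m T * LL μ m p z T)) + η * √(∫ x, ‖z x‖ ^ 2 ∂μ) := by
    refine (nV h hm h0 h1 hz hJ hzJ hA0 hε hgε).trans ?_
    have := sqrt_le_of_le hh.le hη0 hη
    linarith
  exact scal_core2 (mm := m) h0 h1 hh hΦh hS0 hR0
    (mul_nonneg hc' (MM_nonneg h0 h1 h.np)) (mul_nonneg hc' (Pii_nonneg h0 h1 h.np))
    (mul_nonneg hc' (LL_nonneg h0 h1 h.np)) (nM h h0 h1 hz hc') (nL h hm h0 h1 hz hJ hzJ hc')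
    (mul_le_mul_of_nonneg_left (Pii_le_VV h h0 h1 hz) hc') hVη hs (nR h hm h0 h1 hz) hC hA0 hu hu0
    hv0 hv hm1 hm0 hr hθ hθ2 hα hfin

end

end Vale.Agent.P224.R2.H460
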