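import Vale.Agent.P224.R2.H460.Lvl

/-!
The lower bound at level T with the separated normal part.
-/

namespace Vale.Agent.P224.R2.H460

open MeasureTheory Module Function Set Vale.Agent.P224.R2.H470
open scoped RealInnerProductSpace Topology ContDiff

set_option linter.unusedSectionVars false

/-- the scalar core with the normal part as a function of the mixed square -/
theorem scal_core3 {T h Φ S R M P V L C mm : ℝ}
    {m1 v s r θ γ ℓ : ℝ} (hT0 : 0 ≤ T) (hh : 0 < h)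
    (hΦh : Φ ≤ h) (hS0 : 0 ≤ S) (hR0 : 0 ≤ R) (hM0 : 0 ≤ M) (hP0 : 0 ≤ P)
    (hL0 : 0 ≤ L) (hM : M ≤ (Φ - S - R) + T * (√P * √M))
    (hL : (Φ - S - R) - T * (√P * √M) - 2 * T ^ 2 * P - C ≤ L) (hPV : P ≤ V)
    (hV : L ≤ ℓ * h → √V ≤ v * √h) (hS : √V ≤ v * √h → S ≤ s * h)
    (hR : √R ≤ √((1 + T) / mm * M) + T * √h)
    (hC : C ≤ γ * h) (hv0 : 0 ≤ v)
    (hm1 : (1 + T) / mm ≤ m1 ^ 2) (hm0 : 0 ≤ m1) (hr : m1 * (1 + T * v) + T ≤ r)
    (hθ : 0 < θ) (hθ2 : T * v ≤ 2 * θ) (hα : ℓ ≤ 1 - s - r ^ 2)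
    (hfin : ℓ ≤ (1 - s - r ^ 2) * (1 - T * v / (2 * θ)) - T * v * θ / 2 - 3 * T ^ 2 * v ^ 2 - γ) :
    ℓ * h - (h - Φ) ≤ L := by
  rcases le_or_gt (ℓ * h - (h - Φ)) L with hcon | hcon
  · exact hcon
  have e3 := hV (by linarith)
  have e4 : √P ≤ v * √h := (Real.sqrt_le_sqrt hPV).trans e3
  have hSs := hS e3
  have hAh : Φ - S - R ≤ h := by linarith
  have e6 := core_M hT0 hh hAh hM0 hM e4
  have hRr := core_R hT0 hh hR0 hM0 hv0 e6 hR hm1 hm0 hr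
  exact core_fin hT0 hh hΦh hM0 hP0 hL0 hM hL e4 hv0 hC (by linarith) hθ hθ2 hα hfin

section

variable {X : Type*} {E : Type*} [NormedAddCommGroup E] [InnerProductSpace ℝ E]
variable [TopologicalSpace X] [MeasurableSpace X] [SecondCountableTopology X]
variable [CompactSpace X] [BorelSpace X] {μ : Measure X} {m : ℕ}
  {p n : X → E} {z : X → E} {T : ℝ}

/-- the part of the normal product with the linear field -/
noncomputable def S1 (μ : Measure X) (m : ℕ) (p z : X → E) (J : E →L[ℝ] E) (T : ℝ) : ℝ :=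
  PI μ p T m (fun u => ⟪J (p u.2), z u.1⟫ ^ 2)

section fin

variable [IsFiniteMeasure μ]

/-- the kernel of exponent m in terms of the one of exponent m + 1 -/
lemma PI_shift (h0 : 0 ≤ T) (h1 : T < 1) (hp : Continuous p) (np : ∀ y, ‖p y‖ = 1)
    {G : X × X → ℝ} (hG : Continuous G) :
    PI μ p T m G = (1 - T ^ 2) * PI μ p T (m + 1) G
      - T * PI μ p T (m + 1) (fun u => (⟪p u.1, p u.2⟫ - T) * G u) := by
  rw [← PI_mul, ← PI_mul, ← PI_sub h0 h1 _ hp np (by fun_prop) (by fun_prop)]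
  unfold PI
  refine integral_congr_ae (Filter.Eventually.of_forall fun u => ?_)
  simp only
  have h3 := kr_mul (T := T) m (one_sub_pos h0 h1 (np u.1) (np u.2))
  rw [← h3]
  ring

/-- the weighted mean of the centred product -/
theorem gY_le (h : OneP μ m p n) (hm : 1 ≤ m) (h0 : 0 ≤ T) (h1 : T < 1) (hz : Continuous z)
    {J : E →L[ℝ] E} {κ : ℝ} (hκ : 0 ≤ κ) (hJκ : ∀ v, ‖J v‖ ^ 2 ≤ κ * m * ‖v‖ ^ 2)
    {g : X → ℝ} (hg : Continuous g) {c : ℝ} (hc : PI μ p T (m + 1) (fun u => g u.1 ^ 2) ≤ c) :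
    |PI μ p T m (fun u => g u.1 * Y2 p (fun x => J (z x)) T u)|
      ≤ T * (√c * (√κ * (√(VV μ m p n z T)
        + (1 + T) * (√(ph μ m p z T) + T * √(VV μ m p n z T))))) := by
  have hp := h.cp
  have hn := h.cn
  have hm0 : (0 : ℝ) < m := by exact_mod_cast hm
  have hJz : Continuous fun x => J (z x) := by fun_prop
  have cY := cont_Y2 (T := T) hp hJz
  have cS := cont_TS hp hn hJz
  have r1 := PI_row1 (T := T) h hm h0 h1 hJz hg
  have a1 := PI_cs (μ := μ) h0 h1 (m + 1) hp h.np (G := fun u => g u.1)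
    (H := TS p n (fun x => J (z x))) (by fun_prop) cS
  have a2 := PI_cs (μ := μ) h0 h1 (m + 1) hp h.np (G := fun u => g u.1)
    (H := fun u => (⟪p u.1, p u.2⟫ - T) * Y2 p (fun x => J (z x)) T u) (by fun_prop) (by fun_prop)
  have kc : √(PI μ p T (m + 1) (fun u => g u.1 ^ 2)) ≤ √c := Real.sqrt_le_sqrt hc
  have kS : √(PI μ p T (m + 1) (fun u => TS p n (fun x => J (z x)) u ^ 2))
      ≤ √κ * √(VV μ m p n z T) := by
    rw [← Real.sqrt_mul hκ]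
    refine Real.sqrt_le_sqrt ?_
    have e1 := Pii_le_VV h h0 h1 hJz
    have e2 : VV μ m p n (fun x => J (z x)) T ≤ κ * m * VV μ m p n z T := by
      unfold VV
      have e3 : PI μ p T (m + 1) (fun u => ‖J (z u.1)‖ ^ 2 * ⟪p u.1, n u.2⟫ ^ 2)
          ≤ κ * m * PI μ p T (m + 1) (fun u => ‖z u.1‖ ^ 2 * ⟪p u.1, n u.2⟫ ^ 2) := by
        rw [← PI_mul]
        refine PI_mono h0 h1 _ hp h.np (by fun_prop) (by fun_prop) fun u => ?_
        have := mul_le_mul_of_nonneg_right (hJκ (z u.1)) (sq_nonneg ⟪p u.1, n u.2⟫)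
        linarith
      have := mul_le_mul_of_nonneg_left e3 hm0.le
      linarith
    have e4 : (m : ℝ) * PI μ p T (m + 1) (fun u => TS p n (fun x => J (z x)) u ^ 2)
        ≤ m * (κ * VV μ m p n z T) := by
      have := e1.trans e2
      unfold Pii at this
      linarith
    exact le_of_mul_le_mul_left e4 hm0
  have kM : √(PI μ p T (m + 1) (fun u => ((⟪p u.1, p u.2⟫ - T) * Y2 p (fun x => J (z x)) T u) ^ 2))
      ≤ (1 + T) * (√κ * (√(ph μ m p z T) + T * √(VV μ m p n z T))) := by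
    have e1 : PI μ p T (m + 1) (fun u => ((⟪p u.1, p u.2⟫ - T) * Y2 p (fun x => J (z x)) T u) ^ 2)
        ≤ (1 + T) ^ 2 * PI μ p T (m + 1) (fun u => Y2 p (fun x => J (z x)) T u ^ 2) := by
      rw [← PI_mul]
      refine PI_mono h0 h1 _ hp h.np (by fun_prop) (by fun_prop) fun u => ?_
      rw [mul_pow]
      refine mul_le_mul_of_nonneg_right ?_ (sq_nonneg _)
      have h3 := abs_le.1 (abs_real_inner_le_norm (p u.1) (p u.2))
      rw [h.np, h.np, one_mul] at h3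
      refine sq_le_sq' ?_ ?_
      · linarith
      · linarith
    have e2 := MM_map_le h h0 h1 hz (J := J) (K := κ * m) (by positivity) hJκ
    have e3 : PI μ p T (m + 1) (fun u => Y2 p (fun x => J (z x)) T u ^ 2)
        = (m : ℝ)⁻¹ * MM μ m p (fun x => J (z x)) T := by
      unfold MM
      rw [inv_mul_cancel_left₀ hm0.ne']
    rw [e3] at e1
    have e4 : √((m : ℝ)⁻¹ * MM μ m p (fun x => J (z x)) T)
        ≤ √κ * (√(ph μ m p z T) + T * √(VV μ m p n z T)) := by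
      rw [Real.sqrt_mul (by positivity)]
      refine (mul_le_mul_of_nonneg_left e2 (Real.sqrt_nonneg _)).trans (le_of_eq ?_)
      rw [← mul_assoc, ← Real.sqrt_mul (by positivity)]
      congr 2
      field_simp
    refine (Real.sqrt_le_sqrt e1).trans ?_
    rw [Real.sqrt_mul (by positivity), Real.sqrt_sq (by linarith)]
    exact mul_le_mul_of_nonneg_left e4 (by linarith)
  have b1 : |PI μ p T (m + 1) (fun u => g u.1 * Y2 p (fun x => J (z x)) T u)|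
      ≤ T * (√c * (√κ * √(VV μ m p n z T))) := by
    rw [r1, abs_mul, abs_neg, abs_of_nonneg h0]
    refine mul_le_mul_of_nonneg_left (a1.trans ?_) h0
    exact mul_le_mul kc kS (Real.sqrt_nonneg _) (Real.sqrt_nonneg _)
  have b2 : |PI μ p T (m + 1) (fun u => (⟪p u.1, p u.2⟫ - T)
      * (g u.1 * Y2 p (fun x => J (z x)) T u))|
      ≤ √c * ((1 + T) * (√κ * (√(ph μ m p z T) + T * √(VV μ m p n z T)))) := by
    have e1 : (fun u : X × X => (⟪p u.1, p u.2⟫ - T) * (g u.1 * Y2 p (fun x => J (z x)) T u))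
        = fun u => g u.1 * ((⟪p u.1, p u.2⟫ - T) * Y2 p (fun x => J (z x)) T u) := by
      ext u; ring
    rw [e1]
    exact a2.trans (mul_le_mul kc kM (Real.sqrt_nonneg _) (Real.sqrt_nonneg _))
  rw [PI_shift h0 h1 hp h.np (by fun_prop)]
  have hk : 0 < 1 - T ^ 2 := by nlinarith
  have t1 : |(1 - T ^ 2) * PI μ p T (m + 1) (fun u => g u.1 * Y2 p (fun x => J (z x)) T u)|
      ≤ T * (√c * (√κ * √(VV μ m p n z T))) := by
    rw [abs_mul, abs_of_pos hk]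
    have h3 : (1 - T ^ 2) * |PI μ p T (m + 1) (fun u => g u.1 * Y2 p (fun x => J (z x)) T u)|
        ≤ 1 * |PI μ p T (m + 1) (fun u => g u.1 * Y2 p (fun x => J (z x)) T u)| :=
      mul_le_mul_of_nonneg_right (by nlinarith) (abs_nonneg _)
    linarith
  have t2 : |T * PI μ p T (m + 1) (fun u => (⟪p u.1, p u.2⟫ - T)
      * (g u.1 * Y2 p (fun x => J (z x)) T u))|
      ≤ T * (√c * ((1 + T) * (√κ * (√(ph μ m p z T) + T * √(VV μ m p n z T))))) := by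
    rw [abs_mul, abs_of_nonneg h0]
    exact mul_le_mul_of_nonneg_left b2 h0
  refine (abs_sub _ _).trans ?_
  linarith

/-- the separated bound of the part with the linear field -/
theorem S1_le (h : OneP μ m p n) (hm : 1 ≤ m) (h0 : 0 ≤ T) (h1 : T < 1) (hz : Continuous z)
    {J : E →L[ℝ] E} (hJ : ∀ u v, ⟪J u, v⟫ = ⟪u, J v⟫)
    {κ : ℝ} (hκ : 0 ≤ κ) (hJκ : ∀ v, ‖J v‖ ^ 2 ≤ κ * m * ‖v‖ ^ 2)
    {w : ℝ} (hw : Dens μ p m T w) {c : ℝ} (hc : w * ∫ x, ⟪J (p x), z x⟫ ^ 2 ∂μ ≤ c) :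
    S1 μ m p z J T ≤ (1 + T) * κ * (√(ph μ m p z T) + T * √(VV μ m p n z T)) ^ 2
      + 2 * T ^ 2 * (√(c / (1 - T)) * (√κ * (√(VV μ m p n z T)
        + (1 + T) * (√(ph μ m p z T) + T * √(VV μ m p n z T))))) + T ^ 2 * c := by
  have hp := h.cp
  have hn := h.cn
  have hm0 : (0 : ℝ) < m := by exact_mod_cast hm
  have h1T : 0 < 1 - T := by linarith
  have hJz : Continuous fun x => J (z x) := by fun_prop
  have cY := cont_Y2 (T := T) hp hJz
  set g : X → ℝ := fun x => ⟪J (p x), z x⟫ with hg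
  have cg : Continuous g := by fun_prop
  have kg : PI μ p T m (fun u => g u.1 ^ 2) ≤ c :=
    (hw (fun x => g x ^ 2) (by fun_prop) fun x => sq_nonneg _).trans hc
  have kg1 : PI μ p T (m + 1) (fun u => g u.1 ^ 2) ≤ c / (1 - T) := by
    rw [le_div_iff₀ h1T]
    have e1 := PI_succ_le (μ := μ) h0 h1 m hp h.np (G := fun u => g u.1 ^ 2) (by fun_prop)
      fun u => sq_nonneg _
    linarith
  have k1 := gY_le h hm h0 h1 hz hκ hJκ cg kg1
  have k3 : PI μ p T m (fun u => Y2 p (fun x => J (z x)) T u ^ 2)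
      ≤ (1 + T) * κ * (√(ph μ m p z T) + T * √(VV μ m p n z T)) ^ 2 := by
    have e1 := PI_le_succ (μ := μ) h0 h1 m hp h.np (G := fun u => Y2 p (fun x => J (z x)) T u ^ 2)
      (by fun_prop) fun u => sq_nonneg _
    have e2 := MM_map_le h h0 h1 hz (J := J) (K := κ * m) (by positivity) hJκ
    have e5 := pow_le_pow_left₀ (Real.sqrt_nonneg _) e2 2
    rw [Real.sq_sqrt (MM_nonneg h0 h1 h.np), mul_pow, Real.sq_sqrt (by positivity)] at e5
    have e3 : (m : ℝ) * PI μ p T m (fun u => Y2 p (fun x => J (z x)) T u ^ 2)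
        ≤ m * ((1 + T) * κ * (√(ph μ m p z T) + T * √(VV μ m p n z T)) ^ 2) := by
      have e6 := mul_le_mul_of_nonneg_left e1 hm0.le
      have e7 := mul_le_mul_of_nonneg_left e5 (show 0 ≤ 1 + T by linarith)
      unfold MM at e7
      linarith
    exact le_of_mul_le_mul_left e3 hm0
  have e1 : (fun u : X × X => ⟪J (p u.2), z u.1⟫ ^ 2)
      = fun u => (Y2 p (fun x => J (z x)) T u ^ 2
        + 2 * T * (g u.1 * Y2 p (fun x => J (z x)) T u)) + T ^ 2 * g u.1 ^ 2 := by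
    ext u
    simp only [hg, Y2, inner_sub_left, real_inner_smul_left, hJ]
    ring
  unfold S1
  rw [e1, PI_add h0 h1 _ hp h.np (by fun_prop) (by fun_prop),
    PI_add h0 h1 _ hp h.np (by fun_prop) (by fun_prop), PI_mul, PI_mul]
  have k4 := mul_le_mul_of_nonneg_left ((le_abs_self _).trans k1) (show 0 ≤ 2 * T by positivity)
  have k5 := mul_le_mul_of_nonneg_left kg (sq_nonneg T)
  linarith

end fin

variable [IsProbabilityMeasure μ]

/-- the normalised separated bound, given the bound of the mixed square -/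
theorem nS1 (h : OneP μ m p n) (hm : 1 ≤ m) (h0 : 0 ≤ T) (h1 : T < 1) (hz : Continuous z)
    {J : E →L[ℝ] E} (hJ : ∀ u v, ⟪J u, v⟫ = ⟪u, J v⟫)
    {κ : ℝ} (hκ : 0 ≤ κ) (hJκ : ∀ v, ‖J v‖ ^ 2 ≤ κ * m * ‖v‖ ^ 2) {H c κ1 c1 v : ℝ} (hH : 0 ≤ H)
    (hΦ : cw m T * ph μ m p z T ≤ H) (hV : √(cw m T * VV μ m p n z T) ≤ v * √H)
    (hc : ∫ x, ⟪J (p x), z x⟫ ^ 2 ∂μ ≤ c * H) (hκ1 : κ ≤ κ1 ^ 2) (hκ0 : 0 ≤ κ1)
    (hc1 : c ≤ c1 ^ 2 * (1 - T)) (hc0 : 0 ≤ c1) :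
    cw m T * S1 μ m p z J T ≤ ((1 + T) * κ * (1 + T * v) ^ 2
      + 2 * T ^ 2 * (c1 * κ1 * (v + (1 + T) * (1 + T * v))) + T ^ 2 * c) * H := by
  have hcp := cw_pos (m := m) h0 h1
  have h1T : 0 < 1 - T := by linarith
  have hk := S1_le h hm h0 h1 hz hJ hκ hJκ (dens_of_oneP h hm h0 h1)
    (c := (cw m T)⁻¹ * (c * H)) (mul_le_mul_of_nonneg_left hc (inv_pos.2 hcp).le)
  have k := mul_le_mul_of_nonneg_left hk hcp.le
  set Φ := ph μ m p z T with hΦd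
  set V := VV μ m p n z T with hVd
  have sΦ : √(cw m T) * √Φ ≤ √H := by
    rw [← Real.sqrt_mul hcp.le]
    exact Real.sqrt_le_sqrt hΦ
  have sV : √(cw m T) * √V ≤ v * √H := by
    rw [← Real.sqrt_mul hcp.le]
    exact hV
  have hs := Real.mul_self_sqrt hcp.le
  have hsH := Real.mul_self_sqrt hH
  have ec : cw m T * ((cw m T)⁻¹ * (c * H)) = c * H := by
    rw [← mul_assoc, mul_inv_cancel₀ hcp.ne', one_mul]
  have n0 : 0 ≤ √(cw m T) * √Φ := by positivity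
  have n1 : 0 ≤ √(cw m T) * √V := by positivity
  -- the three pieces
  have p1 : cw m T * ((1 + T) * κ * (√Φ + T * √V) ^ 2) ≤ (1 + T) * κ * (1 + T * v) ^ 2 * H := by
    have e1 : cw m T * ((1 + T) * κ * (√Φ + T * √V) ^ 2)
        = (1 + T) * κ * (√(cw m T) * √Φ + T * (√(cw m T) * √V)) ^ 2 := by
      linear_combination -((1 + T) * κ * (√Φ + T * √V) ^ 2) * hs
    have e2 : √(cw m T) * √Φ + T * (√(cw m T) * √V) ≤ (1 + T * v) * √H := by
      have := mul_le_mul_of_nonneg_left sV h0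
      linarith
    have e3 := pow_le_pow_left₀ (by positivity) e2 2
    have e4 := mul_le_mul_of_nonneg_left e3 (show 0 ≤ (1 + T) * κ by positivity)
    rw [e1]
    refine e4.trans (le_of_eq ?_)
    rw [mul_pow, Real.sq_sqrt hH]
    ring
  have hcs : √(cw m T) * √((cw m T)⁻¹ * (c * H) / (1 - T)) ≤ c1 * √H := by
    rw [← Real.sqrt_mul hcp.le]
    refine sqrt_le_of_le hH hc0 ?_
    rw [mul_div_assoc', ec, div_le_iff₀ h1T]
    have := mul_le_mul_of_nonneg_right hc1 hH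
    linarith
  have hks : √κ ≤ κ1 := by
    rw [Real.sqrt_le_left hκ0]
    exact hκ1
  have p2 : cw m T * (2 * T ^ 2 * (√((cw m T)⁻¹ * (c * H) / (1 - T))
      * (√κ * (√V + (1 + T) * (√Φ + T * √V)))))
      ≤ 2 * T ^ 2 * (c1 * κ1 * (v + (1 + T) * (1 + T * v))) * H := by
    have e1 : cw m T * (2 * T ^ 2 * (√((cw m T)⁻¹ * (c * H) / (1 - T))
        * (√κ * (√V + (1 + T) * (√Φ + T * √V)))))
        = 2 * T ^ 2 * ((√(cw m T) * √((cw m T)⁻¹ * (c * H) / (1 - T)))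
          * (√κ * (√(cw m T) * √V + (1 + T) * (√(cw m T) * √Φ + T * (√(cw m T) * √V))))) := by
      linear_combination -(2 * T ^ 2 * (√((cw m T)⁻¹ * (c * H) / (1 - T))
        * (√κ * (√V + (1 + T) * (√Φ + T * √V))))) * hs
    rw [e1]
    have e2 : √(cw m T) * √V + (1 + T) * (√(cw m T) * √Φ + T * (√(cw m T) * √V))
        ≤ (v + (1 + T) * (1 + T * v)) * √H := by
      have h3 := mul_le_mul_of_nonneg_left sV h0
      have h4 : √(cw m T) * √Φ + T * (√(cw m T) * √V) ≤ (1 + T * v) * √H := by linarith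
      have h5 := mul_le_mul_of_nonneg_left h4 (show 0 ≤ 1 + T by linarith)
      linarith
    have e3 : √κ * (√(cw m T) * √V + (1 + T) * (√(cw m T) * √Φ + T * (√(cw m T) * √V)))
        ≤ κ1 * ((v + (1 + T) * (1 + T * v)) * √H) :=
      mul_le_mul hks e2 (by positivity) hκ0
    have e4 := mul_le_mul hcs e3 (by positivity) (by positivity)
    have e5 := mul_le_mul_of_nonneg_left e4 (show 0 ≤ 2 * T ^ 2 by positivity)
    refine e5.trans (le_of_eq ?_)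
    linear_combination (2 * T ^ 2 * (c1 * κ1 * (v + (1 + T) * (1 + T * v)))) * hsH
  have p3 : cw m T * (T ^ 2 * ((cw m T)⁻¹ * (c * H))) = T ^ 2 * c * H := by
    rw [show cw m T * (T ^ 2 * ((cw m T)⁻¹ * (c * H)))
      = T ^ 2 * (cw m T * ((cw m T)⁻¹ * (c * H))) by ring, ec]
    ring
  rw [mul_add, mul_add, p3] at k
  linarith

/-- the lower bound at level T with the separated normal part -/
theorem level3 (h : OneP μ m p n) (hm : 1 ≤ m) (h0 : 0 ≤ T) (h1 : T < 1) (hz : Continuous z)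
    {J : E →L[ℝ] E} (hJ : ∀ u v, ⟪J u, v⟫ = ⟪u, J v⟫) (hzJ : ∀ x, z x = n x - J (p x))
    {κ A0 ε c Xs γ η : ℝ} {m1 κ1 c1 u v s r θ ℓ : ℝ}
    (hh : 0 < ∫ x, ‖z x‖ ^ 2 ∂μ)
    (hκ : 0 ≤ κ) (hJκ : ∀ v, ‖J v‖ ^ 2 ≤ κ * m * ‖v‖ ^ 2) (hA0 : 0 ≤ A0) (hε : 0 ≤ ε)
    (hgε : ∫ x, (max (‖z x‖ ^ 2 - A0) 0) ^ 2 ∂μ ≤ ε ^ 2)
    (hc : ∫ x, ⟪J (p x), z x⟫ ^ 2 ∂μ ≤ c * ∫ x, ‖z x‖ ^ 2 ∂μ)
    (hX : cw m T * SS μ m p n z T ≤ cw m T * S1 μ m p z J T + Xs * ∫ x, ‖z x‖ ^ 2 ∂μ)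
    (hC : cw m T * Cr μ m p n z T ≤ γ * ∫ x, ‖z x‖ ^ 2 ∂μ)
    (hη0 : 0 ≤ η) (hη : √(3 * (1 + T) / (1 - T) ^ 3) * ε ≤ η ^ 2 * ∫ x, ‖z x‖ ^ 2 ∂μ)
    (hu : 2 * A0 * ℓ ≤ u ^ 2) (hu0 : 0 ≤ u) (hv0 : 0 ≤ v) (hv : 1 + u + η ≤ (1 - T) * v)
    (hκ1 : κ ≤ κ1 ^ 2) (hκ0 : 0 ≤ κ1) (hc1 : c ≤ c1 ^ 2 * (1 - T)) (hc0 : 0 ≤ c1)
    (hm1 : (1 + T) / m ≤ m1 ^ 2) (hm0 : 0 ≤ m1)
    (hs : (1 + T) * κ * (1 + T * v) ^ 2 + 2 * T ^ 2 * (c1 * κ1 * (v + (1 + T) * (1 + T * v)))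
      + T ^ 2 * c + Xs ≤ s) (hr : m1 * (1 + T * v) + T ≤ r)
    (hθ : 0 < θ) (hθ2 : T * v ≤ 2 * θ) (hα : ℓ ≤ 1 - s - r ^ 2)
    (hfin : ℓ ≤ (1 - s - r ^ 2) * (1 - T * v / (2 * θ)) - T * v * θ / 2 - 3 * T ^ 2 * v ^ 2 - γ) :
    ℓ * (∫ x, ‖z x‖ ^ 2 ∂μ) - ((∫ x, ‖z x‖ ^ 2 ∂μ) - cw m T * ph μ m p z T)
      ≤ cw m T * LL μ m p z T := by
  have hcp := cw_pos (m := m) h0 h1
  have hc' := hcp.le
  have hΦh : cw m T * ph μ m p z T ≤ ∫ x, ‖z x‖ ^ 2 ∂μ := by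
    have := dens_of_oneP h hm h0 h1 (fun x => ‖z x‖ ^ 2) (by fun_prop) (fun x => by positivity)
    have k2 := mul_le_mul_of_nonneg_left this hc'
    rw [← mul_assoc, mul_inv_cancel₀ hcp.ne', one_mul] at k2
    exact k2
  have hS0 : 0 ≤ cw m T * SS μ m p n z T :=
    mul_nonneg hc' (PI_nonneg h0 h1 _ h.np fun u => sq_nonneg _)
  have hR0 : 0 ≤ cw m T * RR μ m p z T :=
    mul_nonneg hc' (PI_nonneg h0 h1 _ h.np fun u => sq_nonneg _)
  have hL0 := mul_nonneg hc' (LL_nonneg (μ := μ) (m := m) (z := z) h0 h1 h.np)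
  have hVη : (1 - T) * √(cw m T * VV μ m p n z T) ≤ √(cw m T * ph μ m p z T)
      + √(2 * A0 * (cw m T * LL μ m p z T)) + η * √(∫ x, ‖z x‖ ^ 2 ∂μ) := by
    refine (nV h hm h0 h1 hz hJ hzJ hA0 hε hgε).trans ?_
    have := sqrt_le_of_le hh.le hη0 hη
    linarith
  refine scal_core3 (mm := m) (v := v) (s := s) (ℓ := ℓ) h0 hh hΦh hS0 hR0
    (mul_nonneg hc' (MM_nonneg h0 h1 h.np)) (mul_nonneg hc' (Pii_nonneg h0 h1 h.np))
    hL0 (nM h h0 h1 hz hc') (nL h hm h0 h1 hz hJ hzJ hc')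
    (mul_le_mul_of_nonneg_left (Pii_le_VV h h0 h1 hz) hc') ?_ ?_ (nR h hm h0 h1 hz) hC hv0
    hm1 hm0 hr hθ hθ2 hα hfin
  · intro hLl
    exact core_V h1 hh hΦh hVη hA0 hLl hu hu0 hv
  · intro hV
    have k1 := nS1 h hm h0 h1 hz hJ hκ hJκ hh.le hΦh hV hc hκ1 hκ0 hc1 hc0
    refine (hX.trans (add_le_add_left k1 _)).trans ?_
    rw [← add_mul]
    exact mul_le_mul_of_nonneg_right hs hh.le

end

end Vale.Agent.P224.R2.H460
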