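import Vale.Agent.P224.R2.H460.Lev

/-!
Further rows at level T: the quadratic multiplier and the cubic field.
-/

namespace Vale.Agent.P224.R2.H460

open MeasureTheory Module Function Set Vale.Agent.P224.R2.H470
open scoped RealInnerProductSpace Topology ContDiff

set_option linter.unusedSectionVars false

section

variable {X : Type*} {E : Type*} [NormedAddCommGroup E] [InnerProductSpace ℝ E]
variable [TopologicalSpace X] [MeasurableSpace X]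
variable [CompactSpace X] [BorelSpace X] {μ : Measure X} [IsFiniteMeasure μ] {m : ℕ} {p n : X → E}

/-- the general row: a field `f(y) v^(-m) b` -/
theorem row_gen (h : OneP μ m p n) {T : ℝ} (h0 : 0 ≤ T) (h1 : T < 1) {x : E} (hx : ‖x‖ = 1)
    (b : E) {f : E → ℝ} {f' : E → E →L[ℝ] ℝ} (hf : ContDiff ℝ ∞ f)
    (hd : ∀ u, HasFDerivAt f (f' u) u) (hc : Continuous fun y => f' (p y) (tg p n y b)) :
    m * ∫ y, kr T (m + 1) ⟪x, p y⟫ * (f (p y) * (⟪p y - T • x, b⟫ + T * (⟪x, n y⟫ * ⟪n y, b⟫))) ∂μ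
      = ∫ y, kr T m ⟪x, p y⟫ * f' (p y) (tg p n y b) ∂μ := by
  have hp := h.cp
  have hn := h.cn
  have hcf : Continuous f := hf.continuous
  have hcf' : Continuous fun y => f (p y) := hcf.comp hp
  have hk : ∀ q, Continuous fun y => kr T q ⟪x, p y⟫ := fun q => continuous_kr h0 h1 q hx hp h.np
  have hr := h.r1 (fun u => f u * kr T m ⟪x, u⟫)
    (fun u hu => hf.contDiffAt.mul (contDiffAt_kr (T := T) m (one_sub_pos h0 h1 hx hu))) b
  have e1 : ∀ y, fderiv ℝ (fun u : E => f u * kr T m ⟪x, u⟫) (p y) (tg p n y b)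
      = f (p y) * (m * T * kr T (m + 1) ⟪x, p y⟫ * ⟪x, tg p n y b⟫)
        + kr T m ⟪x, p y⟫ * f' (p y) (tg p n y b) := by
    intro y
    have h6 : HasFDerivAt (fun u : E => f u * kr T m ⟪x, u⟫) _ (p y) :=
      (hd (p y)).mul (hasFDerivAt_kr m (one_sub_pos h0 h1 hx (h.np y)))
    rw [h6.fderiv]
    simp
  simp only [e1] at hr
  have k1 := hk (m + 1)
  have k2 := hk m
  have ctg : Continuous fun y => tg p n y b := by unfold tg; fun_prop
  have i1 : Integrable (fun y => f (p y) * (m * T * kr T (m + 1) ⟪x, p y⟫ * ⟪x, tg p n y b⟫)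
        + kr T m ⟪x, p y⟫ * f' (p y) (tg p n y b)) μ :=
    int_of_cont ((hcf'.mul (by fun_prop)).add (k2.mul hc))
  have i2 : Integrable (fun y => ⟪p y, b⟫ * (f (p y) * kr T m ⟪x, p y⟫)) μ :=
    int_of_cont (by fun_prop)
  have i3 : Integrable (fun y => kr T (m + 1) ⟪x, p y⟫ * (f (p y) * (⟪p y - T • x, b⟫
      + T * (⟪x, n y⟫ * ⟪n y, b⟫)))) μ := int_of_cont (by fun_prop)
  have i5 : Integrable (fun y => kr T m ⟪x, p y⟫ * f' (p y) (tg p n y b)) μ :=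
    int_of_cont (k2.mul hc)
  have h2 : ∫ y, (f (p y) * (m * T * kr T (m + 1) ⟪x, p y⟫ * ⟪x, tg p n y b⟫)
        + kr T m ⟪x, p y⟫ * f' (p y) (tg p n y b)
      - m * (⟪p y, b⟫ * (f (p y) * kr T m ⟪x, p y⟫))) ∂μ = 0 := by
    rw [integral_sub i1 (i2.const_mul _), integral_const_mul, hr, sub_self]
  have h3 : ∀ y, f (p y) * (m * T * kr T (m + 1) ⟪x, p y⟫ * ⟪x, tg p n y b⟫)
        + kr T m ⟪x, p y⟫ * f' (p y) (tg p n y b)
      - m * (⟪p y, b⟫ * (f (p y) * kr T m ⟪x, p y⟫))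
      = kr T m ⟪x, p y⟫ * f' (p y) (tg p n y b)
        - m * (kr T (m + 1) ⟪x, p y⟫ * (f (p y) * (⟪p y - T • x, b⟫
      + T * (⟪x, n y⟫ * ⟪n y, b⟫)))) := by
    intro y
    have hkm := kr_mul (T := T) m (one_sub_pos h0 h1 hx (h.np y))
    have e2 : ⟪x, tg p n y b⟫ = ⟪x, b⟫ - ⟪p y, b⟫ * ⟪x, p y⟫ - ⟪n y, b⟫ * ⟪x, n y⟫ := by
      simp only [tg, inner_sub_right, real_inner_smul_right]
    rw [e2, ← hkm, inner_sub_left, real_inner_smul_left]
    ring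
  simp only [h3] at h2
  rw [integral_sub i5 (i3.const_mul _), integral_const_mul] at h2
  linarith

/-- the row with the quadratic multiplier -/
theorem row3 (h : OneP μ m p n) {T : ℝ} (h0 : 0 ≤ T) (h1 : T < 1) {x : E} (hx : ‖x‖ = 1)
    (b : E) {J : E →L[ℝ] E} (hJ : ∀ u v, ⟪J u, v⟫ = ⟪u, J v⟫) :
    m * ∫ y, kr T (m + 1) ⟪x, p y⟫ * (⟪p y, J (p y)⟫ * (⟪p y - T • x, b⟫
        + T * (⟪x, n y⟫ * ⟪n y, b⟫))) ∂μ
      = ∫ y, kr T m ⟪x, p y⟫ * (2 * ⟪J (p y), tg p n y b⟫) ∂μ := by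
  have hp := h.cp
  have hn := h.cn
  have hd : ∀ u : E, HasFDerivAt (fun u : E => ⟪u, J u⟫) ((2 : ℝ) • innerSL ℝ (J u)) u := by
    intro u
    have h2 : HasFDerivAt (fun u : E => ⟪u, J u⟫) _ u :=
      (hasFDerivAt_id u).inner ℝ (J.hasFDerivAt (x := u))
    refine h2.congr_fderiv ?_
    ext v
    simp only [fderivInnerCLM_apply, ContinuousLinearMap.comp_apply, ContinuousLinearMap.prod_apply,
      ContinuousLinearMap.id_apply, id, smul_apply, innerSL_apply_apply, smul_eq_mul, hJ]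
    rw [real_inner_comm (J u) v, hJ]
    ring
  have ctg : Continuous fun y => tg p n y b := by unfold tg; fun_prop
  have h2 := row_gen h h0 h1 hx b (f := fun u => ⟪u, J u⟫)
    (f' := fun u => (2 : ℝ) • innerSL ℝ (J u)) (contDiff_id.inner ℝ J.contDiff) hd (by
      simp only [smul_apply, innerSL_apply_apply, smul_eq_mul]
      fun_prop)
  simpa using h2

/-- the cubic row -/
theorem row4 (h : OneP μ m p n) {T : ℝ} (h0 : 0 ≤ T) (h1 : T < 1) {x : E} (hx : ‖x‖ = 1)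
    {b : E} (hb : ‖b‖ = 1) (hbx : ⟪x, b⟫ = 0) :
    m * ∫ y, kr T (m + 1) ⟪x, p y⟫ * (⟪p y, b⟫ ^ 3 * (⟪p y, b⟫
        + T * (⟪x, n y⟫ * ⟪n y, b⟫))) ∂μ
      = ∫ y, kr T m ⟪x, p y⟫ * (3 * ⟪p y, b⟫ ^ 2 * (1 - ⟪n y, b⟫ ^ 2 - ⟪p y, b⟫ ^ 2)) ∂μ := by
  have hp := h.cp
  have hn := h.cn
  have hd : ∀ u : E, HasFDerivAt (fun u : E => ⟪u, b⟫ ^ 3) ((3 * ⟪u, b⟫ ^ 2) • innerSL ℝ b) u := by
    intro u
    have h2 : HasFDerivAt (fun u : E => ⟪u, b⟫) (innerSL ℝ b) u := by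
      have h3 : HasFDerivAt (fun u : E => ⟪b, u⟫) (innerSL ℝ b) u := by
        simpa using (innerSL ℝ b).hasFDerivAt (x := u)
      simpa only [real_inner_comm] using h3
    have h3 := h2.pow 3
    refine h3.congr_fderiv ?_
    ext v
    simp
  have ctg : Continuous fun y => tg p n y b := by unfold tg; fun_prop
  have h2 := row_gen h h0 h1 hx b (f := fun u => ⟪u, b⟫ ^ 3)
    (f' := fun u => (3 * ⟪u, b⟫ ^ 2) • innerSL ℝ b) ((contDiff_id.inner ℝ contDiff_const).pow 3) hd (by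
      simp only [smul_apply, innerSL_apply_apply, smul_eq_mul]
      fun_prop)
  have e1 : ∀ y, ⟪p y - T • x, b⟫ = ⟪p y, b⟫ := by
    intro y
    rw [inner_sub_left, real_inner_smul_left, hbx, mul_zero, sub_zero]
  have e2 : ∀ y, ((3 * ⟪p y, b⟫ ^ 2) • innerSL ℝ b) (tg p n y b)
      = 3 * ⟪p y, b⟫ ^ 2 * (1 - ⟪n y, b⟫ ^ 2 - ⟪p y, b⟫ ^ 2) := by
    intro y
    have hbb : ⟪b, b⟫ = 1 := by rw [real_inner_self_eq_norm_sq, hb]; norm_num
    have hc1 : ⟪b, p y⟫ = ⟪p y, b⟫ := real_inner_comm _ _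
    have hc2 : ⟪b, n y⟫ = ⟪n y, b⟫ := real_inner_comm _ _
    simp only [smul_apply, innerSL_apply_apply, smul_eq_mul, tg,
      inner_sub_right, real_inner_smul_right, hbb, hc1, hc2]
    ring
  simp only [e1, e2] at h2
  exact h2

end

section

variable {X : Type*} {E : Type*} [NormedAddCommGroup E] [InnerProductSpace ℝ E]
variable [TopologicalSpace X] [MeasurableSpace X] [SecondCountableTopology X]
variable [CompactSpace X] [BorelSpace X] {μ : Measure X} [IsFiniteMeasure μ] {m : ℕ} {p n : X → E}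
  {z : X → E} {T : ℝ}

/-- integration of a row over the first point -/
lemma PI_of_row (h0 : 0 ≤ T) (h1 : T < 1) (hp : Continuous p) (np : ∀ y, ‖p y‖ = 1) {q q' : ℕ}
    {G H : X × X → ℝ} (hG : Continuous G) (hH : Continuous H) {c : ℝ}
    (hr : ∀ x, c * ∫ y, kr T q ⟪p x, p y⟫ * G (x, y) ∂μ = ∫ y, kr T q' ⟪p x, p y⟫ * H (x, y) ∂μ) :
    c * PI μ p T q G = PI μ p T q' H := by
  unfold PI
  rw [integral_prod _ (int_PI h0 h1 q hp np hG), integral_prod _ (int_PI h0 h1 q' hp np hH),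
    ← integral_const_mul]
  exact integral_congr_ae (Filter.Eventually.of_forall fun x => hr x)

/-- the third row, integrated -/
theorem PI_row3 (h : OneP μ m p n) (h0 : 0 ≤ T) (h1 : T < 1) (hz : Continuous z)
    {J : E →L[ℝ] E} (hJ : ∀ u v, ⟪J u, v⟫ = ⟪u, J v⟫) (hzJ : ∀ x, z x = n x - J (p x)) :
    m * PI μ p T (m + 1) (fun u => ⟪p u.2, z u.2⟫ * (Y2 p z T u + T * TS p n z u))
      = PI μ p T m (fun u => 2 * ⟪z u.2, tg p n u.2 (z u.1)⟫) := by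
  have hp := h.cp
  have hn := h.cn
  have c1 := cont_TS hp hn hz
  have c2 := cont_Y2 (T := T) hp hz
  refine PI_of_row h0 h1 hp h.np (by fun_prop) (by unfold tg; fun_prop) fun x => ?_
  have h2 := row3 h h0 h1 (h.np x) (z x) hJ
  have e1 : ∀ y, ⟪p y, J (p y)⟫ = -⟪p y, z y⟫ := by
    intro y
    rw [hzJ, inner_sub_right, h.pn]
    ring
  have e2 : ∀ y, ⟪J (p y), tg p n y (z x)⟫ = -⟪z y, tg p n y (z x)⟫ := by
    intro y
    have h3 : ⟪n y, tg p n y (z x)⟫ = 0 := by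
      simp only [tg, inner_sub_right, real_inner_smul_right, h.nnn, h.np']
      ring
    rw [hzJ y, inner_sub_left, h3]
    ring
  have e3 : ∀ y, kr T (m + 1) ⟪p x, p y⟫ * (⟪p y, J (p y)⟫ * (⟪p y - T • p x, z x⟫
        + T * (⟪p x, n y⟫ * ⟪n y, z x⟫)))
      = -(kr T (m + 1) ⟪p x, p y⟫ * (⟪p y, z y⟫ * (Y2 p z T (x, y) + T * TS p n z (x, y)))) := by
    intro y
    rw [e1]
    simp only [Y2, TS]
    ring
  have e4 : ∀ y, kr T m ⟪p x, p y⟫ * (2 * ⟪J (p y), tg p n y (z x)⟫)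
      = -(kr T m ⟪p x, p y⟫ * (2 * ⟪z y, tg p n y (z x)⟫)) := by
    intro y
    rw [e2]
    ring
  simp only [e3, e4] at h2
  rw [integral_neg, integral_neg] at h2
  simp only
  linarith

/-- the weighted row of the normal -/
theorem PI_rowp (h : OneP μ m p n) (h0 : 0 ≤ T) (h1 : T < 1) {f : X → ℝ} (hf : Continuous f) :
    m * PI μ p T (m + 1) (fun u => f u.1 * ⟪p u.2, n u.1⟫ ^ 2)
      + m * T * PI μ p T (m + 1)
        (fun u => f u.1 * (⟪p u.1, n u.2⟫ * ⟪n u.2, n u.1⟫ * ⟪p u.2, n u.1⟫))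
      = PI μ p T m (fun u => f u.1 * (1 - ⟪n u.2, n u.1⟫ ^ 2 - ⟪p u.2, n u.1⟫ ^ 2)) := by
  have hp := h.cp
  have hn := h.cn
  have e0 : m * PI μ p T (m + 1) (fun u => f u.1 * ⟪p u.2, n u.1⟫ ^ 2)
      + m * T * PI μ p T (m + 1)
        (fun u => f u.1 * (⟪p u.1, n u.2⟫ * ⟪n u.2, n u.1⟫ * ⟪p u.2, n u.1⟫))
      = m * PI μ p T (m + 1) (fun u => f u.1 * ⟪p u.2, n u.1⟫ ^ 2
        + T * (f u.1 * (⟪p u.1, n u.2⟫ * ⟪n u.2, n u.1⟫ * ⟪p u.2, n u.1⟫))) := by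
    rw [PI_add h0 h1 _ hp h.np (by fun_prop) (by fun_prop), PI_mul]
    ring
  rw [e0]
  refine PI_of_row h0 h1 hp h.np (by fun_prop) (by fun_prop) fun x => ?_
  have r2 := row2 h h0 h1 (h.np x) (n x)
  have e1 : ∀ y, ⟪p y - T • p x, n x⟫ = ⟪p y, n x⟫ := by
    intro y
    rw [inner_sub_left, real_inner_smul_left, h.pn, mul_zero, sub_zero]
  simp only [e1, h.nn, one_pow] at r2
  have i1 : Integrable (fun y => kr T (m + 1) ⟪p x, p y⟫ * ⟪p y, n x⟫ ^ 2) μ :=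
    int_of_cont ((continuous_kr h0 h1 _ (h.np x) hp h.np).mul (by fun_prop))
  have i2 : Integrable (fun y => kr T (m + 1) ⟪p x, p y⟫
      * (⟪p x, n y⟫ * ⟪n y, n x⟫ * ⟪p y, n x⟫)) μ :=
    int_of_cont ((continuous_kr h0 h1 _ (h.np x) hp h.np).mul (by fun_prop))
  have e2 : ∫ y, kr T (m + 1) ⟪p x, p y⟫ * (f x * ⟪p y, n x⟫ ^ 2
        + T * (f x * (⟪p x, n y⟫ * ⟪n y, n x⟫ * ⟪p y, n x⟫))) ∂μ
      = f x * ∫ y, kr T (m + 1) ⟪p x, p y⟫ * ⟪p y, n x⟫ ^ 2 ∂μ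
        + T * f x * ∫ y, kr T (m + 1) ⟪p x, p y⟫
          * (⟪p x, n y⟫ * ⟪n y, n x⟫ * ⟪p y, n x⟫) ∂μ := by
    rw [← integral_const_mul, ← integral_const_mul,
      ← integral_add (i1.const_mul _) (i2.const_mul _)]
    refine integral_congr_ae (Filter.Eventually.of_forall fun y => ?_)
    simp only
    ring
  have e3 : ∫ y, kr T m ⟪p x, p y⟫ * (f x * (1 - ⟪n y, n x⟫ ^ 2 - ⟪p y, n x⟫ ^ 2)) ∂μ
      = f x * ∫ y, kr T m ⟪p x, p y⟫ * (1 - ⟪n y, n x⟫ ^ 2 - ⟪p y, n x⟫ ^ 2) ∂μ := by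
    rw [← integral_const_mul]
    refine integral_congr_ae (Filter.Eventually.of_forall fun y => ?_)
    simp only
    ring
  simp only
  rw [e2, e3, ← r2]
  ring

/-- the fourth moment row of the normal -/
theorem PI_row4 (h : OneP μ m p n) (h0 : 0 ≤ T) (h1 : T < 1) :
    m * PI μ p T (m + 1) (fun u => ⟪p u.2, n u.1⟫ ^ 3 * (⟪p u.2, n u.1⟫
        + T * (⟪p u.1, n u.2⟫ * ⟪n u.2, n u.1⟫)))
      = PI μ p T m (fun u => 3 * ⟪p u.2, n u.1⟫ ^ 2
        * (1 - ⟪n u.2, n u.1⟫ ^ 2 - ⟪p u.2, n u.1⟫ ^ 2)) := by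
  have hp := h.cp
  have hn := h.cn
  refine PI_of_row h0 h1 hp h.np (by fun_prop) (by fun_prop) fun x => ?_
  exact row4 h h0 h1 (h.np x) (h.nn x) (h.pn x)

end

end Vale.Agent.P224.R2.H460
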