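import Vale.Agent.P224.R2.H460.Vb2

/-!
The bound of the normal part at level T.
-/

namespace Vale.Agent.P224.R2.H460

open MeasureTheory Module Function Set Vale.Agent.P224.R2.H470
open scoped RealInnerProductSpace Topology ContDiff

set_option linter.unusedSectionVars false

section

variable {X : Type*} {E : Type*} [NormedAddCommGroup E] [InnerProductSpace ℝ E]
variable [TopologicalSpace X] [MeasurableSpace X] [SecondCountableTopology X]
variable [CompactSpace X] [BorelSpace X] {μ : Measure X} [IsFiniteMeasure μ] {m : ℕ} {p n : X → E}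
  {z : X → E} {T : ℝ}

/-- Minkowski without the factor -/
lemma PI_mink1 (h0 : 0 ≤ T) (h1 : T < 1) (q : ℕ) (hp : Continuous p) (np : ∀ y, ‖p y‖ = 1)
    {F G H : X × X → ℝ} (hG : Continuous G) (hH : Continuous H)
    (hle : ∀ u, F u = G u + H u) :
    √(PI μ p T q (fun u => F u ^ 2)) ≤ √(PI μ p T q (fun u => G u ^ 2))
      + √(PI μ p T q (fun u => H u ^ 2)) := by
  have cs := PI_cs (μ := μ) h0 h1 q hp np hG hH
  have e1 : (fun u => F u ^ 2) = fun u => (G u ^ 2 + 2 * (G u * H u)) + H u ^ 2 := by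
    ext u
    rw [hle]
    ring
  have a1 : 0 ≤ PI μ p T q (fun u => G u ^ 2) := PI_nonneg h0 h1 q np fun u => sq_nonneg _
  have a2 : 0 ≤ PI μ p T q (fun u => H u ^ 2) := PI_nonneg h0 h1 q np fun u => sq_nonneg _
  rw [Real.sqrt_le_left (by positivity), e1, PI_add h0 h1 _ hp np (by fun_prop) (by fun_prop),
    PI_add h0 h1 _ hp np (by fun_prop) (by fun_prop), PI_mul]
  have h2 := Real.sq_sqrt a1
  have h3 := Real.sq_sqrt a2
  have h4 := (abs_le.1 cs).2
  nlinarith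

/-- the normal part -/
noncomputable def SS (μ : Measure X) (m : ℕ) (p n z : X → E) (T : ℝ) : ℝ :=
  PI μ p T m (fun u => ⟪n u.2, z u.1⟫ ^ 2)

/-- the radial part -/
noncomputable def RR (μ : Measure X) (m : ℕ) (p z : X → E) (T : ℝ) : ℝ :=
  PI μ p T m (fun u => ⟪p u.2, z u.1⟫ ^ 2)

lemma AA_eq (h0 : 0 ≤ T) (h1 : T < 1) (hp : Continuous p) (hn : Continuous n) (hz : Continuous z)
    (np : ∀ y, ‖p y‖ = 1) :
    AA μ m p n z T = ph μ m p z T - SS μ m p n z T - RR μ m p z T := by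
  unfold AA ph SS RR
  rw [← PI_sub h0 h1 _ hp np (by fun_prop) (by fun_prop),
    ← PI_sub h0 h1 _ hp np (by fun_prop) (by fun_prop)]

lemma AA_le_ph (h0 : 0 ≤ T) (h1 : T < 1) (hp : Continuous p) (hn : Continuous n) (hz : Continuous z)
    (np : ∀ y, ‖p y‖ = 1) : AA μ m p n z T ≤ ph μ m p z T := by
  rw [AA_eq h0 h1 hp hn hz np]
  have a1 : 0 ≤ SS μ m p n z T := PI_nonneg h0 h1 _ np fun u => sq_nonneg _
  have a2 : 0 ≤ RR μ m p z T := PI_nonneg h0 h1 _ np fun u => sq_nonneg _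
  linarith

/-- the centred square with a transformed field -/
theorem MM_map_le (h : OneP μ m p n) (h0 : 0 ≤ T) (h1 : T < 1) (hz : Continuous z)
    {J : E →L[ℝ] E} {K : ℝ} (hK : 0 ≤ K) (hJK : ∀ v, ‖J v‖ ^ 2 ≤ K * ‖v‖ ^ 2) :
    √(MM μ m p (fun x => J (z x)) T) ≤ √K * (√(ph μ m p z T) + T * √(VV μ m p n z T)) := by
  have hp := h.cp
  have hn := h.cn
  have hm0 : (0 : ℝ) ≤ m := by positivity
  have hJz : Continuous fun x => J (z x) := by fun_prop
  have k1 := MM_le h h0 h1 hJz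
  have k2 : AA μ m p n (fun x => J (z x)) T ≤ K * ph μ m p z T := by
    refine (AA_le_ph h0 h1 hp hn hJz h.np).trans ?_
    unfold ph
    rw [← PI_mul]
    exact PI_mono h0 h1 _ hp h.np (by fun_prop) (by fun_prop) fun u => hJK _
  have k3 : Pii μ m p n (fun x => J (z x)) T ≤ K * VV μ m p n z T := by
    refine (Pii_le_VV h h0 h1 hJz).trans ?_
    unfold VV
    have e1 : PI μ p T (m + 1) (fun u => ‖J (z u.1)‖ ^ 2 * ⟪p u.1, n u.2⟫ ^ 2)
        ≤ K * PI μ p T (m + 1) (fun u => ‖z u.1‖ ^ 2 * ⟪p u.1, n u.2⟫ ^ 2) := by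
      rw [← PI_mul]
      refine PI_mono h0 h1 _ hp h.np (by fun_prop) (by fun_prop) fun u => ?_
      have := mul_le_mul_of_nonneg_right (hJK (z u.1)) (sq_nonneg ⟪p u.1, n u.2⟫)
      linarith
    have := mul_le_mul_of_nonneg_left e1 hm0
    linarith
  have k4 : √(Pii μ m p n (fun x => J (z x)) T) ≤ √K * √(VV μ m p n z T) := by
    rw [← Real.sqrt_mul hK]
    exact Real.sqrt_le_sqrt k3
  have nM := MM_nonneg (μ := μ) (m := m) (p := p) (z := fun x => J (z x)) h0 h1 h.np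
  have k5 : MM μ m p (fun x => J (z x)) T ≤ K * ph μ m p z T
      + (T * (√K * √(VV μ m p n z T))) * √(MM μ m p (fun x => J (z x)) T) := by
    have h3 := mul_le_mul_of_nonneg_right k4 (Real.sqrt_nonneg (MM μ m p (fun x => J (z x)) T))
    have h4 := mul_le_mul_of_nonneg_left h3 h0
    linarith
  have k6 := sqrt_le_of_root nM (mul_nonneg hK (ph_nonneg h0 h1 h.np)) (by positivity) k5
  rw [Real.sqrt_mul hK] at k6
  linarith

/-- the bound of the normal part -/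
theorem SS_le (h : OneP μ m p n) (hm : 1 ≤ m) (h0 : 0 ≤ T) (h1 : T < 1) (hz : Continuous z)
    {J : E →L[ℝ] E} (hJ : ∀ u v, ⟪J u, v⟫ = ⟪u, J v⟫) (hzJ : ∀ x, z x = n x - J (p x))
    {κ : ℝ} (hκ : 0 ≤ κ) (hJκ : ∀ v, ‖J v‖ ^ 2 ≤ κ * m * ‖v‖ ^ 2)
    {w : ℝ} (hw : Dens μ p m T w) {c χ : ℝ}
    (hc : w * ∫ x, ⟪J (p x), z x⟫ ^ 2 ∂μ ≤ c)
    (hχ : PI μ p T m (fun u => ‖z u.1‖ ^ 2 * ‖z u.2‖ ^ 2) ≤ χ) :
    √(SS μ m p n z T) ≤ √((1 + T) * κ) * (√(ph μ m p z T) + T * √(VV μ m p n z T))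
      + T * √c + √χ := by
  have hp := h.cp
  have hn := h.cn
  have hm0 : (0 : ℝ) < m := by exact_mod_cast hm
  have hJz : Continuous fun x => J (z x) := by fun_prop
  have cY := cont_Y2 (T := T) hp hJz
  have k1 := PI_mink1 (μ := μ) h0 h1 m hp h.np (F := fun u : X × X => ⟪n u.2, z u.1⟫)
    (G := fun u => ⟪J (p u.2), z u.1⟫) (H := fun u => ⟪z u.2, z u.1⟫) (by fun_prop) (by fun_prop)
    (fun u => by
      rw [hzJ u.2, inner_sub_left]
      ring)
  have k2 := PI_mink1 (μ := μ) h0 h1 m hp h.np (F := fun u : X × X => ⟪J (p u.2), z u.1⟫)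
    (G := fun u => Y2 p (fun x => J (z x)) T u) (H := fun u => T * ⟪J (p u.1), z u.1⟫)
    (by fun_prop) (by fun_prop)
    (fun u => by
      simp only [Y2, inner_sub_left, real_inner_smul_left, hJ]
      ring)
  have k3 : √(PI μ p T m (fun u => Y2 p (fun x => J (z x)) T u ^ 2))
      ≤ √((1 + T) * κ) * (√(ph μ m p z T) + T * √(VV μ m p n z T)) := by
    have e1 := PI_le_succ (μ := μ) h0 h1 m hp h.np (G := fun u => Y2 p (fun x => J (z x)) T u ^ 2)
      (by fun_prop) fun u => sq_nonneg _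
    have e2 := MM_map_le h h0 h1 hz (J := J) (K := κ * m) (by positivity) hJκ
    have e3 : PI μ p T m (fun u => Y2 p (fun x => J (z x)) T u ^ 2)
        ≤ (1 + T) / m * MM μ m p (fun x => J (z x)) T := by
      unfold MM
      rw [div_mul_eq_mul_div, le_div_iff₀ hm0]
      have := mul_le_mul_of_nonneg_right e1 hm0.le
      linarith
    refine (Real.sqrt_le_sqrt e3).trans ?_
    rw [Real.sqrt_mul (by positivity)]
    have e4 := mul_le_mul_of_nonneg_left e2 (Real.sqrt_nonneg ((1 + T) / m))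
    refine e4.trans (le_of_eq ?_)
    rw [← mul_assoc, ← Real.sqrt_mul (by positivity)]
    congr 2
    field_simp
  have k4 : √(PI μ p T m (fun u => (T * ⟪J (p u.1), z u.1⟫) ^ 2)) ≤ T * √c := by
    have e1 : PI μ p T m (fun u => (T * ⟪J (p u.1), z u.1⟫) ^ 2) ≤ T ^ 2 * c := by
      have e2 : (fun u : X × X => (T * ⟪J (p u.1), z u.1⟫) ^ 2)
          = fun u => T ^ 2 * ⟪J (p u.1), z u.1⟫ ^ 2 := by
        ext u; ring
      rw [e2, PI_mul]
      have e3 := hw (fun x => ⟪J (p x), z x⟫ ^ 2) (by fun_prop) fun x => sq_nonneg _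
      exact mul_le_mul_of_nonneg_left (e3.trans hc) (sq_nonneg T)
    refine (Real.sqrt_le_sqrt e1).trans (le_of_eq ?_)
    rw [Real.sqrt_mul (sq_nonneg T), Real.sqrt_sq h0]
  have k5 : √(PI μ p T m (fun u => ⟪z u.2, z u.1⟫ ^ 2)) ≤ √χ := by
    refine Real.sqrt_le_sqrt (le_trans ?_ hχ)
    refine PI_mono h0 h1 _ hp h.np (by fun_prop) (by fun_prop) fun u => ?_
    have h3 := abs_real_inner_le_norm (z u.2) (z u.1)
    rw [← sq_abs, ← mul_pow, mul_comm ‖z u.1‖]
    exact pow_le_pow_left₀ (abs_nonneg _) h3 2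
  unfold SS
  linarith

/-- the bound of the radial part -/
theorem RR_le (h : OneP μ m p n) (hm : 1 ≤ m) (h0 : 0 ≤ T) (h1 : T < 1) (hz : Continuous z)
    {w : ℝ} (hw0 : 0 ≤ w) (hw : Dens μ p m T w) :
    √(RR μ m p z T) ≤ √((1 + T) / m * MM μ m p z T) + T * √(w * ∫ x, ‖z x‖ ^ 2 ∂μ) := by
  have hp := h.cp
  have hn := h.cn
  have hm0 : (0 : ℝ) < m := by exact_mod_cast hm
  have cY := cont_Y2 (T := T) hp hz
  have k2 := PI_mink1 (μ := μ) h0 h1 m hp h.np (F := fun u : X × X => ⟪p u.2, z u.1⟫)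
    (G := fun u => Y2 p z T u) (H := fun u => T * ⟪p u.1, z u.1⟫)
    (by fun_prop) (by fun_prop)
    (fun u => by
      simp only [Y2, inner_sub_left, real_inner_smul_left]
      ring)
  have k3 : √(PI μ p T m (fun u => Y2 p z T u ^ 2)) ≤ √((1 + T) / m * MM μ m p z T) := by
    have e1 := PI_le_succ (μ := μ) h0 h1 m hp h.np (G := fun u => Y2 p z T u ^ 2)
      (by fun_prop) fun u => sq_nonneg _
    refine Real.sqrt_le_sqrt ?_
    unfold MM
    rw [div_mul_eq_mul_div, le_div_iff₀ hm0]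
    have := mul_le_mul_of_nonneg_right e1 hm0.le
    linarith
  have k4 : √(PI μ p T m (fun u => (T * ⟪p u.1, z u.1⟫) ^ 2)) ≤ T * √(w * ∫ x, ‖z x‖ ^ 2 ∂μ) := by
    have e1 : PI μ p T m (fun u => (T * ⟪p u.1, z u.1⟫) ^ 2) ≤ T ^ 2 * (w * ∫ x, ‖z x‖ ^ 2 ∂μ) := by
      have e2 : (fun u : X × X => (T * ⟪p u.1, z u.1⟫) ^ 2)
          = fun u => T ^ 2 * ⟪p u.1, z u.1⟫ ^ 2 := by
        ext u; ring
      rw [e2, PI_mul]
      have e3 := hw (fun x => ⟪p x, z x⟫ ^ 2) (by fun_prop) fun x => sq_nonneg _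
      have e4 : ∫ x, ⟪p x, z x⟫ ^ 2 ∂μ ≤ ∫ x, ‖z x‖ ^ 2 ∂μ := by
        refine integral_mono (int_of_cont (by fun_prop)) (int_of_cont (by fun_prop)) fun x => ?_
        have h3 := abs_real_inner_le_norm (p x) (z x)
        rw [h.np, one_mul] at h3
        simp only
        rw [← sq_abs]
        exact pow_le_pow_left₀ (abs_nonneg _) h3 2
      exact mul_le_mul_of_nonneg_left (e3.trans (mul_le_mul_of_nonneg_left e4 hw0)) (sq_nonneg T)
    refine (Real.sqrt_le_sqrt e1).trans (le_of_eq ?_)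
    rw [Real.sqrt_mul (sq_nonneg T), Real.sqrt_sq h0]
  unfold RR
  linarith

end

end Vale.Agent.P224.R2.H460
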