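import Vale.Agent.P224.R2.H460.Main

/-!
The self-consistent bound of the mixed square at level T.
-/

namespace Vale.Agent.P224.R2.H460

open MeasureTheory Module Function Set Vale.Agent.P224.R2.H470
open scoped RealInnerProductSpace Topology ContDiff

set_option linter.unusedSectionVars false

lemma sqrt_le_of_root {S a b : ℝ} (hS : 0 ≤ S) (ha : 0 ≤ a) (hb : 0 ≤ b) (h : S ≤ a + b * √S) :
    √S ≤ √a + b := by
  by_contra hc
  rw [not_le] at hc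
  have h1 := Real.sq_sqrt hS
  have h2 := Real.sq_sqrt ha
  have h3 := Real.sqrt_nonneg a
  have h4 := Real.sqrt_nonneg S
  nlinarith

lemma sqrt_add_le_add {a b : ℝ} (ha : 0 ≤ a) (hb : 0 ≤ b) : √(a + b) ≤ √a + √b := by
  rw [Real.sqrt_le_left (by positivity)]
  have h1 := Real.sq_sqrt ha
  have h2 := Real.sq_sqrt hb
  nlinarith [mul_nonneg (Real.sqrt_nonneg a) (Real.sqrt_nonneg b)]

section

variable {X : Type*} {E : Type*} [NormedAddCommGroup E] [InnerProductSpace ℝ E]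
variable [TopologicalSpace X] [MeasurableSpace X] [SecondCountableTopology X]
variable [CompactSpace X] [BorelSpace X] {μ : Measure X} [IsFiniteMeasure μ] {m : ℕ} {p n : X → E}
  {z : X → E} {T : ℝ}

/-- Minkowski -/
lemma PI_mink (h0 : 0 ≤ T) (h1 : T < 1) (q : ℕ) (hp : Continuous p) (np : ∀ y, ‖p y‖ = 1)
    {F G H : X × X → ℝ} (hF : Continuous F) (hG : Continuous G) (hH : Continuous H)
    (hle : ∀ u, F u = G u + H u) :
    √(m * PI μ p T q (fun u => F u ^ 2)) ≤ √(m * PI μ p T q (fun u => G u ^ 2))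
      + √(m * PI μ p T q (fun u => H u ^ 2)) := by
  have hm0 : (0 : ℝ) ≤ m := by positivity
  have cs := PI_cs_m (μ := μ) (m := m) h0 h1 q hp np hG hH
  have e1 : (fun u => F u ^ 2) = fun u => (G u ^ 2 + 2 * (G u * H u)) + H u ^ 2 := by
    ext u
    rw [hle]
    ring
  have a1 : 0 ≤ m * PI μ p T q (fun u => G u ^ 2) :=
    mul_nonneg hm0 (PI_nonneg h0 h1 q np fun u => sq_nonneg _)
  have a2 : 0 ≤ m * PI μ p T q (fun u => H u ^ 2) :=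
    mul_nonneg hm0 (PI_nonneg h0 h1 q np fun u => sq_nonneg _)
  rw [Real.sqrt_le_left (by positivity), e1, PI_add h0 h1 _ hp np (by fun_prop) (by fun_prop),
    PI_add h0 h1 _ hp np (by fun_prop) (by fun_prop), PI_mul]
  have h2 := Real.sq_sqrt a1
  have h3 := Real.sq_sqrt a2
  have h4 := (abs_le.1 cs).2
  nlinarith

/-- monotonicity in the square root -/
lemma PI_sqrt_mono (h0 : 0 ≤ T) (h1 : T < 1) (q : ℕ) (hp : Continuous p) (np : ∀ y, ‖p y‖ = 1)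
    {G H : X × X → ℝ} (hG : Continuous G) (hH : Continuous H) (hle : ∀ u, G u ≤ H u) :
    √(m * PI μ p T q G) ≤ √(m * PI μ p T q H) :=
  Real.sqrt_le_sqrt (mul_le_mul_of_nonneg_left (PI_mono h0 h1 q hp np hG hH hle) (by positivity))

/-- `v^(-m-1) ≤ v^(-m) / (1 - T)` -/
lemma PI_succ_le (h0 : 0 ≤ T) (h1 : T < 1) (q : ℕ) (hp : Continuous p) (np : ∀ y, ‖p y‖ = 1)
    {G : X × X → ℝ} (hG : Continuous G) (hG0 : ∀ u, 0 ≤ G u) :
    (1 - T) * PI μ p T (q + 1) G ≤ PI μ p T q G := by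
  unfold PI
  rw [← integral_const_mul]
  refine integral_mono ((int_PI h0 h1 _ hp np hG).const_mul _) (int_PI h0 h1 _ hp np hG) fun u => ?_
  simp only
  have h2 := one_sub_pos h0 h1 (np u.1) (np u.2)
  have h3 := kr_mul (T := T) q h2
  have h4 := kr_pos (T := T) (q + 1) h2
  have h5 : 1 - T ≤ 1 - T * ⟪p u.1, p u.2⟫ := by
    have h := real_inner_le_norm (p u.1) (p u.2)
    rw [np, np, one_mul] at h
    nlinarith
  have h6 : (1 - T) * kr T (q + 1) ⟪p u.1, p u.2⟫ ≤ kr T q ⟪p u.1, p u.2⟫ := by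
    rw [← h3]
    exact mul_le_mul_of_nonneg_right h5 h4.le
  have := mul_le_mul_of_nonneg_right h6 (hG0 u)
  linarith

/-- `v^(-m) ≤ (1 + T) v^(-m-1)` -/
lemma PI_le_succ (h0 : 0 ≤ T) (h1 : T < 1) (q : ℕ) (hp : Continuous p) (np : ∀ y, ‖p y‖ = 1)
    {G : X × X → ℝ} (hG : Continuous G) (hG0 : ∀ u, 0 ≤ G u) :
    PI μ p T q G ≤ (1 + T) * PI μ p T (q + 1) G := by
  unfold PI
  rw [← integral_const_mul]
  refine integral_mono (int_PI h0 h1 _ hp np hG) ((int_PI h0 h1 _ hp np hG).const_mul _) fun u => ?_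
  simp only
  have h2 := one_sub_pos h0 h1 (np u.1) (np u.2)
  have h3 := kr_mul (T := T) q h2
  have h4 := kr_pos (T := T) (q + 1) h2
  have h5 : 1 - T * ⟪p u.1, p u.2⟫ ≤ 1 + T := by
    have h := neg_le_of_abs_le (abs_real_inner_le_norm (p u.1) (p u.2))
    rw [np, np, one_mul] at h
    nlinarith
  have h6 : kr T q ⟪p u.1, p u.2⟫ ≤ (1 + T) * kr T (q + 1) ⟪p u.1, p u.2⟫ := by
    rw [← h3]
    exact mul_le_mul_of_nonneg_right h5 h4.le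
  have := mul_le_mul_of_nonneg_right h6 (hG0 u)
  linarith

/-- the mixed square `[t² |z_x|²]` -/
noncomputable def VV (μ : Measure X) (m : ℕ) (p n z : X → E) (T : ℝ) : ℝ :=
  m * PI μ p T (m + 1) (fun u => ‖z u.1‖ ^ 2 * ⟪p u.1, n u.2⟫ ^ 2)

/-- the square `[p² |z_x|²]` -/
noncomputable def PP (μ : Measure X) (m : ℕ) (p n z : X → E) (T : ℝ) : ℝ :=
  m * PI μ p T (m + 1) (fun u => ‖z u.1‖ ^ 2 * ⟪p u.2, n u.1⟫ ^ 2)

/-- the mean `<|z|²>` -/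
noncomputable def ph (μ : Measure X) (m : ℕ) (p z : X → E) (T : ℝ) : ℝ :=
  PI μ p T m (fun u => ‖z u.1‖ ^ 2)

lemma VV_nonneg (h0 : 0 ≤ T) (h1 : T < 1) (np : ∀ y, ‖p y‖ = 1) : 0 ≤ VV μ m p n z T :=
  mul_nonneg (by positivity) (PI_nonneg h0 h1 _ np fun u => by positivity)

lemma PP_nonneg (h0 : 0 ≤ T) (h1 : T < 1) (np : ∀ y, ‖p y‖ = 1) : 0 ≤ PP μ m p n z T :=
  mul_nonneg (by positivity) (PI_nonneg h0 h1 _ np fun u => by positivity)

lemma ph_nonneg (h0 : 0 ≤ T) (h1 : T < 1) (np : ∀ y, ‖p y‖ = 1) : 0 ≤ ph μ m p z T :=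
  PI_nonneg h0 h1 _ np fun u => by positivity

lemma LL_nonneg (h0 : 0 ≤ T) (h1 : T < 1) (np : ∀ y, ‖p y‖ = 1) : 0 ≤ LL μ m p z T :=
  mul_nonneg (by positivity) (PI_nonneg h0 h1 _ np fun u => sq_nonneg _)

lemma Pii_nonneg (h0 : 0 ≤ T) (h1 : T < 1) (np : ∀ y, ‖p y‖ = 1) : 0 ≤ Pii μ m p n z T :=
  mul_nonneg (by positivity) (PI_nonneg h0 h1 _ np fun u => sq_nonneg _)

lemma MM_nonneg (h0 : 0 ≤ T) (h1 : T < 1) (np : ∀ y, ‖p y‖ = 1) : 0 ≤ MM μ m p z T :=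
  mul_nonneg (by positivity) (PI_nonneg h0 h1 _ np fun u => sq_nonneg _)

lemma Pii_le_VV (h : OneP μ m p n) (h0 : 0 ≤ T) (h1 : T < 1) (hz : Continuous z) :
    Pii μ m p n z T ≤ VV μ m p n z T := by
  have hp := h.cp
  have hn := h.cn
  have c1 := cont_TS hp hn hz
  refine mul_le_mul_of_nonneg_left (PI_mono h0 h1 _ hp h.np (by fun_prop) (by fun_prop) fun u => ?_)
    (by positivity)
  have h2 : ⟪n u.2, z u.1⟫ ^ 2 ≤ ‖z u.1‖ ^ 2 := by
    have h3 := abs_real_inner_le_norm (n u.2) (z u.1)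
    rw [h.nn, one_mul] at h3
    rw [← sq_abs]
    exact pow_le_pow_left₀ (abs_nonneg _) h3 2
  unfold TS
  nlinarith [mul_le_mul_of_nonneg_right h2 (sq_nonneg ⟪p u.1, n u.2⟫)]

/-- the square with the linear factor -/
theorem PP_le (h : OneP μ m p n) (h0 : 0 ≤ T) (h1 : T < 1) (hz : Continuous z) :
    √(PP μ m p n z T) ≤ √(ph μ m p z T) + T * √(VV μ m p n z T) := by
  have hp := h.cp
  have hn := h.cn
  have r := PI_rowp (T := T) h h0 h1 (f := fun x => ‖z x‖ ^ 2) (by fun_prop)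
  have cs := PI_cs_m (μ := μ) (m := m) h0 h1 (m + 1) hp h.np
    (G := fun u => ‖z u.1‖ * (⟪p u.1, n u.2⟫ * ⟪n u.2, n u.1⟫))
    (H := fun u => ‖z u.1‖ * ⟪p u.2, n u.1⟫) (by fun_prop) (by fun_prop)
  have e1 : (fun u : X × X => ‖z u.1‖ * (⟪p u.1, n u.2⟫ * ⟪n u.2, n u.1⟫)
      * (‖z u.1‖ * ⟪p u.2, n u.1⟫))
      = fun u => ‖z u.1‖ ^ 2 * (⟪p u.1, n u.2⟫ * ⟪n u.2, n u.1⟫ * ⟪p u.2, n u.1⟫) := by
    ext u; ring
  have e2 : (fun u : X × X => (‖z u.1‖ * ⟪p u.2, n u.1⟫) ^ 2)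
      = fun u => ‖z u.1‖ ^ 2 * ⟪p u.2, n u.1⟫ ^ 2 := by
    ext u; ring
  have e3 : √(m * PI μ p T (m + 1) (fun u : X × X =>
      (‖z u.1‖ * (⟪p u.1, n u.2⟫ * ⟪n u.2, n u.1⟫)) ^ 2)) ≤ √(VV μ m p n z T) := by
    refine PI_sqrt_mono h0 h1 _ hp h.np (by fun_prop) (by fun_prop) fun u => ?_
    have h2 : ⟪n u.2, n u.1⟫ ^ 2 ≤ 1 := by
      have h3 := abs_real_inner_le_norm (n u.2) (n u.1)
      rw [h.nn, h.nn, one_mul] at h3
      rw [← sq_abs]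
      exact pow_le_one₀ (abs_nonneg _) h3
    have h4 : 0 ≤ ‖z u.1‖ ^ 2 * ⟪p u.1, n u.2⟫ ^ 2 := by positivity
    nlinarith
  rw [e1, e2] at cs
  have h5 := (abs_le.1 cs).1
  have h6 : PI μ p T m (fun u => ‖z u.1‖ ^ 2 * (1 - ⟪n u.2, n u.1⟫ ^ 2 - ⟪p u.2, n u.1⟫ ^ 2))
      ≤ ph μ m p z T := by
    refine PI_mono h0 h1 _ hp h.np (by fun_prop) (by fun_prop) fun u => ?_
    have h7 : 0 ≤ ‖z u.1‖ ^ 2 := by positivity
    nlinarith [mul_nonneg h7 (sq_nonneg ⟪n u.2, n u.1⟫), mul_nonneg h7 (sq_nonneg ⟪p u.2, n u.1⟫)]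
  have h8 : PP μ m p n z T ≤ ph μ m p z T + (T * √(VV μ m p n z T)) * √(PP μ m p n z T) := by
    have h9 : √(m * PI μ p T (m + 1) (fun u : X × X =>
      (‖z u.1‖ * (⟪p u.1, n u.2⟫ * ⟪n u.2, n u.1⟫)) ^ 2)) * √(PP μ m p n z T)
        ≤ √(VV μ m p n z T) * √(PP μ m p n z T) :=
      mul_le_mul_of_nonneg_right e3 (Real.sqrt_nonneg _)
    have h10 := mul_le_mul_of_nonneg_left (h5.trans' (neg_le_neg h9)) h0
    unfold PP at *
    linarith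
  exact sqrt_le_of_root (PP_nonneg h0 h1 h.np) (ph_nonneg h0 h1 h.np)
    (mul_nonneg h0 (Real.sqrt_nonneg _)) h8

/-- the second moment of the normal product -/
theorem t2_le (h : OneP μ m p n) (h0 : 0 ≤ T) (h1 : T < 1) :
    (1 - T) * (m * PI μ p T (m + 1) (fun u => ⟪p u.2, n u.1⟫ ^ 2)) ≤ PI μ p T m (fun _ => 1) := by
  have hp := h.cp
  have hn := h.cn
  have r := PI_rowp (T := T) h h0 h1 (f := fun _ => 1) (by fun_prop)
  simp only [one_mul] at r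
  have cs := PI_cs_m (μ := μ) (m := m) h0 h1 (m + 1) hp h.np
    (G := fun u => ⟪p u.1, n u.2⟫ * ⟪n u.2, n u.1⟫)
    (H := fun u => ⟪p u.2, n u.1⟫) (by fun_prop) (by fun_prop)
  have sw : PI μ p T (m + 1) (fun u => ⟪p u.1, n u.2⟫ ^ 2)
      = PI μ p T (m + 1) (fun u => ⟪p u.2, n u.1⟫ ^ 2) :=
    PI_swap h0 h1 (m + 1) (fun u => ⟪p u.2, n u.1⟫ ^ 2)
  have e3 : √(m * PI μ p T (m + 1) (fun u : X × X => (⟪p u.1, n u.2⟫ * ⟪n u.2, n u.1⟫) ^ 2))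
      ≤ √(m * PI μ p T (m + 1) (fun u : X × X => ⟪p u.2, n u.1⟫ ^ 2)) := by
    rw [← sw]
    refine PI_sqrt_mono h0 h1 _ hp h.np (by fun_prop) (by fun_prop) fun u => ?_
    have h2 : ⟪n u.2, n u.1⟫ ^ 2 ≤ 1 := by
      have h3 := abs_real_inner_le_norm (n u.2) (n u.1)
      rw [h.nn, h.nn, one_mul] at h3
      rw [← sq_abs]
      exact pow_le_one₀ (abs_nonneg _) h3
    have h4 : 0 ≤ ⟪p u.1, n u.2⟫ ^ 2 := sq_nonneg _
    nlinarith
  have h5 := (abs_le.1 cs).1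
  have a1 : 0 ≤ m * PI μ p T (m + 1) (fun u : X × X => ⟪p u.2, n u.1⟫ ^ 2) :=
    mul_nonneg (by positivity) (PI_nonneg h0 h1 _ h.np fun u => sq_nonneg _)
  have h7 := Real.mul_self_sqrt a1
  have h9 := mul_le_mul_of_nonneg_right e3 (Real.sqrt_nonneg
    (m * PI μ p T (m + 1) (fun u : X × X => ⟪p u.2, n u.1⟫ ^ 2)))
  rw [h7] at h9
  have h10 := mul_le_mul_of_nonneg_left (h5.trans' (neg_le_neg h9)) h0
  have h6 : PI μ p T m (fun u => 1 - ⟪n u.2, n u.1⟫ ^ 2 - ⟪p u.2, n u.1⟫ ^ 2)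
      ≤ PI μ p T m (fun _ => 1) := by
    refine PI_mono h0 h1 _ hp h.np (by fun_prop) (by fun_prop) fun u => ?_
    nlinarith [sq_nonneg ⟪n u.2, n u.1⟫, sq_nonneg ⟪p u.2, n u.1⟫]
  linarith

end

end Vale.Agent.P224.R2.H460
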