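import Vale.Agent.P224.R2.H460.Vb

/-!
The self-consistent bound of the mixed square at level T, conclusion.
-/

namespace Vale.Agent.P224.R2.H460

open MeasureTheory Module Function Set Vale.Agent.P224.R2.H470
open scoped RealInnerProductSpace Topology ContDiff

set_option linter.unusedSectionVars false

section

variable {X : Type*} {E : Type*} [NormedAddCommGroup E] [InnerProductSpace ℝ E]
variable [TopologicalSpace X] [MeasurableSpace X] [SecondCountableTopology X]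
variable [CompactSpace X] [BorelSpace X] {μ : Measure X} [IsFiniteMeasure μ] {m : ℕ} {p n : X → E}
  {z : X → E} {T : ℝ}

/-- the density of the pair measure is at most w -/
def Dens (μ : Measure X) (p : X → E) (m : ℕ) (T w : ℝ) : Prop :=
  ∀ f : X → ℝ, Continuous f → (∀ x, 0 ≤ f x) → PI μ p T m (fun u => f u.1) ≤ w * ∫ x, f x ∂μ

/-- the fourth moment -/
theorem t4_le (h : OneP μ m p n) (h0 : 0 ≤ T) (h1 : T < 1) :
    (1 - T) * (m * PI μ p T (m + 1) (fun u => ⟪p u.2, n u.1⟫ ^ 4))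
      ≤ 3 * (1 + T) * PI μ p T (m + 1) (fun u => ⟪p u.2, n u.1⟫ ^ 2) := by
  have hp := h.cp
  have hn := h.cn
  have r := PI_row4 (T := T) h h0 h1
  have sw : PI μ p T (m + 1) (fun u => ⟪p u.1, n u.2⟫ ^ 4)
      = PI μ p T (m + 1) (fun u => ⟪p u.2, n u.1⟫ ^ 4) :=
    PI_swap h0 h1 (m + 1) (fun u => ⟪p u.2, n u.1⟫ ^ 4)
  have e1 : PI μ p T m (fun u => 3 * ⟪p u.2, n u.1⟫ ^ 2
        * (1 - ⟪n u.2, n u.1⟫ ^ 2 - ⟪p u.2, n u.1⟫ ^ 2))
      ≤ 3 * PI μ p T m (fun u => ⟪p u.2, n u.1⟫ ^ 2) := by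
    rw [← PI_mul]
    refine PI_mono h0 h1 _ hp h.np (by fun_prop) (by fun_prop) fun u => ?_
    nlinarith [mul_nonneg (sq_nonneg ⟪p u.2, n u.1⟫) (sq_nonneg ⟪n u.2, n u.1⟫),
      mul_nonneg (sq_nonneg ⟪p u.2, n u.1⟫) (sq_nonneg ⟪p u.2, n u.1⟫)]
  have e2 := PI_le_succ (μ := μ) h0 h1 m hp h.np (G := fun u => ⟪p u.2, n u.1⟫ ^ 2)
    (by fun_prop) fun u => sq_nonneg _
  have e3 : -(PI μ p T (m + 1) (fun u => ⟪p u.2, n u.1⟫ ^ 4))
      ≤ PI μ p T (m + 1) (fun u => ⟪p u.2, n u.1⟫ ^ 3 * (⟪p u.1, n u.2⟫ * ⟪n u.2, n u.1⟫)) := by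
    have e4 : -(PI μ p T (m + 1) (fun u => ⟪p u.2, n u.1⟫ ^ 4))
        = PI μ p T (m + 1) (fun u => (-3 / 4) * ⟪p u.2, n u.1⟫ ^ 4
          + (-1 / 4) * ⟪p u.1, n u.2⟫ ^ 4) := by
      rw [PI_add h0 h1 _ hp h.np (by fun_prop) (by fun_prop), PI_mul, PI_mul, sw]
      ring
    rw [e4]
    refine PI_mono h0 h1 _ hp h.np (by fun_prop) (by fun_prop) fun u => ?_
    have h3 := abs_real_inner_le_norm (n u.2) (n u.1)
    rw [h.nn, h.nn, one_mul] at h3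
    set a := ⟪p u.2, n u.1⟫
    set b := ⟪p u.1, n u.2⟫
    set c := ⟪n u.2, n u.1⟫
    have h4 := abs_le.1 h3
    have h5 : |a ^ 3 * (b * c)| ≤ |a| ^ 3 * |b| := by
      rw [abs_mul, abs_mul, abs_pow]
      have : 0 ≤ |a| ^ 3 * |b| := by positivity
      nlinarith [abs_nonneg c]
    have h6 : |a| ^ 3 * |b| ≤ 3 / 4 * |a| ^ 4 + 1 / 4 * |b| ^ 4 := by
      nlinarith [sq_nonneg (|a| ^ 2 - |b| ^ 2), sq_nonneg (|a| ^ 2 - |a| * |b|),
        sq_nonneg (|a| - |b|), abs_nonneg a, abs_nonneg b, sq_nonneg |a|,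
        mul_nonneg (sq_nonneg |a|) (sq_nonneg (|a| - |b|)), sq_nonneg (|a| * |b| - |b| ^ 2)]
    have h7 : |a| ^ 4 = a ^ 4 := by
      rw [show (4 : ℕ) = 2 * 2 by norm_num, pow_mul, pow_mul, sq_abs]
    have h8 : |b| ^ 4 = b ^ 4 := by
      rw [show (4 : ℕ) = 2 * 2 by norm_num, pow_mul, pow_mul, sq_abs]
    rw [h7, h8] at h6
    have h9 := (abs_le.1 h5).1
    linarith
  have e5 : m * PI μ p T (m + 1) (fun u => ⟪p u.2, n u.1⟫ ^ 3 * (⟪p u.2, n u.1⟫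
        + T * (⟪p u.1, n u.2⟫ * ⟪n u.2, n u.1⟫)))
      = m * PI μ p T (m + 1) (fun u => ⟪p u.2, n u.1⟫ ^ 4)
        + m * T * PI μ p T (m + 1)
          (fun u => ⟪p u.2, n u.1⟫ ^ 3 * (⟪p u.1, n u.2⟫ * ⟪n u.2, n u.1⟫)) := by
    have e6 : (fun u : X × X => ⟪p u.2, n u.1⟫ ^ 3 * (⟪p u.2, n u.1⟫
        + T * (⟪p u.1, n u.2⟫ * ⟪n u.2, n u.1⟫)))
        = fun u => ⟪p u.2, n u.1⟫ ^ 4
          + T * (⟪p u.2, n u.1⟫ ^ 3 * (⟪p u.1, n u.2⟫ * ⟪n u.2, n u.1⟫)) := by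
      ext u; ring
    rw [e6, PI_add h0 h1 _ hp h.np (by fun_prop) (by fun_prop), PI_mul]
    ring
  have h7 := mul_le_mul_of_nonneg_left e3 (show (0 : ℝ) ≤ m * T by positivity)
  rw [e5] at r
  linarith

/-- the square with the first factor rare -/
theorem rare_le (h : OneP μ m p n) (h0 : 0 ≤ T) (h1 : T < 1) {w : ℝ} (hw0 : 0 ≤ w)
    (hw : Dens μ p m T w) [IsProbabilityMeasure μ] {g : X → ℝ} (hg : Continuous g)
    {ε : ℝ} (hε : 0 ≤ ε) (hgε : ∫ x, g x ^ 2 ∂μ ≤ ε ^ 2) :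
    m * PI μ p T (m + 1) (fun u => g u.1 * ⟪p u.1, n u.2⟫ ^ 2)
      ≤ w * (√(3 * (1 + T) / (1 - T) ^ 3) * ε) := by
  have hp := h.cp
  have hn := h.cn
  have h1T : 0 < 1 - T := by linarith
  have cs := PI_cs (μ := μ) h0 h1 (m + 1) hp h.np
    (G := fun u => ⟪p u.1, n u.2⟫ ^ 2) (H := fun u => g u.1) (by fun_prop) (by fun_prop)
  have sw4 : PI μ p T (m + 1) (fun u => (⟪p u.1, n u.2⟫ ^ 2) ^ 2)
      = PI μ p T (m + 1) (fun u => ⟪p u.2, n u.1⟫ ^ 4) := by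
    have := PI_swap (μ := μ) (p := p) h0 h1 (m + 1) (fun u => ⟪p u.2, n u.1⟫ ^ 4)
    rw [← this]
    congr 1
    ext u
    simp only [Prod.fst_swap, Prod.snd_swap]
    ring
  have sw2 : PI μ p T (m + 1) (fun u => ⟪p u.1, n u.2⟫ ^ 2)
      = PI μ p T (m + 1) (fun u => ⟪p u.2, n u.1⟫ ^ 2) :=
    PI_swap h0 h1 (m + 1) (fun u => ⟪p u.2, n u.1⟫ ^ 2)
  have k4 := t4_le (T := T) h h0 h1
  have k2 := t2_le (T := T) h h0 h1
  have k1 : PI μ p T m (fun _ => 1) ≤ w := by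
    have := hw (fun _ => 1) continuous_const fun _ => zero_le_one
    simpa using this
  have kg : PI μ p T (m + 1) (fun u => g u.1 ^ 2) ≤ w * ε ^ 2 / (1 - T) := by
    rw [le_div_iff₀ h1T]
    have e1 := PI_succ_le (μ := μ) h0 h1 m hp h.np (G := fun u => g u.1 ^ 2) (by fun_prop)
      fun u => sq_nonneg _
    have e2 := hw (fun x => g x ^ 2) (by fun_prop) fun x => sq_nonneg _
    have e3 := mul_le_mul_of_nonneg_left hgε hw0
    linarith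
  have hm0 : (0 : ℝ) ≤ m := by positivity
  have km4 : m ^ 2 * PI μ p T (m + 1) (fun u => ⟪p u.2, n u.1⟫ ^ 4)
      ≤ 3 * (1 + T) / (1 - T) ^ 2 * w := by
    rw [div_mul_eq_mul_div, le_div_iff₀ (by positivity)]
    have e1 := mul_le_mul_of_nonneg_left k4 hm0
    have e2 := mul_le_mul_of_nonneg_left e1 h1T.le
    have e3 := mul_le_mul_of_nonneg_left (k2.trans k1) (show (0 : ℝ) ≤ 3 * (1 + T) by positivity)
    nlinarith
  have hmg : (fun u : X × X => ⟪p u.1, n u.2⟫ ^ 2 * g u.1) = fun u => g u.1 * ⟪p u.1, n u.2⟫ ^ 2 := by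
    ext u; ring
  rw [hmg, sw4] at cs
  have h5 := (abs_le.1 cs).2
  have n4 : 0 ≤ PI μ p T (m + 1) (fun u => ⟪p u.2, n u.1⟫ ^ 4) :=
    PI_nonneg h0 h1 _ h.np fun u => by positivity
  have h6 : m * √(PI μ p T (m + 1) (fun u => ⟪p u.2, n u.1⟫ ^ 4))
      ≤ √(3 * (1 + T) / (1 - T) ^ 2 * w) := by
    rw [show m * √(PI μ p T (m + 1) (fun u => ⟪p u.2, n u.1⟫ ^ 4))
      = √(m ^ 2 * PI μ p T (m + 1) (fun u => ⟪p u.2, n u.1⟫ ^ 4)) by
        rw [Real.sqrt_mul (by positivity), Real.sqrt_sq hm0]]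
    exact Real.sqrt_le_sqrt km4
  have h7 : √(PI μ p T (m + 1) (fun u => g u.1 ^ 2)) ≤ √(w * ε ^ 2 / (1 - T)) :=
    Real.sqrt_le_sqrt kg
  have h8 := mul_le_mul h6 h7 (Real.sqrt_nonneg _) (Real.sqrt_nonneg _)
  have h9 : √(3 * (1 + T) / (1 - T) ^ 2 * w) * √(w * ε ^ 2 / (1 - T))
      = w * (√(3 * (1 + T) / (1 - T) ^ 3) * ε) := by
    rw [← Real.sqrt_mul (by positivity)]
    have e1 : 3 * (1 + T) / (1 - T) ^ 2 * w * (w * ε ^ 2 / (1 - T))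
        = (w * ε) ^ 2 * (3 * (1 + T) / (1 - T) ^ 3) := by
      field_simp
    rw [e1, Real.sqrt_mul (by positivity), Real.sqrt_sq (by positivity)]
    ring
  rw [h9] at h8
  have h10 := mul_le_mul_of_nonneg_left h5 hm0
  linarith

/-- the self-consistent bound -/
theorem VV_le (h : OneP μ m p n) (h0 : 0 ≤ T) (h1 : T < 1) (hz : Continuous z)
    {J : E →L[ℝ] E} (hJ : ∀ u v, ⟪J u, v⟫ = ⟪u, J v⟫) (hzJ : ∀ x, z x = n x - J (p x))
    {w : ℝ} (hw0 : 0 ≤ w)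
    (hw : Dens μ p m T w) [IsProbabilityMeasure μ] {A0 : ℝ} (hA : 0 ≤ A0)
    {ε : ℝ} (hε : 0 ≤ ε) (hgε : ∫ x, (max (‖z x‖ ^ 2 - A0) 0) ^ 2 ∂μ ≤ ε ^ 2) :
    (1 - T) * √(VV μ m p n z T) ≤ √(ph μ m p z T) + √(2 * A0 * LL μ m p z T)
      + √(w * (√(3 * (1 + T) / (1 - T) ^ 3) * ε)) := by
  have hp := h.cp
  have hn := h.cn
  have hm0 : (0 : ℝ) ≤ m := by positivity
  have cD := cont_Dl hp hz
  set g : X → ℝ := fun x => max (‖z x‖ ^ 2 - A0) 0 with hg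
  set a : X → ℝ := fun x => √(min (‖z x‖ ^ 2) A0) with ha
  have cg : Continuous g := by fun_prop
  have ca : Continuous a := by fun_prop
  have ha2 : ∀ x, a x ^ 2 = min (‖z x‖ ^ 2) A0 := fun x =>
    Real.sq_sqrt (le_min (by positivity) hA)
  -- splitting
  have e1 : VV μ m p n z T = m * PI μ p T (m + 1) (fun u => (a u.1 * ⟪p u.1, n u.2⟫) ^ 2)
      + m * PI μ p T (m + 1) (fun u => g u.1 * ⟪p u.1, n u.2⟫ ^ 2) := by
    unfold VV
    rw [← mul_add, ← PI_add h0 h1 _ hp h.np (by fun_prop) (by fun_prop)]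
    congr 2
    ext u
    rw [mul_pow, ha2, ← add_mul]
    congr 1
    simp only [hg]
    rcases le_total (‖z u.1‖ ^ 2) A0 with h3 | h3
    · rw [min_eq_left h3, max_eq_right (by linarith)]
      ring
    · rw [min_eq_right h3, max_eq_left (by linarith)]
      ring
  have k1 := rare_le h h0 h1 hw0 hw cg hε hgε
  -- Minkowski for the bounded part
  have hpt : ∀ u : X × X, ⟪p u.2, n u.1⟫ - ⟪p u.1, n u.2⟫ = Dl p z u := by
    intro u
    unfold Dl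
    rw [hzJ, hzJ, inner_sub_right, inner_sub_right]
    have : ⟪p u.2, J (p u.1)⟫ = ⟪p u.1, J (p u.2)⟫ := by
      rw [← hJ, real_inner_comm]
    rw [this]
    ring
  have k2 := PI_mink (μ := μ) (m := m) h0 h1 (m + 1) hp h.np
    (F := fun u => a u.1 * ⟪p u.1, n u.2⟫) (G := fun u => a u.1 * ⟪p u.2, n u.1⟫)
    (H := fun u => a u.1 * (-Dl p z u)) (by fun_prop) (by fun_prop) (by fun_prop) (fun u => by
      rw [← hpt]
      ring)
  have k3 : √(m * PI μ p T (m + 1) (fun u => (a u.1 * ⟪p u.2, n u.1⟫) ^ 2))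
      ≤ √(PP μ m p n z T) := by
    refine PI_sqrt_mono h0 h1 _ hp h.np (by fun_prop) (by fun_prop) fun u => ?_
    rw [mul_pow, ha2]
    exact mul_le_mul_of_nonneg_right (min_le_left _ _) (sq_nonneg _)
  have k4 : √(m * PI μ p T (m + 1) (fun u => (a u.1 * (-Dl p z u)) ^ 2))
      ≤ √(2 * A0 * LL μ m p z T) := by
    refine Real.sqrt_le_sqrt ?_
    have e2 : PI μ p T (m + 1) (fun u => (a u.1 * (-Dl p z u)) ^ 2)
        ≤ A0 * PI μ p T (m + 1) (fun u => Dl p z u ^ 2) := by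
      rw [← PI_mul]
      refine PI_mono h0 h1 _ hp h.np (by fun_prop) (by fun_prop) fun u => ?_
      rw [mul_pow, ha2, neg_sq]
      exact mul_le_mul_of_nonneg_right (min_le_right _ _) (sq_nonneg _)
    have e3 := mul_le_mul_of_nonneg_left e2 hm0
    unfold LL
    linarith
  have k5 := PP_le h h0 h1 hz
  have n1 : 0 ≤ m * PI μ p T (m + 1) (fun u => (a u.1 * ⟪p u.1, n u.2⟫) ^ 2) :=
    mul_nonneg hm0 (PI_nonneg h0 h1 _ h.np fun u => sq_nonneg _)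
  have n2 : 0 ≤ m * PI μ p T (m + 1) (fun u => g u.1 * ⟪p u.1, n u.2⟫ ^ 2) :=
    mul_nonneg hm0 (PI_nonneg h0 h1 _ h.np fun u => mul_nonneg (le_max_right _ _) (sq_nonneg _))
  have k6 : √(VV μ m p n z T) ≤ √(m * PI μ p T (m + 1) (fun u => (a u.1 * ⟪p u.1, n u.2⟫) ^ 2))
      + √(w * (√(3 * (1 + T) / (1 - T) ^ 3) * ε)) := by
    rw [e1]
    exact (sqrt_add_le_add n1 n2).trans (by
      have := Real.sqrt_le_sqrt k1
      linarith)
  linarith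

end

end Vale.Agent.P224.R2.H460
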