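import Vale.Agent.P224.R2.H460.Zi2
import Vale.Agent.P224.R2.H627.DCondM
import Vale.Agent.P224.R2.H627.DExp
import Vale.Agent.P224.R2.H582.Min

/-!
A quadratic lower bound of the weight of the level form, for `m ≥ 400` and `T ≤ 2/25`.
-/

namespace Vale.Agent.P224.R2.H460

open MeasureTheory Set Filter Function Real Vale.Agent.P224.SM2 Vale.Agent.P224.R2.H820
open Vale.Agent.P224.R2.H627 Vale.Agent.P224.R2.H582
open scoped Topology

variable {m : ℕ} {T s t W E ρ l κ X : ℝ}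

/-- bounds of the scaled variable -/
lemma s_bds (h : Bds2 T s t W E ρ) (hT : T ≤ 2 / 25) :
    s ≤ 57 / 500 ∧ T ≤ 71 / 100 * s ∧ √2 * (T - T ^ 3 / 2) ≤ s := by
  have hT0 := h.T0
  have hs0 := h.s0
  have hTs := h.Ts
  have e1 : s ^ 2 * (1 + T ^ 2) = 2 * T ^ 2 := by linarith
  have k1 : s ^ 2 ≤ 2 * T ^ 2 := by nlinarith [mul_nonneg (sq_nonneg s) (sq_nonneg T)]
  have k2 : T ^ 2 ≤ 4 / 625 := by nlinarith
  have k3 : s ≤ 57 / 500 := by nlinarith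
  refine ⟨k3, ?_, ?_⟩
  · have k4 : T ^ 2 ≤ (71 / 100 * s) ^ 2 := by
      have : T ^ 2 * (2 - s ^ 2) ≤ (71 / 100 * s) ^ 2 * (2 - s ^ 2) := by
        rw [hTs]
        have h5 : 0 ≤ s ^ 2 * ((71 / 100) ^ 2 * (2 - s ^ 2) - 1) := by
          refine mul_nonneg (sq_nonneg s) ?_
          nlinarith
        nlinarith
      exact le_of_mul_le_mul_right this (by nlinarith)
    exact abs_le_of_sq_le_sq' k4 (by positivity) |>.2
  · have k5 : (√2 * (T - T ^ 3 / 2)) ^ 2 ≤ s ^ 2 := by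
      rw [mul_pow, Real.sq_sqrt (by norm_num)]
      have h6 : 2 * (T - T ^ 3 / 2) ^ 2 * (1 + T ^ 2) ≤ s ^ 2 * (1 + T ^ 2) := by
        rw [e1]
        have h7 : 2 * T ^ 2 - 2 * (T - T ^ 3 / 2) ^ 2 * (1 + T ^ 2)
            = T ^ 6 * (3 - T ^ 2) / 2 := by ring
        have h8 : 0 ≤ T ^ 6 * (3 - T ^ 2) / 2 := by
          have : 0 ≤ 3 - T ^ 2 := by linarith
          positivity
        linarith
      exact le_of_mul_le_mul_right h6 (by positivity)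
    exact abs_le_of_sq_le_sq' k5 hs0.le |>.2

/-- lower bound of the first function -/
lemma vW_low (hs0 : 0 < s) (hs : s ≤ 57 / 500) (ht0 : 0 ≤ t) (ht : t ≤ 1 / 200) :
    1 + 45 / 100 * t ≤ vW s t := by
  rw [vW_exp]
  have s2 : s ^ 2 ≤ 13 / 1000 := by nlinarith
  have s20 : 0 ≤ s ^ 2 := sq_nonneg s
  have s4 : 0 ≤ s ^ 4 := by positivity
  have s6 : s ^ 6 ≤ 1 := pow_le_one₀ hs0.le (by linarith)
  have s10 : s ^ 10 ≤ 1 := pow_le_one₀ hs0.le (by linarith)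
  have s8 : 0 ≤ s ^ 8 := by positivity
  have s12 : 0 ≤ s ^ 12 := by positivity
  set A := -(303 / 1600) - 259 / 100 * s ^ 2 + 1047 / 200 * s ^ 4 - 241 / 50 * s ^ 6
    + 461 / 200 * s ^ 8 - 33 / 50 * s ^ 10 + 11 / 100 * s ^ 12 with hA
  have q2 : -6 ≤ A := by rw [hA]; linarith
  have q3 := mul_le_mul_of_nonneg_left q2 ht0
  have q1 : (45 / 100 : ℝ) ≤ (1 / 2 - 3 / 4 * s ^ 2 + 3 / 8 * s ^ 4) + t * A := by linarith
  have q4 := mul_le_mul_of_nonneg_left q1 ht0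
  linarith

/-- lower bound of the second function -/
lemma vL_low (hs0 : 0 < s) (hs : s ≤ 57 / 500) (ht0 : 0 ≤ t) (ht : t ≤ 1 / 200) :
    1 - s ^ 2 ≤ vL s t := by
  rw [vL_exp]
  have s2 : s ^ 2 ≤ 13 / 1000 := by nlinarith
  have s20 : 0 ≤ s ^ 2 := sq_nonneg s
  have s4 : 0 ≤ s ^ 4 := by positivity
  have s6 : s ^ 6 ≤ s ^ 2 := pow_le_pow_of_le_one hs0.le (by linarith) (by norm_num)
  have s10 : s ^ 10 ≤ s ^ 2 := pow_le_pow_of_le_one hs0.le (by linarith) (by norm_num)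
  have s8 : 0 ≤ s ^ 8 := by positivity
  have s12 : 0 ≤ s ^ 12 := by positivity
  set A := 36 / 25 - 5307 / 100 * s ^ 2 + 27687 / 100 * s ^ 4 - 67091 / 100 * s ^ 6
    + 17939 / 20 * s ^ 8 - 31807 / 50 * s ^ 10 + 9243 / 50 * s ^ 12 with hA
  have q2 : -20 ≤ A := by rw [hA]; linarith
  have q3 := mul_le_mul_of_nonneg_left q2 ht0
  have q1 : (0 : ℝ) ≤ (3 / 2 - 33 / 4 * s ^ 2 + 89 / 8 * s ^ 4 - 35 / 8 * s ^ 6) + t * A := by
    linarith
  have q4 := mul_nonneg ht0 q1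
  linarith

/-- lower bound of the third function -/
lemma uL_low (hs0 : 0 < s) (hs : s ≤ 57 / 500) (ht0 : 0 ≤ t) (ht : t ≤ 1 / 200) :
    2 / 3 + 1 / 3 * s + 22 / 100 * t ≤ uL s t := by
  rw [uL_exp]
  have s2 : s ^ 2 ≤ 13 / 1000 := by nlinarith
  have s20 : 0 ≤ s ^ 2 := sq_nonneg s
  have s30 : 0 ≤ s ^ 3 := by positivity
  have s3 : s ^ 3 ≤ 2 / 1000 := by
    calc s ^ 3 = s ^ 2 * s := by ring
      _ ≤ 13 / 1000 * (57 / 500) := mul_le_mul s2 hs hs0.le (by norm_num)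
      _ ≤ _ := by norm_num
  have s4 : 0 ≤ s ^ 4 := by positivity
  have s5 : 0 ≤ s ^ 5 := by positivity
  have s51 : s ^ 5 ≤ s ^ 3 := pow_le_pow_of_le_one hs0.le (by linarith) (by norm_num)
  have s61 : s ^ 6 ≤ s ^ 3 := pow_le_pow_of_le_one hs0.le (by linarith) (by norm_num)
  have s7 : 0 ≤ s ^ 7 := by positivity
  have s8 : 0 ≤ s ^ 8 := by positivity
  have s9 : 0 ≤ s ^ 9 := by positivity
  have s101 : s ^ 10 ≤ s ^ 3 := pow_le_pow_of_le_one hs0.le (by linarith) (by norm_num)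
  have s111 : s ^ 11 ≤ s ^ 3 := pow_le_pow_of_le_one hs0.le (by linarith) (by norm_num)
  set A := -(58046 / 86625) - 240832 / 86625 * s - 141206 / 28875 * s ^ 2
            + 3703969 / 346500 * s ^ 3 + 910241 / 34650 * s ^ 4 - 78104 / 5775 * s ^ 5
            - 263927 / 4950 * s ^ 6 + 27043 / 9900 * s ^ 7 + 3233 / 55 * s ^ 8
            + 4172 / 275 * s ^ 9 - 711 / 25 * s ^ 10 - 711 / 50 * s ^ 11 with hA
  have q2 : -2 ≤ A := by rw [hA]; linarith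
  have q3 := mul_le_mul_of_nonneg_left q2 ht0
  have q1 : (22 / 100 : ℝ) ≤ (7 / 20 - 4 / 5 * s - 39 / 20 * s ^ 2 - 7 / 20 * s ^ 3
      + 5 / 4 * s ^ 4 + 5 / 8 * s ^ 5) + t * A := by linarith
  have q4 := mul_le_mul_of_nonneg_left q1 ht0
  linarith

/-- the algebra of the first two terms -/
lemma first_alg {P c0 q : ℝ} (hs0 : 0 < s) (hs : s ≤ 57 / 500) (ht0 : 0 ≤ t)
    (hW : 1 + 45 / 100 * t ≤ W) (hρ : P + 22 / 100 * t * (1 - s) ^ 2 ≤ ρ)
    (hP0 : 0 ≤ P) (hP1 : P ≤ 2 / 3 - 99 / 100 * s) (hq0 : 0 ≤ q)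
    (hq : q ≤ 71 / 100 * s + 148 / 10 * s ^ 2) (hcq : 70 / 100 ≤ c0 - t * q) {cρ : ℝ}
    (hcρ : c0 - t * q ≤ cρ) : s + P * c0 ≤ s * W + ρ * cρ := by
  have r1 : s * (1 + 45 / 100 * t) ≤ s * W := mul_le_mul_of_nonneg_left hW hs0.le
  have hX : 0 ≤ P + 22 / 100 * t * (1 - s) ^ 2 := by positivity
  have r2 : (P + 22 / 100 * t * (1 - s) ^ 2) * (c0 - t * q) ≤ ρ * cρ :=
    mul_le_mul hρ hcρ (by linarith) (hX.trans hρ)
  have r3 : 22 / 100 * t * (1 - s) ^ 2 * (70 / 100)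
      ≤ 22 / 100 * t * (1 - s) ^ 2 * (c0 - t * q) :=
    mul_le_mul_of_nonneg_left hcq (by positivity)
  have r4 : P * q ≤ (2 / 3 - 99 / 100 * s) * (71 / 100 * s + 148 / 10 * s ^ 2) :=
    mul_le_mul hP1 hq hq0 (by linarith)
  have r5 : (2 / 3 - 99 / 100 * s) * (71 / 100 * s + 148 / 10 * s ^ 2)
      ≤ 45 / 100 * s + 22 / 100 * (1 - s) ^ 2 * (70 / 100) := by
    nlinarith [mul_nonneg (sq_nonneg s) hs0.le, mul_nonneg hs0.le (sub_nonneg.2 hs)]
  have r6 := mul_le_mul_of_nonneg_left (r4.trans r5) ht0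
  linarith

/-- the first two terms -/
lemma first_two (h : Bds2 T s t W E ρ) (hT : T ≤ 2 / 25) (ht : t ≤ 1 / 200) (hX0 : 0 ≤ X)
    (hX : X ≤ 972 / 50 * T ^ 2) :
    s + (2 / 3 - s + s ^ 3 / 3) * (1 - 2 * T - X)
      ≤ s * W + ρ * (1 - (2 + t) * T - (1 + t / 2) * (1 + t) * X) := by
  obtain ⟨hs, hTs, -⟩ := s_bds h hT
  have hT0 := h.T0
  have hs0 := h.s0
  have ht0 := h.t0
  have k2 : T ^ 2 ≤ 4 / 625 := by nlinarith
  have hX1 : X ≤ 125 / 1000 := by linarith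
  have hXs : X ≤ 98 / 10 * s ^ 2 := by
    have : T ^ 2 ≤ (71 / 100 * s) ^ 2 := pow_le_pow_left₀ hT0.le hTs 2
    have s20 : 0 ≤ s ^ 2 := sq_nonneg s
    linarith
  have s3 : 0 ≤ s ^ 3 := by positivity
  have s31 : s ^ 3 / 3 ≤ 1 / 100 * s := by
    have : s ^ 3 = s * s ^ 2 := by ring
    rw [this]
    have s2 : s ^ 2 ≤ 13 / 1000 := by nlinarith
    have := mul_le_mul_of_nonneg_left s2 hs0.le
    linarith
  have q5 := uL_low hs0 hs ht0 ht
  have q6 := mul_le_mul_of_nonneg_left q5 (sq_nonneg (1 - s))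
  have hcρ0 : t * (T + 151 / 100 * X) ≤ 1 / 200 * (T + 151 / 100 * X) :=
    mul_le_mul_of_nonneg_right ht (by positivity)
  refine first_alg (q := T + 151 / 100 * X) hs0 hs ht0 ((vW_low hs0 hs ht0 ht).trans h.Wl) ?_ ?_
    (by linarith) (by positivity) (by linarith) (by linarith) ?_
  · refine le_trans (le_of_eq ?_) (q6.trans h.Rl)
    ring
  · linarith
  · have h1 : 0 ≤ t * X * (1 / 100 - t / 2) := by
      have := mul_nonneg ht0 hX0
      have h2 : 0 ≤ 1 / 100 - t / 2 := by linarith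
      positivity
    have e : 1 - (2 + t) * T - (1 + t / 2) * (1 + t) * X
        = (1 - 2 * T - X - t * (T + 151 / 100 * X)) + t * X * (1 / 100 - t / 2) := by ring
    rw [e]
    linarith

/-- the e part -/
lemma e_part (h : Bds2 T s t W E ρ) (hT : T ≤ 2 / 25) (ht : t ≤ 1 / 200)
    (hκ : κ ≤ 4) : T * ((1 + T) * (979 / 1000 * s))
      ≤ (1 + t / 2) * T * ((1 + T) * (1 - κ * T ^ 4) * (s * (2 - s ^ 2) * E / 2)) := by
  obtain ⟨hs, -, -⟩ := s_bds h hT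
  have hT0 := h.T0
  have hs0 := h.s0
  have ht0 := h.t0
  have k2 : T ^ 2 ≤ 4 / 625 := by nlinarith
  have s2 : s ^ 2 ≤ 13 / 1000 := by nlinarith
  have s20 : 0 ≤ s ^ 2 := sq_nonneg s
  have hE : 1 - s ^ 2 ≤ E := (vL_low hs0 hs ht0 ht).trans h.El
  have hT4 : κ * T ^ 4 ≤ 1 / 1000 := by
    have e4 : T ^ 4 ≤ (4 / 625) ^ 2 := by
      calc T ^ 4 = (T ^ 2) ^ 2 := by ring
        _ ≤ _ := pow_le_pow_left₀ (sq_nonneg T) k2 2
    have h4 : 0 ≤ T ^ 4 := by positivity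
    calc κ * T ^ 4 ≤ 4 * (4 / 625) ^ 2 := mul_le_mul hκ e4 h4 (by norm_num)
      _ ≤ _ := by norm_num
  have c1 : s * (2 - s ^ 2) * (1 - s ^ 2) / 2 ≤ s * (2 - s ^ 2) * E / 2 := by
    have : 0 ≤ s * (2 - s ^ 2) := mul_nonneg hs0.le (by linarith)
    have := mul_le_mul_of_nonneg_left hE this
    linarith
  have c2 : 9805 / 10000 * s ≤ s * (2 - s ^ 2) * (1 - s ^ 2) / 2 := by
    have e1 : s * (2 - s ^ 2) * (1 - s ^ 2) / 2 = s * (1 - 3 / 2 * s ^ 2 + (s ^ 2) ^ 2 / 2) := by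
      ring
    rw [e1, mul_comm]
    refine mul_le_mul_of_nonneg_left ?_ hs0.le
    have : 0 ≤ (s ^ 2) ^ 2 := sq_nonneg _
    linarith
  have c3 : 9805 / 10000 * s ≤ s * (2 - s ^ 2) * E / 2 := c2.trans c1
  have c4 : 999 / 1000 ≤ 1 - κ * T ^ 4 := by linarith
  have c5 : 999 / 1000 * (9805 / 10000 * s) ≤ (1 - κ * T ^ 4) * (s * (2 - s ^ 2) * E / 2) :=
    mul_le_mul c4 c3 (by positivity) (by linarith)
  have b1 : 979 / 1000 * s ≤ (1 - κ * T ^ 4) * (s * (2 - s ^ 2) * E / 2) := by linarith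
  set Y := (1 - κ * T ^ 4) * (s * (2 - s ^ 2) * E / 2) with hY
  have c6 : (1 + T) * (979 / 1000 * s) ≤ (1 + T) * Y :=
    mul_le_mul_of_nonneg_left b1 (by linarith)
  have c7 : 0 ≤ (1 + T) * Y := le_trans (by positivity) c6
  have c8 := mul_le_mul_of_nonneg_left c6 hT0.le
  have c9 : 0 ≤ t / 2 * (T * ((1 + T) * Y)) := mul_nonneg (by linarith) (mul_nonneg hT0.le c7)
  have e2 : (1 + t / 2) * T * ((1 + T) * (1 - κ * T ^ 4) * (s * (2 - s ^ 2) * E / 2))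
      = T * ((1 + T) * Y) + t / 2 * (T * ((1 + T) * Y)) := by rw [hY]; ring
  rw [e2]
  linarith

/-- the polynomial inequality -/
lemma poly_w (hT0 : 0 < T) (hT : T ≤ 2 / 25) :
    (1 - T ^ 2) * wq (4714 / 10000) 1 (18 / 5) T
      ≤ (T - T ^ 3 / 2) * (2 * T + (193 / 10 * T ^ 2 + 389 / 20 * T ^ 4))
        + 1414213 / 3000000 * (1 - 2 * T - (193 / 10 * T ^ 2 + 389 / 20 * T ^ 4))
        + 465 / 1000 * T ^ 3 + T * ((1 + T) * (979 / 1000 * (T - T ^ 3 / 2))) := by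
  have hT3 : 0 ≤ T ^ 3 := by positivity
  have hT5 : 0 ≤ T ^ 5 := by positivity
  have hT7 : T ^ 7 ≤ 4 / 625 * T ^ 5 := by
    have k2 : T ^ 2 ≤ 4 / 625 := by nlinarith
    calc T ^ 7 = T ^ 2 * T ^ 5 := by ring
      _ ≤ _ := mul_le_mul_of_nonneg_right k2 hT5
  have hT43 : T ^ 4 ≤ 2 / 25 * T ^ 3 := by
    have := mul_le_mul_of_nonneg_right hT hT3
    linarith
  have g6 : 0 ≤ T * (5719 / 100000 - 205 / 100 * T + 186 / 10 * T ^ 2) := by
    refine mul_nonneg hT0.le ?_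
    have e : (5719 / 100000 - 205 / 100 * T + 186 / 10 * T ^ 2 : ℝ)
        = 186 / 10 * (T - 205 / 3720) ^ 2 + (5719 / 100000 - 205 ^ 2 / 744000) := by ring
    rw [e]
    have := sq_nonneg (T - 205 / 3720)
    norm_num
    positivity
  unfold wq
  linarith

/-- the lower bound of the weight -/
theorem core_w (h : Bds2 T s t W E ρ) (hT : T ≤ 2 / 25) (ht : t ≤ 1 / 200) (hl : l ≤ 193 / 10)
    (hκ : κ ≤ 4) :
    √2 * ((1 - T ^ 2) * wq (4714 / 10000) 1 (18 / 5) T)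
      ≤ s * W + ρ - l * ((1 + t / 2) * (1 + t)) * (T ^ 2 / (1 - T ^ 2)) * ρ
        - (1 + t / 2) * T * (2 * ρ - (1 + T) * (1 - κ * T ^ 4) * (s * (2 - s ^ 2) * E / 2)) := by
  obtain ⟨-, -, hsl⟩ := s_bds h hT
  have hT0 := h.T0
  have hs0 := h.s0
  have ht0 := h.t0
  have hR0 := h.R0
  have k2 : T ^ 2 ≤ 4 / 625 := by nlinarith
  have hk : 0 < 1 - T ^ 2 := by linarith
  set X : ℝ := 193 / 10 * (T ^ 2 / (1 - T ^ 2)) with hX
  have hX0 : 0 ≤ X := by positivity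
  have hXu : X ≤ 193 / 10 * T ^ 2 + 389 / 20 * T ^ 4 := by
    rw [hX, mul_div_assoc', div_le_iff₀ hk]
    have : 0 ≤ T ^ 4 * (3 / 20 - 389 / 20 * T ^ 2) := by
      have h2 : 0 ≤ 3 / 20 - 389 / 20 * T ^ 2 := by linarith
      positivity
    linarith
  have hXv : X ≤ 972 / 50 * T ^ 2 := by
    have : T ^ 4 ≤ 4 / 625 * T ^ 2 := by
      calc T ^ 4 = T ^ 2 * T ^ 2 := by ring
        _ ≤ _ := mul_le_mul_of_nonneg_right k2 (sq_nonneg T)
    linarith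
  have a1 := first_two h hT ht hX0 hXv
  have a2 : l * ((1 + t / 2) * (1 + t)) * (T ^ 2 / (1 - T ^ 2)) * ρ
      ≤ (1 + t / 2) * (1 + t) * X * ρ := by
    have e1 : (1 + t / 2) * (1 + t) * X * ρ
        = 193 / 10 * ((1 + t / 2) * (1 + t)) * (T ^ 2 / (1 - T ^ 2)) * ρ := by rw [hX]; ring
    rw [e1]
    gcongr
  have b2 := e_part h hT ht hκ
  set τ : ℝ := T - T ^ 3 / 2 with hτ
  have eτ : τ = T * (1 - T ^ 2 / 2) := by rw [hτ]; ring
  have hτ0 : 0 ≤ τ := by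
    rw [eτ]
    exact mul_nonneg hT0.le (by linarith)
  have h2 : 0 < √(2 : ℝ) := by positivity
  have h22 : √(2 : ℝ) * √2 = 2 := Real.mul_self_sqrt (by norm_num)
  have h2l : (1414213 / 1000000 : ℝ) ≤ √2 := by
    rw [Real.le_sqrt' (by norm_num)]
    norm_num
  set c0 : ℝ := 1 - 2 * T - X with hc0
  have hX1 : X ≤ 125 / 1000 := by linarith
  have hc1 : 71 / 100 ≤ c0 := by rw [hc0]; linarith
  have p1 : √2 * τ * (2 * T + X) ≤ s * (2 * T + X) :=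
    mul_le_mul_of_nonneg_right hsl (by positivity)
  have p2 : √2 * (473 / 1000 * τ ^ 3) ≤ s ^ 3 / 3 * c0 := by
    have d1 : (√2 * τ) ^ 3 ≤ s ^ 3 := pow_le_pow_left₀ (by positivity) hsl 3
    have d2 : (√2 * τ) ^ 3 = 2 * (√2 * τ ^ 3) := by
      calc (√2 * τ) ^ 3 = (√2 * √2) * (√2 * τ ^ 3) := by ring
        _ = _ := by rw [h22]
    rw [d2] at d1
    have d3 : 0 ≤ √2 * τ ^ 3 := by positivity
    have d4 := mul_le_mul d1 hc1 (by norm_num) (by positivity)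
    linarith
  have p3 : √2 * (T * ((1 + T) * (979 / 1000 * τ))) ≤ T * ((1 + T) * (979 / 1000 * s)) := by
    have := mul_le_mul_of_nonneg_left hsl (show 0 ≤ T * ((1 + T) * (979 / 1000)) by positivity)
    linarith
  have p4 : √2 * (1414213 / 3000000 * c0) ≤ 2 / 3 * c0 := by
    have : √2 * (1414213 / 1000000) ≤ 2 := by
      have := mul_le_mul_of_nonneg_left h2l h2.le
      linarith
    have := mul_le_mul_of_nonneg_right this (show 0 ≤ c0 / 3 by linarith)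
    linarith
  have g5 : 465 / 1000 * T ^ 3 ≤ 473 / 1000 * τ ^ 3 := by
    have e5 : τ ^ 3 = T ^ 3 * (1 - T ^ 2 / 2) ^ 3 := by rw [eτ]; ring
    have g4 : 99 / 100 ≤ (1 - T ^ 2 / 2) ^ 3 := by
      have h9 : 9968 / 10000 ≤ (1 - T ^ 2 / 2) := by linarith
      calc (99 / 100 : ℝ) ≤ (9968 / 10000) ^ 3 := by norm_num
        _ ≤ _ := pow_le_pow_left₀ (by norm_num) h9 3
    rw [e5]
    have := mul_le_mul_of_nonneg_left g4 (show 0 ≤ T ^ 3 by positivity)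
    have hT3 : 0 ≤ T ^ 3 := by positivity
    linarith
  have g1 : τ * (2 * T + (193 / 10 * T ^ 2 + 389 / 20 * T ^ 4))
      + 1414213 / 3000000 * (1 - 2 * T - (193 / 10 * T ^ 2 + 389 / 20 * T ^ 4))
      ≤ τ * (2 * T + X) + 1414213 / 3000000 * c0 := by
    have hT3 : 0 ≤ T ^ 3 := by positivity
    have g2 : τ ≤ 2 / 25 := by rw [hτ]; linarith
    have g3 : 0 ≤ (1414213 / 3000000 - τ) * ((193 / 10 * T ^ 2 + 389 / 20 * T ^ 4) - X) :=
      mul_nonneg (by linarith) (by linarith)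
    rw [hc0]
    linarith
  have poly := poly_w hT0 hT
  rw [← hτ] at poly
  have poly2 : (1 - T ^ 2) * wq (4714 / 10000) 1 (18 / 5) T
      ≤ τ * (2 * T + X) + 1414213 / 3000000 * c0 + 473 / 1000 * τ ^ 3
        + T * ((1 + T) * (979 / 1000 * τ)) := by linarith
  have fin := mul_le_mul_of_nonneg_left poly2 h2.le
  have e9 : s + (2 / 3 - s + s ^ 3 / 3) * c0 = s * (2 * T + X) + 2 / 3 * c0 + s ^ 3 / 3 * c0 := by
    rw [hc0]; ring
  rw [e9] at a1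
  have e10 : s * W + ρ - l * ((1 + t / 2) * (1 + t)) * (T ^ 2 / (1 - T ^ 2)) * ρ
        - (1 + t / 2) * T * (2 * ρ - (1 + T) * (1 - κ * T ^ 4) * (s * (2 - s ^ 2) * E / 2))
      = (s * W + ρ * (1 - (2 + t) * T - (1 + t / 2) * (1 + t) * X))
        + ((1 + t / 2) * (1 + t) * X * ρ - l * ((1 + t / 2) * (1 + t)) * (T ^ 2 / (1 - T ^ 2)) * ρ)
        + (1 + t / 2) * T * ((1 + T) * (1 - κ * T ^ 4) * (s * (2 - s ^ 2) * E / 2)) := by ring
  rw [e10]
  linarith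

/-- the weight condition of the law -/
theorem hq_of (hm : 400 ≤ m) (hT : T ∈ Ioo (0 : ℝ) (2 / 25)) {lam : ℝ}
    (hl : (1 - T ^ 2) * lam ≤ 193 / 10) :
    m * (wq (4714 / 10000) 1 (18 / 5) T * cw m T)
      ≤ al m T (yM m T) (rM m T) lam - be m (31 / 10) T (eM m T) (rM m T) / (1 - T) := by
  have hT1 : T ∈ Ioo (0 : ℝ) 1 := ⟨hT.1, hT.2.trans (by norm_num)⟩
  have hk : 0 < 1 - T ^ 2 := by nlinarith [hT1.1, hT1.2]
  have hk1 : 0 < 1 - T := by linarith [hT1.2]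
  have hmR : (400 : ℝ) ≤ m := by exact_mod_cast hm
  have hm0 : (0 : ℝ) < m := by linarith
  have h2 : 0 < √(2 : ℝ) := by positivity
  set K : ℝ := (1 - T ^ 2) ^ ((m : ℝ) / 2 - 1) with hK
  have hK0 : 0 < K := rpow_pos_of_pos hk _
  have hcw : cw m T = K * (1 - T ^ 2) := by
    unfold cw
    rw [hK, ← rpow_add_one hk.ne']
    ring_nf
  have hb := bds2_M (m := m) (by omega) hT1
  have hy := hy_M (m := m) T
  have hr := hr_M (m := m) T
  have he := he_M (m := m) hT1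
  rw [← hK] at hy hr he
  have ht : 2 / (m : ℝ) ≤ 1 / 200 := by
    rw [div_le_div_iff₀ hm0 (by norm_num)]
    linarith
  have hc := core_w (l := (1 - T ^ 2) * lam) (κ := 31 / 10) hb hT.2.le ht hl (by norm_num)
  set s := sv T
  set W := Wf (m / 2) (cn m) T
  set E := Ef (m / 2) (cn m) T
  set ρ := √2 * Rf (m / 2) (cn m) T
  have e1 : √2 * (al m T (yM m T) (rM m T) lam - be m (31 / 10) T (eM m T) (rM m T) / (1 - T))
      = m * K * (s * W + ρ - (1 - T ^ 2) * lam * ((1 + 2 / m / 2) * (1 + 2 / m))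
          * (T ^ 2 / (1 - T ^ 2)) * ρ
        - (1 + 2 / m / 2) * T
          * (2 * ρ - (1 + T) * (1 - 31 / 10 * T ^ 4) * (s * (2 - s ^ 2) * E / 2))) := by
    have e2 : √2 * (al m T (yM m T) (rM m T) lam - be m (31 / 10) T (eM m T) (rM m T) / (1 - T))
        = m * (√2 * (T * yM m T)) + m * (√2 * (m * rM m T))
          - (m + 1) * (m + 2) / m * T ^ 2 * lam * (√2 * (m * rM m T))
          - (m + 1) * T * (2 * (1 - T) * (√2 * (m * rM m T))
            - (1 - 31 / 10 * T ^ 4) * (√2 * (m * eM m T))) / (1 - T) := by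
      unfold al be
      field_simp
      ring
    rw [e2, hy, hr, he]
    field_simp
    ring
  have e3 : √2 * (m * (wq (4714 / 10000) 1 (18 / 5) T * cw m T))
      = m * K * (√2 * ((1 - T ^ 2) * wq (4714 / 10000) 1 (18 / 5) T)) := by
    rw [hcw]
    ring
  have e4 : √2 * (m * (wq (4714 / 10000) 1 (18 / 5) T * cw m T))
      ≤ √2 * (al m T (yM m T) (rM m T) lam
        - be m (31 / 10) T (eM m T) (rM m T) / (1 - T)) := by
    rw [e1, e3]
    exact mul_le_mul_of_nonneg_left hc (by positivity)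
  exact le_of_mul_le_mul_left e4 h2

end Vale.Agent.P224.R2.H460
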