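import Vale.Agent.P224.R2.H460.Lvl

/-!
The integral over the levels.
-/

namespace Vale.Agent.P224.R2.H460

open MeasureTheory Module Function Set Vale.Agent.P224.R2.H470
open scoped RealInnerProductSpace Topology ContDiff

set_option linter.unusedSectionVars false

lemma V_of_sqrt {T V Φ L H A0 η δ : ℝ} (hT1 : T < 1) (hV : 0 ≤ V) (hH : 0 ≤ H) (hΦ : Φ ≤ H)
    (hL : 0 ≤ L) (hA0 : 0 ≤ A0) (hη : 0 ≤ η) (hδ : 0 < δ)
    (hb : (1 - T) * √V ≤ √Φ + √(2 * A0 * L) + η * √H) :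
    (1 - T) ^ 2 * V ≤ (1 + δ) * (1 + η) ^ 2 * H + (1 + 1 / δ) * (2 * A0 * L) := by
  have h1 : (1 - T) * √V ≤ (1 + η) * √H + √(2 * A0 * L) := by
    have := Real.sqrt_le_sqrt hΦ
    linarith
  have h2 : 0 ≤ (1 - T) * √V := mul_nonneg (by linarith) (Real.sqrt_nonneg _)
  have h3 := pow_le_pow_left₀ h2 h1 2
  rw [mul_pow, Real.sq_sqrt hV] at h3
  set a := (1 + η) * √H with ha
  set b := √(2 * A0 * L) with hb'
  have ha2 : a ^ 2 = (1 + η) ^ 2 * H := by rw [ha, mul_pow, Real.sq_sqrt hH]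
  have hb2 : b ^ 2 = 2 * A0 * L := Real.sq_sqrt (by positivity)
  have h4 : (a + b) ^ 2 ≤ (1 + δ) * a ^ 2 + (1 + 1 / δ) * b ^ 2 := by
    have h5 : 0 ≤ (δ * a - b) ^ 2 / δ := by positivity
    have h6 : (δ * a - b) ^ 2 / δ = δ * a ^ 2 + 1 / δ * b ^ 2 - 2 * a * b := by
      field_simp
      ring
    rw [h6] at h5
    linarith
  rw [ha2, hb2] at h4
  linarith

lemma loss_pt {T Ts q0 q1 cs V L H a b : ℝ} (hT0 : 0 ≤ T) (hTs : T ≤ Ts) (hTs1 : Ts < 1)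
    (hq1 : 0 ≤ q1) (hq : 0 ≤ q0 - q1 * T) (hV0 : 0 ≤ V) (hL0 : 0 ≤ L) (hH : 0 ≤ H) (ha : 0 ≤ a)
    (hb : 0 ≤ b) (hV : (1 - T) ^ 2 * V ≤ a * H + b * L)
    (hcs : 1 ≤ cs * ((1 - Ts) ^ 2 * (1 - Ts ^ 2))) (hcs0 : 0 < cs) :
    (q0 * (Ts - T) - q1 * (Ts ^ 2 - T ^ 2) / 2) * (T / (1 - T ^ 2) * V)
      ≤ cs * a * H * ((q0 - q1 * T) * (T * (Ts - T)))
        + cs * b * (Ts ^ 2 / 4) * ((q0 - q1 * T) * L) := by
  have hT1 : T < 1 := hTs.trans_lt hTs1
  have hk : 0 < 1 - T ^ 2 := by nlinarith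
  have hks : 0 < 1 - Ts ^ 2 := by nlinarith
  set R := a * H + b * L with hR
  have hR0 : 0 ≤ R := by positivity
  have v2 : V / (1 - T ^ 2) ≤ cs * R := by
    rw [div_le_iff₀ hk]
    have a1 : (1 - Ts) ^ 2 ≤ (1 - T) ^ 2 := pow_le_pow_left₀ (by linarith) (by linarith) 2
    have a2 : 1 - Ts ^ 2 ≤ 1 - T ^ 2 := by
      have := pow_le_pow_left₀ hT0 hTs 2
      linarith
    have a3 : (1 - Ts) ^ 2 * (1 - Ts ^ 2) ≤ (1 - T) ^ 2 * (1 - T ^ 2) :=
      mul_le_mul a1 a2 hks.le (sq_nonneg _)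
    have a4 : 1 ≤ cs * ((1 - T) ^ 2 * (1 - T ^ 2)) :=
      hcs.trans (mul_le_mul_of_nonneg_left a3 hcs0.le)
    have a5 : 1 * V ≤ cs * ((1 - T) ^ 2 * (1 - T ^ 2)) * V := mul_le_mul_of_nonneg_right a4 hV0
    have a6 : cs * (1 - T ^ 2) * ((1 - T) ^ 2 * V) ≤ cs * (1 - T ^ 2) * R :=
      mul_le_mul_of_nonneg_left hV (by positivity)
    calc V = 1 * V := (one_mul V).symm
      _ ≤ cs * ((1 - T) ^ 2 * (1 - T ^ 2)) * V := a5
      _ = cs * (1 - T ^ 2) * ((1 - T) ^ 2 * V) := by ring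
      _ ≤ cs * (1 - T ^ 2) * R := a6
      _ = cs * R * (1 - T ^ 2) := by ring
  have k1 : q0 * (Ts - T) - q1 * (Ts ^ 2 - T ^ 2) / 2 ≤ (q0 - q1 * T) * (Ts - T) := by
    have h1 : 0 ≤ q1 * (Ts - T) ^ 2 := by positivity
    have h2 : (q0 - q1 * T) * (Ts - T) - (q0 * (Ts - T) - q1 * (Ts ^ 2 - T ^ 2) / 2)
        = q1 * (Ts - T) ^ 2 / 2 := by ring
    linarith
  have k2 : 0 ≤ (q0 - q1 * T) * (Ts - T) := mul_nonneg hq (by linarith)
  have b1 : T / (1 - T ^ 2) * V = T * (V / (1 - T ^ 2)) := by ring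
  have b2 : T * (V / (1 - T ^ 2)) ≤ T * (cs * R) := mul_le_mul_of_nonneg_left v2 hT0
  have b3 : 0 ≤ T * (V / (1 - T ^ 2)) := mul_nonneg hT0 (div_nonneg hV0 hk.le)
  rw [b1]
  refine ((mul_le_mul_of_nonneg_right k1 b3).trans (mul_le_mul_of_nonneg_left b2 k2)).trans ?_
  have k4 : T * (Ts - T) ≤ Ts ^ 2 / 4 := by
    have h1 : Ts ^ 2 / 4 - T * (Ts - T) = (Ts - 2 * T) ^ 2 / 4 := by ring
    have h2 := sq_nonneg (Ts - 2 * T)
    linarith
  have k5 : 0 ≤ (q0 - q1 * T) * (cs * (b * L)) := mul_nonneg hq (by positivity)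
  have k6 := mul_le_mul_of_nonneg_right k4 k5
  calc (q0 - q1 * T) * (Ts - T) * (T * (cs * R))
      = cs * a * H * ((q0 - q1 * T) * (T * (Ts - T)))
        + T * (Ts - T) * ((q0 - q1 * T) * (cs * (b * L))) := by
        rw [hR]; ring
    _ ≤ cs * a * H * ((q0 - q1 * T) * (T * (Ts - T)))
        + Ts ^ 2 / 4 * ((q0 - q1 * T) * (cs * (b * L))) := by linarith
    _ = _ := by ring

section

variable {X : Type*} {E : Type*} [NormedAddCommGroup E] [InnerProductSpace ℝ E]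
variable [TopologicalSpace X] [MeasurableSpace X] [SecondCountableTopology X]
variable [CompactSpace X] [BorelSpace X] {μ : Measure X} [IsProbabilityMeasure μ] {m : ℕ}
  {p n : X → E} {z : X → E} {T : ℝ}

lemma contOn_VV (h : OneP μ m p n) (hz : Continuous z) :
    ContinuousOn (fun T => cw m T * VV μ m p n z T) (Ico 0 1) := by
  have hp := h.cp
  have hn := h.cn
  refine (contOn_cw m).mul (continuousOn_const.mul (contOn_PI (m + 1) h.cp h.np (by fun_prop)))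

lemma contOn_LL (h : OneP μ m p n) (hz : Continuous z) :
    ContinuousOn (fun T => cw m T * LL μ m p z T) (Ico 0 1) := by
  have hD := cont_Dl h.cp hz
  refine (contOn_cw m).mul (continuousOn_const.mul (contOn_PI (m + 1) h.cp h.np (by fun_prop)))

/-- the density loss as an integral -/
theorem loss_eq (h : OneP μ m p n) (hm : 1 ≤ m) (hz : Continuous z) {Ts q0 q1 : ℝ}
    (hTs0 : 0 < Ts) (hTs1 : Ts < 1) :
    ∫ T in (0 : ℝ)..Ts, (q0 - q1 * T) * ((∫ x, ‖z x‖ ^ 2 ∂μ) - cw m T * ph μ m p z T)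
      = ∫ T in (0 : ℝ)..Ts, (q0 * (Ts - T) - q1 * (Ts ^ 2 - T ^ 2) / 2)
        * (T / (1 - T ^ 2) * (cw m T * VV μ m p n z T)) := by
  set H := ∫ x, ‖z x‖ ^ 2 ∂μ with hH
  have hsub : Icc 0 Ts ⊆ Ico (0 : ℝ) 1 := fun x hx => ⟨hx.1, hx.2.trans_lt hTs1⟩
  have cf : Continuous fun x => ‖z x‖ ^ 2 := by fun_prop
  have cΦ : ContinuousOn (fun T => cw m T * ph μ m p z T) (Icc 0 Ts) :=
    (contOn_ph h.cp h.np cf).mono hsub
  have cV := (contOn_VV h hz).mono hsub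
  have ck : ContinuousOn (fun T : ℝ => T / (1 - T ^ 2)) (Icc 0 Ts) :=
    ContinuousOn.div (by fun_prop) (by fun_prop) fun x hx =>
      (one_sub_sq_pos hx.1 (hx.2.trans_lt hTs1)).ne'
  have hF0 : cw m 0 * ph μ m p z 0 = H := by
    unfold ph
    exact ph_zero m (fun x => ‖z x‖ ^ 2)
  have c1 : ContinuousOn (fun T : ℝ => (q0 * (Ts - T) - q1 * (Ts ^ 2 - T ^ 2) / 2)
      * (H - cw m T * ph μ m p z T)) (Icc 0 Ts) :=
    ContinuousOn.mul (by fun_prop) (continuousOn_const.sub cΦ)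
  have c2 : ContinuousOn (fun T : ℝ => (q0 - q1 * T) * (H - cw m T * ph μ m p z T)) (Icc 0 Ts) :=
    ContinuousOn.mul (by fun_prop) (continuousOn_const.sub cΦ)
  have c3 : ContinuousOn (fun T : ℝ => (q0 * (Ts - T) - q1 * (Ts ^ 2 - T ^ 2) / 2)
        * (T / (1 - T ^ 2) * (cw m T * VV μ m p n z T))) (Icc 0 Ts) :=
    ContinuousOn.mul (by fun_prop) (ck.mul cV)
  have i2 : IntervalIntegrable (fun T : ℝ => (q0 - q1 * T) * (H - cw m T * ph μ m p z T)) volume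
      0 Ts := (c2.mono (by rw [uIcc_of_le hTs0.le])).intervalIntegrable
  have i3 : IntervalIntegrable (fun T : ℝ => (q0 * (Ts - T) - q1 * (Ts ^ 2 - T ^ 2) / 2)
        * (T / (1 - T ^ 2) * (cw m T * VV μ m p n z T))) volume 0 Ts :=
    (c3.mono (by rw [uIcc_of_le hTs0.le])).intervalIntegrable
  have key := intervalIntegral.integral_eq_sub_of_hasDerivAt_of_le hTs0.le c1
    (f' := fun T => (q0 * (Ts - T) - q1 * (Ts ^ 2 - T ^ 2) / 2)
        * (T / (1 - T ^ 2) * (cw m T * VV μ m p n z T))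
        - (q0 - q1 * T) * (H - cw m T * ph μ m p z T)) (fun T hT => by
      have d1 : HasDerivAt (fun T : ℝ => q0 * (Ts - T) - q1 * (Ts ^ 2 - T ^ 2) / 2)
          (-(q0 - q1 * T)) T := by
        have a1 : HasDerivAt (fun T : ℝ => Ts - T) (-1) T := by
          simpa using (hasDerivAt_id T).const_sub Ts
        have a2 : HasDerivAt (fun T : ℝ => Ts ^ 2 - T ^ 2) (-(2 * T)) T := by
          simpa using ((hasDerivAt_id T).pow 2).const_sub (Ts ^ 2)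
        have a3 := (a1.const_mul q0).sub ((a2.const_mul q1).div_const 2)
        refine a3.congr_deriv ?_
        ring
      have d2 := (hasDerivAt_ph h hm cf (T := T) ⟨hT.1, hT.2.trans hTs1⟩).const_sub H
      have d3 := d1.mul d2
      refine d3.congr_deriv ?_
      unfold VV ph
      ring) (i3.sub i2)
  rw [intervalIntegral.integral_sub i3 i2, hF0] at key
  have e1 : (q0 * (Ts - Ts) - q1 * (Ts ^ 2 - Ts ^ 2) / 2) * (H - cw m Ts * ph μ m p z Ts)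
      - (q0 * (Ts - 0) - q1 * (Ts ^ 2 - 0 ^ 2) / 2) * (H - H) = 0 := by ring
  rw [e1] at key
  linarith

/-- the integral of the quadratic form over the levels -/
theorem Zint (h : OneP μ m p n) (hm : 1 ≤ m) (hz : Continuous z) {Ts q0 q1 A0 η δ cs : ℝ}
    (hTs0 : 0 < Ts) (hTs1 : Ts < 1) (hq1 : 0 ≤ q1) (hq : q1 * Ts ≤ q0) {ℓ : ℝ → ℝ}
    (hℓc : ContinuousOn ℓ (Icc 0 Ts)) (hA0 : 0 ≤ A0) (hη : 0 ≤ η) (hδ : 0 < δ)
    (hlev : ∀ T ∈ Icc 0 Ts, ℓ T * (∫ x, ‖z x‖ ^ 2 ∂μ)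
      - ((∫ x, ‖z x‖ ^ 2 ∂μ) - cw m T * ph μ m p z T) ≤ cw m T * LL μ m p z T)
    (hVb : ∀ T ∈ Icc 0 Ts, (1 - T) * √(cw m T * VV μ m p n z T) ≤ √(cw m T * ph μ m p z T)
      + √(2 * A0 * (cw m T * LL μ m p z T)) + η * √(∫ x, ‖z x‖ ^ 2 ∂μ))
    (hcs : 1 ≤ cs * ((1 - Ts) ^ 2 * (1 - Ts ^ 2))) :
    (∫ x, ‖z x‖ ^ 2 ∂μ) * ((∫ T in (0 : ℝ)..Ts, (q0 - q1 * T) * ℓ T)
      - cs * ((1 + δ) * (1 + η) ^ 2) * ∫ T in (0 : ℝ)..Ts, (q0 - q1 * T) * (T * (Ts - T)))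
      ≤ (1 + cs * ((1 + 1 / δ) * (2 * A0)) * (Ts ^ 2 / 4))
        * ∫ T in (0 : ℝ)..Ts, (q0 - q1 * T) * (cw m T * LL μ m p z T) := by
  set H := ∫ x, ‖z x‖ ^ 2 ∂μ with hH
  have hH0 : 0 ≤ H := integral_nonneg fun x => by positivity
  have hsub : Icc 0 Ts ⊆ Ico (0 : ℝ) 1 := fun x hx => ⟨hx.1, hx.2.trans_lt hTs1⟩
  have hu : uIcc 0 Ts = Icc 0 Ts := uIcc_of_le hTs0.le
  have cf : Continuous fun x => ‖z x‖ ^ 2 := by fun_prop
  have cΦ : ContinuousOn (fun T => cw m T * ph μ m p z T) (Icc 0 Ts) :=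
    (contOn_ph h.cp h.np cf).mono hsub
  have cV := (contOn_VV h hz).mono hsub
  have cL := (contOn_LL (μ := μ) h hz).mono hsub
  have cq : ContinuousOn (fun T : ℝ => q0 - q1 * T) (Icc 0 Ts) := by fun_prop
  have ck : ContinuousOn (fun T : ℝ => T / (1 - T ^ 2)) (Icc 0 Ts) :=
    ContinuousOn.div (by fun_prop) (by fun_prop) fun x hx =>
      (one_sub_sq_pos hx.1 (hx.2.trans_lt hTs1)).ne'
  have hTs2 : 0 < (1 - Ts) ^ 2 * (1 - Ts ^ 2) := by
    have := one_sub_sq_pos hTs0.le hTs1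
    have h2 : 0 < 1 - Ts := by linarith
    positivity
  have hcs0 : 0 < cs := by
    by_contra hc
    rw [not_lt] at hc
    nlinarith
  -- the intervals
  have iq {g : ℝ → ℝ} (hg : ContinuousOn g (Icc 0 Ts)) :
      IntervalIntegrable (fun T => (q0 - q1 * T) * g T) volume 0 Ts := by
    refine ContinuousOn.intervalIntegrable ?_
    rw [hu]
    exact cq.mul hg
  have iL := iq cL
  have iℓ := iq hℓc
  have iΦ : IntervalIntegrable (fun T => (q0 - q1 * T) * (H - cw m T * ph μ m p z T)) volume 0 Ts :=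
    iq (continuousOn_const.sub cΦ)
  have iH : IntervalIntegrable (fun T => (q0 - q1 * T) * (ℓ T * H)) volume 0 Ts :=
    iq (hℓc.mul continuousOn_const)
  have iTT := iq (by fun_prop : ContinuousOn (fun T : ℝ => T * (Ts - T)) (Icc 0 Ts))
  have hq0 : ∀ T ∈ Icc 0 Ts, 0 ≤ q0 - q1 * T := by
    intro T hT
    have := mul_le_mul_of_nonneg_left hT.2 hq1
    linarith
  -- step one
  have s1 : ∫ T in (0 : ℝ)..Ts, ((q0 - q1 * T) * (ℓ T * H)
      - (q0 - q1 * T) * (H - cw m T * ph μ m p z T))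
      ≤ ∫ T in (0 : ℝ)..Ts, (q0 - q1 * T) * (cw m T * LL μ m p z T) := by
    refine intervalIntegral.integral_mono_on hTs0.le (iH.sub iΦ) iL
      fun T hT => ?_
    have := mul_le_mul_of_nonneg_left (hlev T hT) (hq0 T hT)
    linarith
  have e1 : ∫ T in (0 : ℝ)..Ts, (q0 - q1 * T) * (ℓ T * H)
      = H * ∫ T in (0 : ℝ)..Ts, (q0 - q1 * T) * ℓ T := by
    rw [← intervalIntegral.integral_const_mul]
    refine intervalIntegral.integral_congr fun T _ => ?_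
    ring
  rw [intervalIntegral.integral_sub iH iΦ, e1,
    loss_eq h hm hz hTs0 hTs1] at s1
  -- step two
  have s2 : ∫ T in (0 : ℝ)..Ts, (q0 * (Ts - T) - q1 * (Ts ^ 2 - T ^ 2) / 2)
        * (T / (1 - T ^ 2) * (cw m T * VV μ m p n z T))
      ≤ ∫ T in (0 : ℝ)..Ts, (cs * ((1 + δ) * (1 + η) ^ 2) * H * ((q0 - q1 * T) * (T * (Ts - T)))
        + cs * ((1 + 1 / δ) * (2 * A0)) * (Ts ^ 2 / 4)
          * ((q0 - q1 * T) * (cw m T * LL μ m p z T))) := by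
    refine intervalIntegral.integral_mono_on hTs0.le ?_ ((iTT.const_mul _).add (iL.const_mul _))
      fun T hT => ?_
    · refine ContinuousOn.intervalIntegrable ?_
      rw [hu]
      exact ContinuousOn.mul (by fun_prop) (ck.mul cV)
    · have hT1 : T < 1 := hT.2.trans_lt hTs1
      have hk := one_sub_sq_pos hT.1 hT1
      have hc := (cw_pos (m := m) hT.1 hT1).le
      have nV0 : 0 ≤ cw m T * VV μ m p n z T := mul_nonneg hc (VV_nonneg hT.1 hT1 h.np)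
      have nL0 : 0 ≤ cw m T * LL μ m p z T := mul_nonneg hc (LL_nonneg hT.1 hT1 h.np)
      have nΦ : cw m T * ph μ m p z T ≤ H := by
        have := dens_of_oneP h hm hT.1 hT1 (fun x => ‖z x‖ ^ 2) (by fun_prop)
          (fun x => by positivity)
        have k2 := mul_le_mul_of_nonneg_left this hc
        rw [← mul_assoc, mul_inv_cancel₀ (cw_pos (m := m) hT.1 hT1).ne', one_mul] at k2
        exact k2
      have v1 := V_of_sqrt hT1 nV0 hH0 nΦ nL0 hA0 hη hδ (hVb T hT)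
      have hTs' : 0 ≤ q0 - q1 * T := hq0 T hT
      have v2 := loss_pt (a := (1 + δ) * (1 + η) ^ 2) (b := (1 + 1 / δ) * (2 * A0)) (cs := cs)
        (V := cw m T * VV μ m p n z T) (L := cw m T * LL μ m p z T) (H := H) (q0 := q0)
        hT.1 hT.2 hTs1 hq1 hTs' nV0 nL0 hH0 (by positivity) (by positivity) (by linarith) hcs hcs0
      exact v2
  rw [intervalIntegral.integral_add (iTT.const_mul _) (iL.const_mul _),
    intervalIntegral.integral_const_mul, intervalIntegral.integral_const_mul] at s2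
  nlinarith

end

end Vale.Agent.P224.R2.H460
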